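import Vale.Agent.P335.Defs

/-! # Averaging operators -/

open scoped Classical

namespace Vale.Agent.P335

variable {X : Type*} [Fintype X]

theorem ip_comm (f g : X → ℝ) : ip f g = ip g f := by
  unfold ip; exact Finset.sum_congr rfl (fun x _ => mul_comm _ _)

theorem ip_self_nonneg (f : X → ℝ) : 0 ≤ ip f f := by
  unfold ip; exact Finset.sum_nonneg (fun x _ => mul_self_nonneg _)

theorem ip_add_left (f g h : X → ℝ) : ip (f + g) h = ip f h + ip g h := by
  unfold ip; rw [← Finset.sum_add_distrib]; exact Finset.sum_congr rfl (fun x _ => by simp [add_mul])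

theorem ip_sub_left (f g h : X → ℝ) : ip (f - g) h = ip f h - ip g h := by
  unfold ip; rw [← Finset.sum_sub_distrib]; exact Finset.sum_congr rfl (fun x _ => by simp [sub_mul])

theorem ip_smul_left (c : ℝ) (f h : X → ℝ) : ip (c • f) h = c * ip f h := by
  unfold ip; rw [Finset.mul_sum]; exact Finset.sum_congr rfl (fun x _ => by simp [mul_assoc])

theorem ip_add_right (f g h : X → ℝ) : ip h (f + g) = ip h f + ip h g := by
  rw [ip_comm, ip_add_left, ip_comm f, ip_comm g]

theorem ip_sub_right (f g h : X → ℝ) : ip h (f - g) = ip h f - ip h g := by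
  rw [ip_comm, ip_sub_left, ip_comm f, ip_comm g]

theorem ip_smul_right (c : ℝ) (f h : X → ℝ) : ip h (c • f) = c * ip h f := by
  rw [ip_comm, ip_smul_left, ip_comm f]

/-- the class of `x` as a finset -/
noncomputable def cls (r : Setoid X) (x : X) : Finset X := Finset.univ.filter (fun y => r x y)

theorem mem_cls {r : Setoid X} {x y : X} : y ∈ cls r x ↔ r x y := by simp [cls]

theorem self_mem_cls (r : Setoid X) (x : X) : x ∈ cls r x := mem_cls.2 (r.refl x)

theorem cls_card_pos (r : Setoid X) (x : X) : 0 < ((cls r x).card : ℝ) := by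
  exact_mod_cast Finset.card_pos.2 ⟨x, self_mem_cls r x⟩

theorem cls_eq {r : Setoid X} {x y : X} (h : r x y) : cls r x = cls r y := by
  ext z; rw [mem_cls, mem_cls]
  exact ⟨fun hz => r.trans (r.symm h) hz, fun hz => r.trans h hz⟩

theorem avg_def (r : Setoid X) (f : X → ℝ) (x : X) :
    avg r f x = (∑ y ∈ cls r x, f y) / ((cls r x).card : ℝ) := rfl

theorem avg_eq_of_rel (r : Setoid X) (f : X → ℝ) {x y : X} (h : r x y) : avg r f x = avg r f y := by
  rw [avg_def, avg_def, cls_eq h]

theorem avg_of_inv (r : Setoid X) (f : X → ℝ) (h : ∀ x y, r x y → f x = f y) : avg r f = f := by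
  funext x
  rw [avg_def, Finset.sum_congr rfl (g := fun _ => f x) (fun y hy => (h x y (mem_cls.1 hy)).symm),
    Finset.sum_const, nsmul_eq_mul, mul_div_assoc, mul_comm, div_mul_cancel₀ _ (cls_card_pos r x).ne']

theorem avg_idem (r : Setoid X) (f : X → ℝ) : avg r (avg r f) = avg r f :=
  avg_of_inv r _ (fun _ _ h => avg_eq_of_rel r f h)

theorem avg_add (r : Setoid X) (f g : X → ℝ) : avg r (f + g) = avg r f + avg r g := by
  funext x; simp [avg_def, Finset.sum_add_distrib, add_div]

theorem avg_sub (r : Setoid X) (f g : X → ℝ) : avg r (f - g) = avg r f - avg r g := by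
  funext x; simp [avg_def, Finset.sum_sub_distrib, sub_div]

theorem avg_smul (r : Setoid X) (c : ℝ) (f : X → ℝ) : avg r (c • f) = c • avg r f := by
  funext x; simp [avg_def, ← Finset.mul_sum, mul_div_assoc]

/-- `avg` as a linear map -/
noncomputable def avgL (r : Setoid X) : (X → ℝ) →ₗ[ℝ] (X → ℝ) where
  toFun := avg r
  map_add' := avg_add r
  map_smul' := avg_smul r

/-- symmetry -/
theorem avg_symm (r : Setoid X) (f g : X → ℝ) : ip (avg r f) g = ip f (avg r g) := by
  unfold ip
  have h1 : ∀ f g : X → ℝ, ∑ x, avg r f x * g x =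
      ∑ x, ∑ y, if r x y then f y * g x / ((cls r x).card : ℝ) else 0 := by
    intro f g
    refine Finset.sum_congr rfl (fun x _ => ?_)
    rw [avg_def, div_mul_eq_mul_div, Finset.sum_mul, Finset.sum_div, ← Finset.sum_filter]
    rfl
  have h2 : ∀ x, f x * avg r g x = avg r g x * f x := fun x => mul_comm _ _
  rw [h1, Finset.sum_congr rfl (fun x _ => h2 x), h1, Finset.sum_comm]
  refine Finset.sum_congr rfl (fun x _ => Finset.sum_congr rfl (fun y _ => ?_))
  by_cases h : r x y
  · rw [if_pos h, if_pos (r.symm h), cls_eq h, mul_comm]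
  · rw [if_neg h, if_neg (fun h' => h (r.symm h'))]

theorem ip_avg_self (r : Setoid X) (f : X → ℝ) : ip f (avg r f) = ip (avg r f) (avg r f) := by
  rw [avg_symm, avg_idem]

/-- nested relations -/
theorem avg_le_left {r s : Setoid X} (h : ∀ x y, r x y → s x y) (f : X → ℝ) :
    avg r (avg s f) = avg s f :=
  avg_of_inv r _ (fun _ _ hr => avg_eq_of_rel s f (h _ _ hr))

theorem eq_of_ip_eq {f g : X → ℝ} (h : ∀ k, ip f k = ip g k) : f = g := by
  have h1 : ip (f - g) (f - g) = 0 := by
    rw [ip_sub_left, h (f - g), sub_self]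
  unfold ip at h1
  rw [Finset.sum_eq_zero_iff_of_nonneg (fun x _ => mul_self_nonneg _)] at h1
  funext x
  have := h1 x (Finset.mem_univ x)
  exact sub_eq_zero.1 (mul_self_eq_zero.1 this)

theorem avg_le_right {r s : Setoid X} (h : ∀ x y, r x y → s x y) (f : X → ℝ) :
    avg s (avg r f) = avg s f := by
  apply eq_of_ip_eq
  intro k
  rw [avg_symm, avg_symm, avg_le_left h, avg_symm]

/-- averaging commutes with a bijection preserving the relation -/
theorem avg_comp_equiv (r : Setoid X) (σ : X ≃ X) (hσ : ∀ x y, r x y ↔ r (σ x) (σ y))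
    (f : X → ℝ) (x : X) : avg r (fun y => f (σ y)) x = avg r f (σ x) := by
  have h : cls r (σ x) = (cls r x).map σ.toEmbedding := by
    ext z
    simp only [mem_cls, Finset.mem_map, Equiv.coe_toEmbedding]
    constructor
    · intro hz
      refine ⟨σ.symm z, ?_, by simp⟩
      rw [hσ]; simpa using hz
    · rintro ⟨y, hy, rfl⟩
      exact (hσ _ _).1 hy
  rw [avg_def, avg_def, h, Finset.sum_map, Finset.card_map]
  rfl

/-- commutation criterion: for `x ~_r x'` there is a bijection between the `s`-classes of `x` and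
`x'` moving every point inside its `r`-class. -/
theorem avg_comm_of (r s : Setoid X)
    (h : ∀ x x', r x x' → ∃ φ : X → X, Set.BijOn φ {y | s x y} {y | s x' y} ∧
      ∀ y, s x y → r y (φ y)) (f : X → ℝ) :
    avg r (avg s f) = avg s (avg r f) := by
  have key : ∀ g : X → ℝ, avg r (avg s (avg r g)) = avg s (avg r g) := by
    intro g
    apply avg_of_inv
    intro x x' hx
    obtain ⟨φ, hφ, hr⟩ := h x x' hx
    have himg : cls s x' = (cls s x).image φ := by
      ext z
      simp only [mem_cls, Finset.mem_image]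
      constructor
      · intro hz
        obtain ⟨y, hy, rfl⟩ := hφ.surjOn hz
        exact ⟨y, hy, rfl⟩
      · rintro ⟨y, hy, rfl⟩
        exact hφ.mapsTo hy
    have hinj : Set.InjOn φ (cls s x : Set X) := by
      intro y hy z hz hyz
      have hy' : s x y := mem_cls.1 (Finset.mem_coe.1 hy)
      have hz' : s x z := mem_cls.1 (Finset.mem_coe.1 hz)
      exact hφ.injOn hy' hz' hyz
    rw [avg_def, avg_def, himg, Finset.sum_image hinj, Finset.card_image_of_injOn hinj]
    congr 1
    refine Finset.sum_congr rfl (fun y hy => ?_)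
    exact avg_eq_of_rel r g (hr y (mem_cls.1 hy))
  apply eq_of_ip_eq
  intro k
  calc ip (avg r (avg s f)) k = ip f (avg s (avg r k)) := by rw [avg_symm, avg_symm]
    _ = ip f (avg r (avg s (avg r k))) := by rw [key]
    _ = ip (avg r (avg s (avg r f))) k := by rw [avg_symm, avg_symm, avg_symm]
    _ = ip (avg s (avg r f)) k := by rw [key]

/-- product of two commuting averaging complements is nonnegative -/
theorem ip_avg_nonneg (r : Setoid X) (f : X → ℝ) : 0 ≤ ip f (avg r f) := by
  rw [ip_avg_self]; exact ip_self_nonneg _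

end Vale.Agent.P335
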