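import Vale.Agent.P335.AvgBasic

/-! # Basic facts on `pairRel`, `Z`, `sw` -/

open scoped Classical

namespace Vale.Agent.P335

variable {V : Type*} [Fintype V]

theorem deg_eq_sum (G : SimpleGraph V) (v : V) : deg G v = ∑ w, if G.Adj v w then 1 else 0 := by
  unfold deg; rw [Finset.card_filter]

theorem pairRel_adj {a b : V} {G H : SimpleGraph V} (h : pairRel a b G H) {u v : V}
    (huv : (u = a ∨ u = b) ↔ (v = a ∨ v = b)) : G.Adj u v ↔ H.Adj u v := h.1 u v huv

theorem pairRel_deg {a b : V} {G H : SimpleGraph V} (h : pairRel a b G H) (v : V) :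
    deg G v = deg H v := h.2 v

theorem pairRel_sum {a b : V} (hab : a ≠ b) {G H : SimpleGraph V} (h : pairRel a b G H) {w : V}
    (hwa : w ≠ a) (hwb : w ≠ b) :
    (if G.Adj w a then 1 else 0) + (if G.Adj w b then 1 else 0) =
      (if H.Adj w a then 1 else 0) + (if H.Adj w b then (1 : ℕ) else 0) := by
  have hd := h.2 w
  rw [deg_eq_sum, deg_eq_sum] at hd
  have hs : ∀ K : SimpleGraph V, ∑ v, (if K.Adj w v then 1 else 0) =
      (∑ v ∈ (Finset.univ.erase a).erase b, if K.Adj w v then 1 else 0) +
        ((if K.Adj w a then 1 else 0) + (if K.Adj w b then (1 : ℕ) else 0)) := by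
    intro K
    rw [← Finset.sum_erase_add Finset.univ _ (Finset.mem_univ a),
      ← Finset.sum_erase_add (Finset.univ.erase a) _
        (Finset.mem_erase.2 ⟨hab.symm, Finset.mem_univ b⟩)]
    ring
  rw [hs G, hs H] at hd
  have hrest : (∑ v ∈ (Finset.univ.erase a).erase b, if G.Adj w v then 1 else 0) =
      ∑ v ∈ (Finset.univ.erase a).erase b, if H.Adj w v then 1 else 0 := by
    refine Finset.sum_congr rfl (fun v hv => ?_)
    rw [Finset.mem_erase, Finset.mem_erase] at hv
    have : G.Adj w v ↔ H.Adj w v := by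
      apply h.1
      constructor
      · rintro (h1 | h1)
        · exact absurd h1 hwa
        · exact absurd h1 hwb
      · rintro (h1 | h1)
        · exact absurd h1 hv.2.1
        · exact absurd h1 hv.1
    simp only [this]
  omega

theorem slot_comm {a b c d u v : V} : slot a b c d u v ↔ slot a b c d v u := by
  unfold slot; tauto

theorem slot_symm {a b c d u v : V} : slot a b c d u v ↔ slot c d a b u v := by
  unfold slot; tauto

theorem Z_symm {a b c d : V} {G : SimpleGraph V} : Z a b c d G ↔ Z c d a b G := by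
  unfold Z
  rw [G.adj_comm c a, G.adj_comm d b, G.adj_comm c b, G.adj_comm d a]
  tauto

theorem flip4_adj {a b c d : V} {G : SimpleGraph V} {u v : V} :
    (flip4 a b c d G).Adj u v ↔ u ≠ v ∧ (if slot a b c d u v then ¬ G.Adj u v else G.Adj u v) :=
  Iff.rfl

theorem flip4_adj_of_not_slot {a b c d : V} {G : SimpleGraph V} {u v : V}
    (h : ¬ slot a b c d u v) : (flip4 a b c d G).Adj u v ↔ G.Adj u v := by
  rw [flip4_adj, if_neg h]
  exact ⟨fun h => h.2, fun h => ⟨h.ne, h⟩⟩

theorem flip4_adj_of_slot {a b c d : V} {G : SimpleGraph V} {u v : V} (huv : u ≠ v)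
    (h : slot a b c d u v) : (flip4 a b c d G).Adj u v ↔ ¬ G.Adj u v := by
  rw [flip4_adj, if_pos h]
  exact ⟨fun h => h.2, fun h => ⟨huv, h⟩⟩

theorem flip4_symm {a b c d : V} (G : SimpleGraph V) : flip4 a b c d G = flip4 c d a b G := by
  ext u v
  rw [flip4_adj, flip4_adj]
  simp only [slot_symm (a := a) (b := b) (c := c) (d := d)]

theorem flip4_flip4 (a b c d : V) (G : SimpleGraph V) :
    flip4 a b c d (flip4 a b c d G) = G := by
  ext u v
  by_cases huv : u = v
  · subst huv; simp
  · by_cases hs : slot a b c d u v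
    · rw [flip4_adj_of_slot huv hs, flip4_adj_of_slot huv hs, not_not]
    · rw [flip4_adj_of_not_slot hs, flip4_adj_of_not_slot hs]

theorem Z_flip4 {a b c d : V} (hac : a ≠ c) (had : a ≠ d) (hbc : b ≠ c) (hbd : b ≠ d)
    (G : SimpleGraph V) : Z a b c d (flip4 a b c d G) ↔ Z a b c d G := by
  unfold Z
  rw [flip4_adj_of_slot hac (by unfold slot; tauto), flip4_adj_of_slot had (by unfold slot; tauto),
    flip4_adj_of_slot hbc (by unfold slot; tauto), flip4_adj_of_slot hbd (by unfold slot; tauto)]
  tauto

theorem sw_symm {a b c d : V} (G : SimpleGraph V) : sw a b c d G = sw c d a b G := by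
  unfold sw
  by_cases h : Z a b c d G
  · rw [if_pos h, if_pos (Z_symm.1 h), flip4_symm]
  · rw [if_neg h, if_neg (fun h' => h (Z_symm.2 h'))]

theorem Z_sw {a b c d : V} (hac : a ≠ c) (had : a ≠ d) (hbc : b ≠ c) (hbd : b ≠ d)
    (G : SimpleGraph V) : Z a b c d (sw a b c d G) ↔ Z a b c d G := by
  unfold sw
  by_cases h : Z a b c d G
  · rw [if_pos h]; exact Z_flip4 hac had hbc hbd G
  · rw [if_neg h]

theorem sw_sw {a b c d : V} (hac : a ≠ c) (had : a ≠ d) (hbc : b ≠ c) (hbd : b ≠ d)
    (G : SimpleGraph V) : sw a b c d (sw a b c d G) = G := by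
  by_cases h : Z a b c d G
  · have h1 : sw a b c d G = flip4 a b c d G := by unfold sw; rw [if_pos h]
    rw [h1]
    unfold sw
    rw [if_pos ((Z_flip4 hac had hbc hbd G).2 h), flip4_flip4]
  · have h1 : sw a b c d G = G := by unfold sw; rw [if_neg h]
    rw [h1, h1]

/-- degrees are preserved by the switch -/
theorem deg_sw {a b c d : V} (hac : a ≠ c) (had : a ≠ d) (hbc : b ≠ c)
    (hbd : b ≠ d) (G : SimpleGraph V) (v : V) :
    deg (sw a b c d G) v = deg G v := by
  by_cases hZ : Z a b c d G
  swap
  · unfold sw; rw [if_neg hZ]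
  have h1 : sw a b c d G = flip4 a b c d G := by unfold sw; rw [if_pos hZ]
  rw [h1, deg_eq_sum, deg_eq_sum]
  -- permutation of the neighbours
  have key : ∃ σ : Equiv.Perm V, ∀ w, (flip4 a b c d G).Adj v w ↔ G.Adj v (σ w) := by
    by_cases hv : v = a ∨ v = b
    · refine ⟨Equiv.swap c d, fun w => ?_⟩
      by_cases hwc : w = c
      · subst hwc
        rw [Equiv.swap_apply_left]
        have hne : v ≠ w := by rcases hv with h | h <;> subst h <;> assumption
        rw [flip4_adj_of_slot hne (by unfold slot; tauto)]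
        unfold Z at hZ
        rcases hv with h | h <;> subst h <;> tauto
      · by_cases hwd : w = d
        · subst hwd
          rw [Equiv.swap_apply_right]
          have hne : v ≠ w := by rcases hv with h | h <;> subst h <;> assumption
          rw [flip4_adj_of_slot hne (by unfold slot; tauto)]
          unfold Z at hZ
          rcases hv with h | h <;> subst h <;> tauto
        · rw [Equiv.swap_apply_of_ne_of_ne hwc hwd, flip4_adj_of_not_slot]
          unfold slot
          rintro (⟨_, h | h⟩ | ⟨h | h, _⟩)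
          · exact hwc h
          · exact hwd h
          · rcases hv with h' | h' <;> subst h' <;> first | exact hac h | exact hbc h
          · rcases hv with h' | h' <;> subst h' <;> first | exact had h | exact hbd h
    · by_cases hv2 : v = c ∨ v = d
      · refine ⟨Equiv.swap a b, fun w => ?_⟩
        by_cases hwa : w = a
        · subst hwa
          rw [Equiv.swap_apply_left]
          have hne : v ≠ w := by
            rcases hv2 with h | h <;> subst h <;> first | exact hac.symm | exact had.symm
          rw [flip4_adj_of_slot hne (by unfold slot; tauto)]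
          unfold Z at hZ
          rw [G.adj_comm v w, G.adj_comm v b]
          rcases hv2 with h | h <;> subst h <;> tauto
        · by_cases hwb : w = b
          · subst hwb
            rw [Equiv.swap_apply_right]
            have hne : v ≠ w := by
              rcases hv2 with h | h <;> subst h <;> first | exact hbc.symm | exact hbd.symm
            rw [flip4_adj_of_slot hne (by unfold slot; tauto)]
            unfold Z at hZ
            rw [G.adj_comm v w, G.adj_comm v a]
            rcases hv2 with h | h <;> subst h <;> tauto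
          · rw [Equiv.swap_apply_of_ne_of_ne hwa hwb, flip4_adj_of_not_slot]
            unfold slot
            tauto
      · refine ⟨Equiv.refl V, fun w => ?_⟩
        rw [Equiv.refl_apply, flip4_adj_of_not_slot]
        unfold slot
        tauto
  obtain ⟨σ, hσ⟩ := key
  simp only [hσ]
  exact Equiv.sum_comp σ (fun w => if G.Adj v w then 1 else 0)

theorem pairRel_sw {a b c d : V} (hac : a ≠ c) (had : a ≠ d) (hbc : b ≠ c)
    (hbd : b ≠ d) (G : SimpleGraph V) : pairRel a b G (sw a b c d G) := by
  refine ⟨fun u v huv => ?_, fun v => (deg_sw hac had hbc hbd G v).symm⟩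
  by_cases hZ : Z a b c d G
  · have h1 : sw a b c d G = flip4 a b c d G := by unfold sw; rw [if_pos hZ]
    rw [h1, flip4_adj_of_not_slot]
    unfold slot
    rintro (⟨h1, h2⟩ | ⟨h1, h2⟩)
    · have h3 := huv.1 h1
      rcases h2 with rfl | rfl
      · rcases h3 with h | h
        · exact hac h.symm
        · exact hbc h.symm
      · rcases h3 with h | h
        · exact had h.symm
        · exact hbd h.symm
    · have h3 := huv.2 h2
      rcases h1 with rfl | rfl
      · rcases h3 with h | h
        · exact hac h.symm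
        · exact hbc h.symm
      · rcases h3 with h | h
        · exact had h.symm
        · exact hbd h.symm
  · unfold sw; rw [if_neg hZ]

theorem pairRelZ_sw {a b c d : V} (hac : a ≠ c) (had : a ≠ d) (hbc : b ≠ c)
    (hbd : b ≠ d) (G : SimpleGraph V) : pairRelZ a b c d G (sw a b c d G) :=
  ⟨pairRel_sw hac had hbc hbd G, (Z_sw hac had hbc hbd G).symm⟩

theorem pairRelZ_sw' {a b c d : V} (hac : a ≠ c) (had : a ≠ d) (hbc : b ≠ c)
    (hbd : b ≠ d) (G : SimpleGraph V) : pairRelZ c d a b G (sw a b c d G) := by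
  rw [sw_symm]
  exact pairRelZ_sw hac.symm hbc.symm had.symm hbd.symm G

/-- `sw` as an equivalence -/
noncomputable def swEquiv {a b c d : V} (hac : a ≠ c) (had : a ≠ d) (hbc : b ≠ c) (hbd : b ≠ d) :
    SimpleGraph V ≃ SimpleGraph V where
  toFun := sw a b c d
  invFun := sw a b c d
  left_inv := sw_sw hac had hbc hbd
  right_inv := sw_sw hac had hbc hbd

/-- if both pair classes of `G` meet `Z` then `G ∈ Z` -/
theorem Z_of_both {a b c d : V} (hab : a ≠ b) (hac : a ≠ c) (had : a ≠ d) (hbc : b ≠ c)
    (hbd : b ≠ d) (hcd : c ≠ d) {G G1 G2 : SimpleGraph V} (h1 : pairRel a b G G1)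
    (hZ1 : Z a b c d G1) (h2 : pairRel c d G G2) (hZ2 : Z a b c d G2) : Z a b c d G := by
  have e1 := pairRel_sum hab h1 hac.symm hbc.symm
  have e2 := pairRel_sum hab h1 had.symm hbd.symm
  have e3 := pairRel_sum hcd h2 hac had
  have e4 := pairRel_sum hcd h2 hbc hbd
  rw [G.adj_comm c a, G.adj_comm c b, G1.adj_comm c a, G1.adj_comm c b] at e1
  rw [G.adj_comm d a, G.adj_comm d b, G1.adj_comm d a, G1.adj_comm d b] at e2
  unfold Z at hZ1 hZ2 ⊢
  by_cases x1 : G.Adj a c <;> by_cases x2 : G.Adj a d <;> by_cases x3 : G.Adj b c <;>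
    by_cases x4 : G.Adj b d <;> rcases hZ1 with ⟨y1, y2, y3, y4⟩ | ⟨y1, y2, y3, y4⟩ <;>
    rcases hZ2 with ⟨z1, z2, z3, z4⟩ | ⟨z1, z2, z3, z4⟩ <;>
    simp [x1, x2, x3, x4, y1, y2, y3, y4, z1, z2, z3, z4] at e1 e2 e3 e4 ⊢

end Vale.Agent.P335
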