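import Vale.Agent.P335.ChainP
import Vale.Agent.P335.PairBasic

/-! # The switch chain `P_d`: Dirichlet form -/

open scoped Classical

namespace Vale.Agent.P335

variable {n : ℕ}

/-- extension by zero -/
noncomputable def ext0 (d : Fin n → ℕ) (f : Omega n d → ℝ) : SimpleGraph (Fin n) → ℝ :=
  fun G => if h : ∀ v, G.degree v = d v then f ⟨G, h⟩ else 0

namespace ChainD

theorem mem_two {u v a b c e : Fin n} :
    s(u, v) ∈ ({s(a, c), s(b, e)} : Finset (Sym2 (Fin n))) ↔
      ((u = a ∧ v = c) ∨ (u = c ∧ v = a)) ∨ ((u = b ∧ v = e) ∨ (u = e ∧ v = b)) := by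
  rw [Finset.mem_insert, Finset.mem_singleton, Sym2.eq_iff, Sym2.eq_iff]

/-- the attempted move is the switch -/
theorem attempt_eq_sw {a b c e : Fin n} (hab : a ≠ b) (hac : a ≠ c) (hae : a ≠ e)
    (hbc : b ≠ c) (hbe : b ≠ e) (hce : c ≠ e) {G : SimpleGraph (Fin n)}
    (h1 : G.Adj a c) (h2 : G.Adj b e) (h3 : ¬ G.Adj a e) (h4 : ¬ G.Adj b c) :
    attempt G {s(a, c), s(b, e)} {s(a, e), s(b, c)} = flip4 a b c e G := by
  have hF : ∀ f ∈ ({s(a, c), s(b, e)} : Finset (Sym2 (Fin n))), f ∈ G.edgeSet := by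
    intro f hf
    rw [Finset.mem_insert, Finset.mem_singleton] at hf
    rcases hf with rfl | rfl
    · exact h1
    · exact h2
  have hF' : ∀ f ∈ ({s(a, e), s(b, c)} : Finset (Sym2 (Fin n))), f ∉ G.edgeSet := by
    intro f hf
    rw [Finset.mem_insert, Finset.mem_singleton] at hf
    rcases hf with rfl | rfl
    · exact h3
    · exact h4
  have h1' := h1.symm
  have h2' := h2.symm
  have h3' : ¬ G.Adj e a := fun h => h3 h.symm
  have h4' : ¬ G.Adj c b := fun h => h4 h.symm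
  ext u v
  rw [ChainP.attempt_adj hF hF', flip4_adj, mem_two, mem_two]
  by_cases hs : slot a b c e u v
  · rw [if_pos hs]
    unfold slot at hs
    rcases hs with ⟨hu | hu, hv | hv⟩ | ⟨hu | hu, hv | hv⟩ <;> subst hu <;> subst hv
    · simp [h1, hac, hab, hae, hbc, hbe, hce, hab.symm, hac.symm, hae.symm, hbc.symm, hbe.symm,
        hce.symm]
    · simp [h3, hac, hab, hae, hbc, hbe, hce, hab.symm, hac.symm, hae.symm, hbc.symm, hbe.symm,
        hce.symm]
    · simp [h4, hac, hab, hae, hbc, hbe, hce, hab.symm, hac.symm, hae.symm, hbc.symm, hbe.symm,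
        hce.symm]
    · simp [h2, hac, hab, hae, hbc, hbe, hce, hab.symm, hac.symm, hae.symm, hbc.symm, hbe.symm,
        hce.symm]
    · simp [h1', hac, hab, hae, hbc, hbe, hce, hab.symm, hac.symm, hae.symm, hbc.symm, hbe.symm,
        hce.symm]
    · simp [h4', hac, hab, hae, hbc, hbe, hce, hab.symm, hac.symm, hae.symm, hbc.symm, hbe.symm,
        hce.symm]
    · simp [h3', hac, hab, hae, hbc, hbe, hce, hab.symm, hac.symm, hae.symm, hbc.symm, hbe.symm,
        hce.symm]
    · simp [h2', hac, hab, hae, hbc, hbe, hce, hab.symm, hac.symm, hae.symm, hbc.symm, hbe.symm,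
        hce.symm]
  · rw [if_neg hs]
    have hn1 : ¬ (((u = a ∧ v = c) ∨ (u = c ∧ v = a)) ∨ ((u = b ∧ v = e) ∨ (u = e ∧ v = b))) := by
      intro h; apply hs; unfold slot; tauto
    have hn2 : ¬ (((u = a ∧ v = e) ∨ (u = e ∧ v = a)) ∨ ((u = b ∧ v = c) ∨ (u = c ∧ v = b))) := by
      intro h; apply hs; unfold slot; tauto
    constructor
    · rintro ⟨⟨h, -⟩ | h, huv⟩
      · exact ⟨huv, h⟩
      · exact absurd h hn2
    · rintro ⟨huv, h⟩
      exact ⟨Or.inl ⟨h, hn1⟩, huv⟩

theorem flip4_swap (a b c e : Fin n) (G : SimpleGraph (Fin n)) :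
    flip4 a b c e G = flip4 a b e c G := by
  ext u v
  rw [flip4_adj, flip4_adj]
  have : slot a b c e u v ↔ slot a b e c u v := by unfold slot; tauto
  simp only [this]

/-- there is a pair of perfect matchings whose move is the switch -/
theorem exists_pair {a b c e : Fin n} (hab : a ≠ b) (hac : a ≠ c) (hae : a ≠ e)
    (hbc : b ≠ c) (hbe : b ≠ e) (hce : c ≠ e) {G : SimpleGraph (Fin n)} (hZ : Z a b c e G) :
    ∃ p ∈ pairs ({a, b, c, e} : Finset (Fin n)), attempt G p.1 p.2 = sw a b c e G := by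
  have hS1 : ∀ v, v ∈ ({a, b, c, e} : Finset (Fin n)) ↔ v = a ∨ v = c ∨ v = b ∨ v = e := by
    intro v; simp only [Finset.mem_insert, Finset.mem_singleton]; tauto
  have hS2 : ∀ v, v ∈ ({a, b, c, e} : Finset (Fin n)) ↔ v = a ∨ v = e ∨ v = b ∨ v = c := by
    intro v; simp only [Finset.mem_insert, Finset.mem_singleton]; tauto
  have hm1 : IsPM ({a, b, c, e} : Finset (Fin n)) {s(a, c), s(b, e)} :=
    ChainM.isPM_mk hac hab hae hbc.symm hce hbe hS1
  have hm2 : IsPM ({a, b, c, e} : Finset (Fin n)) {s(a, e), s(b, c)} :=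
    ChainM.isPM_mk hae hab hac hbe.symm hce.symm hbc hS2
  have hne : ({s(a, c), s(b, e)} : Finset (Sym2 (Fin n))) ≠ {s(a, e), s(b, c)} := by
    intro h
    have h1 : s(a, c) ∈ ({s(a, e), s(b, c)} : Finset (Sym2 (Fin n))) := by
      rw [← h]; exact Finset.mem_insert_self _ _
    rw [mem_two] at h1
    rcases h1 with (h1 | h1) | (h1 | h1)
    · exact hce h1.2
    · exact hae h1.1
    · exact hab h1.1
    · exact hac h1.1
  have hsw : sw a b c e G = flip4 a b c e G := by unfold sw; rw [if_pos hZ]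
  rw [hsw]
  unfold Z at hZ
  rcases hZ with ⟨h1, h2, h3, h4⟩ | ⟨h1, h2, h3, h4⟩
  · exact ⟨({s(a, c), s(b, e)}, {s(a, e), s(b, c)}), ChainP.mem_pairs.2 ⟨hm1, hm2, hne⟩,
      attempt_eq_sw hab hac hae hbc hbe hce h1 h2 h3 h4⟩
  · refine ⟨({s(a, e), s(b, c)}, {s(a, c), s(b, e)}), ChainP.mem_pairs.2 ⟨hm2, hm1, hne.symm⟩, ?_⟩
    rw [flip4_swap]
    exact attempt_eq_sw hab hae hac hbe hbc hce.symm h3 h4 h1 h2

/-- contribution of one pair of matchings -/
noncomputable def T (d : Fin n → ℕ) (f : Omega n d → ℝ) (G : Omega n d)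
    (p : Finset (Sym2 (Fin n)) × Finset (Sym2 (Fin n))) : ℝ :=
  ∑ H : Omega n d, (if H.1 = attempt G.1 p.1 p.2 then 1 else 0) * (f G - f H) ^ 2

theorem T_nonneg (d : Fin n → ℕ) (f : Omega n d → ℝ) (G : Omega n d)
    (p : Finset (Sym2 (Fin n)) × Finset (Sym2 (Fin n))) : 0 ≤ T d f G p := by
  unfold T
  refine Finset.sum_nonneg fun H _ => mul_nonneg ?_ (sq_nonneg _)
  split_ifs <;> norm_num

noncomputable def TS (d : Fin n → ℕ) (f : Omega n d → ℝ) (S : Finset (Fin n)) : ℝ :=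
  ∑ G : Omega n d, ∑ p ∈ pairs S, T d f G p

theorem TS_nonneg (d : Fin n → ℕ) (f : Omega n d → ℝ) (S : Finset (Fin n)) : 0 ≤ TS d f S :=
  Finset.sum_nonneg fun _ _ => Finset.sum_nonneg fun _ _ => T_nonneg _ _ _ _

theorem deg_eq_degree (G : SimpleGraph (Fin n)) (v : Fin n) : deg G v = G.degree v := by
  rw [ChainP.degree_eq]; rfl

theorem anti_le {a b c e : Fin n} (hab : a ≠ b) (hac : a ≠ c) (hae : a ≠ e)
    (hbc : b ≠ c) (hbe : b ≠ e) (hce : c ≠ e) (d : Fin n → ℕ) (f : Omega n d → ℝ) :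
    ip (Anti a b c e (ext0 d f)) (Anti a b c e (ext0 d f)) ≤
      (1 / 4) * TS d f {a, b, c, e} := by
  unfold ip TS
  have hdeg : ∀ G : SimpleGraph (Fin n), (∀ v, (sw a b c e G).degree v = d v) ↔
      ∀ v, G.degree v = d v := by
    intro G
    refine forall_congr' fun v => ?_
    rw [← deg_eq_degree, ← deg_eq_degree, deg_sw hac hae hbc hbe]
  have hsub : ∑ G : SimpleGraph (Fin n), Anti a b c e (ext0 d f) G * Anti a b c e (ext0 d f) G =
      ∑ G : Omega n d, Anti a b c e (ext0 d f) G.1 * Anti a b c e (ext0 d f) G.1 := by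
    rw [← Finset.sum_subtype (Finset.univ.filter (fun G : SimpleGraph (Fin n) =>
      ∀ v, G.degree v = d v)) (p := fun G => ∀ v, G.degree v = d v) (fun G => by simp)
      (fun G => Anti a b c e (ext0 d f) G * Anti a b c e (ext0 d f) G)]
    rw [Finset.sum_filter]
    refine Finset.sum_congr rfl fun G _ => ?_
    by_cases hG : ∀ v, G.degree v = d v
    · rw [if_pos hG]
    · rw [if_neg hG]
      have h1 : ext0 d f G = 0 := by unfold ext0; rw [dif_neg hG]
      have h2 : ext0 d f (sw a b c e G) = 0 := by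
        unfold ext0; rw [dif_neg (fun h => hG ((hdeg G).1 h))]
      have : Anti a b c e (ext0 d f) G = 0 := by
        unfold Anti
        rw [h1, h2]
        simp
      rw [this, mul_zero]
  rw [hsub, Finset.mul_sum]
  refine Finset.sum_le_sum fun G _ => ?_
  by_cases hZ : Z a b c e G.1
  swap
  · have : Anti a b c e (ext0 d f) G.1 = 0 := by unfold Anti; rw [if_neg hZ]
    rw [this, mul_zero]
    exact mul_nonneg (by norm_num) (Finset.sum_nonneg fun _ _ => T_nonneg _ _ _ _)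
  have hH : ∀ v, (sw a b c e G.1).degree v = d v := (hdeg G.1).2 G.2
  have hA : Anti a b c e (ext0 d f) G.1 = (f G - f ⟨sw a b c e G.1, hH⟩) / 2 := by
    unfold Anti
    rw [if_pos hZ]
    unfold ext0
    rw [dif_pos G.2, dif_pos hH]
  rw [hA]
  obtain ⟨p, hp, hpe⟩ := exists_pair hab hac hae hbc hbe hce hZ
  have h1 : (f G - f ⟨sw a b c e G.1, hH⟩) ^ 2 ≤ T d f G p := by
    unfold T
    rw [hpe]
    have := Finset.single_le_sum (f := fun H : Omega n d =>
      (if H.1 = attempt G.1 p.1 p.2 then (1 : ℝ) else 0) * (f G - f H) ^ 2)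
      (fun H _ => mul_nonneg (by split_ifs <;> norm_num) (sq_nonneg _))
      (Finset.mem_univ (⟨sw a b c e G.1, hH⟩ : Omega n d))
    rw [hpe] at this
    simpa using this
  have h2 : T d f G p ≤ ∑ p ∈ pairs ({a, b, c, e} : Finset (Fin n)), T d f G p :=
    Finset.single_le_sum (fun p _ => T_nonneg d f G p) hp
  nlinarith [h1, h2]

theorem count_le {S : Finset (Fin n)} (hS : S.card = 4) :
    (∑ a, ∑ b, ∑ c, ∑ e, if (a ≠ b ∧ a ≠ c ∧ a ≠ e ∧ b ≠ c ∧ b ≠ e ∧ c ≠ e) ∧
      ({a, b, c, e} : Finset (Fin n)) = S then (1 : ℝ) else 0) ≤ 24 := by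
  have h : ∀ a b c e : Fin n, (if (a ≠ b ∧ a ≠ c ∧ a ≠ e ∧ b ≠ c ∧ b ≠ e ∧ c ≠ e) ∧
      ({a, b, c, e} : Finset (Fin n)) = S then (1 : ℝ) else 0) ≤
      if a ∈ S then (if b ∈ S.erase a then (if c ∈ (S.erase a).erase b then
        (if e ∈ ((S.erase a).erase b).erase c then 1 else 0) else 0) else 0) else 0 := by
    intro a b c e
    by_cases h : (a ≠ b ∧ a ≠ c ∧ a ≠ e ∧ b ≠ c ∧ b ≠ e ∧ c ≠ e) ∧
      ({a, b, c, e} : Finset (Fin n)) = S
    · obtain ⟨⟨h1, h2, h3, h4, h5, h6⟩, rfl⟩ := h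
      have e1 : a ∈ ({a, b, c, e} : Finset (Fin n)) := by simp
      have e2 : b ∈ ({a, b, c, e} : Finset (Fin n)).erase a := by simp [h1.symm]
      have e3 : c ∈ (({a, b, c, e} : Finset (Fin n)).erase a).erase b := by
        simp [h2.symm, h4.symm]
      have e4 : e ∈ ((({a, b, c, e} : Finset (Fin n)).erase a).erase b).erase c := by
        simp [h3.symm, h5.symm, h6.symm]
      rw [if_pos e1, if_pos e2, if_pos e3, if_pos e4]
      split_ifs <;> norm_num
    · rw [if_neg h]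
      split_ifs <;> norm_num
  refine (Finset.sum_le_sum fun a _ => Finset.sum_le_sum fun b _ => Finset.sum_le_sum fun c _ =>
    Finset.sum_le_sum fun e _ => h a b c e).trans ?_
  have i3 : ∀ T : Finset (Fin n), (∑ e, if e ∈ T then (1 : ℝ) else 0) = T.card := by
    intro T; simp
  have key : ∀ (T : Finset (Fin n)) (g : Fin n → ℝ) (C : ℝ), (∀ a ∈ T, g a = C) →
      (∑ a, if a ∈ T then g a else 0) = T.card * C := by
    intro T g C hg
    rw [← Finset.sum_filter, Finset.filter_mem_eq_inter, Finset.univ_inter,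
      Finset.sum_congr rfl hg, Finset.sum_const, nsmul_eq_mul]
  have s1 : ∀ a b c : Fin n, (∑ e, if a ∈ S then (if b ∈ S.erase a then
      (if c ∈ (S.erase a).erase b then
        (if e ∈ ((S.erase a).erase b).erase c then (1 : ℝ) else 0) else 0) else 0) else 0) =
      if a ∈ S then (if b ∈ S.erase a then
      (if c ∈ (S.erase a).erase b then ((((S.erase a).erase b).erase c).card : ℝ) else 0) else 0)
        else 0 := by
    intro a b c
    by_cases h1 : a ∈ S
    · by_cases h2 : b ∈ S.erase a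
      · by_cases h3 : c ∈ (S.erase a).erase b
        · simp only [h1, h2, h3, if_true]; exact i3 _
        · simp only [h1, h2, h3, if_true, if_false, Finset.sum_const_zero]
      · simp only [h1, h2, if_true, if_false, Finset.sum_const_zero]
    · simp only [h1, if_false, Finset.sum_const_zero]
  simp only [s1]
  have s2 : ∀ a b : Fin n, (∑ c, if a ∈ S then (if b ∈ S.erase a then
      (if c ∈ (S.erase a).erase b then ((((S.erase a).erase b).erase c).card : ℝ) else 0) else 0)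
        else 0) = if a ∈ S then (if b ∈ S.erase a then 2 else 0) else 0 := by
    intro a b
    by_cases h1 : a ∈ S
    · by_cases h2 : b ∈ S.erase a
      · simp only [h1, h2, if_true]
        have c2 : ((S.erase a).erase b).card = 2 := by
          rw [Finset.card_erase_of_mem h2, Finset.card_erase_of_mem h1, hS]
        rw [key _ _ 1 (fun c hc => by rw [Finset.card_erase_of_mem hc, c2]; norm_num), c2]
        norm_num
      · simp only [h1, h2, if_true, if_false, Finset.sum_const_zero]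
    · simp only [h1, if_false, Finset.sum_const_zero]
  simp only [s2]
  have s3 : ∀ a : Fin n, (∑ b, if a ∈ S then (if b ∈ S.erase a then (2 : ℝ) else 0) else 0) =
      if a ∈ S then 6 else 0 := by
    intro a
    by_cases h1 : a ∈ S
    · simp only [h1, if_true]
      rw [key _ _ 2 (fun _ _ => rfl), Finset.card_erase_of_mem h1, hS]
      norm_num
    · simp only [h1, if_false, Finset.sum_const_zero]
  simp only [s3]
  rw [key _ _ 6 (fun _ _ => rfl), hS]
  norm_num

/-- sum over ordered `4`-tuples against the sum over `4`-sets -/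
theorem tuples_le (Φ : Finset (Fin n) → ℝ) (hΦ : ∀ S, 0 ≤ Φ S) :
    (∑ a, ∑ b, ∑ c, ∑ e, if a ≠ b ∧ a ≠ c ∧ a ≠ e ∧ b ≠ c ∧ b ≠ e ∧ c ≠ e then
      Φ {a, b, c, e} else 0) ≤
      24 * ∑ S ∈ (Finset.univ : Finset (Fin n)).powersetCard 4, Φ S := by
  have h : ∀ a b c e : Fin n, (if a ≠ b ∧ a ≠ c ∧ a ≠ e ∧ b ≠ c ∧ b ≠ e ∧ c ≠ e then
      Φ {a, b, c, e} else 0) = ∑ S ∈ (Finset.univ : Finset (Fin n)).powersetCard 4,
      (if (a ≠ b ∧ a ≠ c ∧ a ≠ e ∧ b ≠ c ∧ b ≠ e ∧ c ≠ e) ∧
      ({a, b, c, e} : Finset (Fin n)) = S then (1 : ℝ) else 0) * Φ S := by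
    intro a b c e
    by_cases h : a ≠ b ∧ a ≠ c ∧ a ≠ e ∧ b ≠ c ∧ b ≠ e ∧ c ≠ e
    · rw [if_pos h]
      have hc : ({a, b, c, e} : Finset (Fin n)) ∈
          (Finset.univ : Finset (Fin n)).powersetCard 4 := by
        obtain ⟨h1, h2, h3, h4, h5, h6⟩ := h
        rw [Finset.mem_powersetCard]
        refine ⟨Finset.subset_univ _, ?_⟩
        rw [Finset.card_insert_of_notMem (by simp [h1, h2, h3]),
          Finset.card_insert_of_notMem (by simp [h4, h5]),
          Finset.card_insert_of_notMem (by simp [h6]), Finset.card_singleton]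
      rw [Finset.sum_eq_single_of_mem _ hc]
      · rw [if_pos ⟨h, rfl⟩, one_mul]
      · intro S _ hne
        rw [if_neg (fun h' => hne h'.2.symm), zero_mul]
    · rw [if_neg h]
      symm
      refine Finset.sum_eq_zero fun S _ => ?_
      rw [if_neg (fun h' => h h'.1), zero_mul]
  simp only [h]
  have h2 : (∑ a : Fin n, ∑ b : Fin n, ∑ c : Fin n, ∑ e : Fin n,
      ∑ S ∈ (Finset.univ : Finset (Fin n)).powersetCard 4,
      (if (a ≠ b ∧ a ≠ c ∧ a ≠ e ∧ b ≠ c ∧ b ≠ e ∧ c ≠ e) ∧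
      ({a, b, c, e} : Finset (Fin n)) = S then (1 : ℝ) else 0) * Φ S) =
      ∑ S ∈ (Finset.univ : Finset (Fin n)).powersetCard 4,
      (∑ a, ∑ b, ∑ c, ∑ e, if (a ≠ b ∧ a ≠ c ∧ a ≠ e ∧ b ≠ c ∧ b ≠ e ∧ c ≠ e) ∧
      ({a, b, c, e} : Finset (Fin n)) = S then (1 : ℝ) else 0) * Φ S := by
    simp only [Finset.sum_mul]
    rw [Finset.sum_comm' (s := (Finset.univ : Finset (Fin n)).powersetCard 4)
      (t := fun _ => Finset.univ) (t' := Finset.univ)
      (s' := fun _ => (Finset.univ : Finset (Fin n)).powersetCard 4) (by simp)]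
    refine Finset.sum_congr rfl fun a _ => ?_
    rw [Finset.sum_comm' (s := (Finset.univ : Finset (Fin n)).powersetCard 4)
      (t := fun _ => Finset.univ) (t' := Finset.univ)
      (s' := fun _ => (Finset.univ : Finset (Fin n)).powersetCard 4) (by simp)]
    refine Finset.sum_congr rfl fun b _ => ?_
    rw [Finset.sum_comm' (s := (Finset.univ : Finset (Fin n)).powersetCard 4)
      (t := fun _ => Finset.univ) (t' := Finset.univ)
      (s' := fun _ => (Finset.univ : Finset (Fin n)).powersetCard 4) (by simp)]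
    refine Finset.sum_congr rfl fun c _ => ?_
    rw [Finset.sum_comm' (s := (Finset.univ : Finset (Fin n)).powersetCard 4)
      (t := fun _ => Finset.univ) (t' := Finset.univ)
      (s' := fun _ => (Finset.univ : Finset (Fin n)).powersetCard 4) (by simp)]
  rw [h2, Finset.mul_sum]
  refine Finset.sum_le_sum fun S hS => ?_
  exact mul_le_mul_of_nonneg_right (count_le (Finset.mem_powersetCard.1 hS).2) (hΦ S)

/-- the Dirichlet form through `TS` -/
theorem form_eq (d : Fin n → ℕ) (f : Omega n d → ℝ) :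
    ∑ G, ∑ H, P d G H * (f G - f H) ^ 2 =
      (1 / 12) * (1 / (n.choose 4 : ℝ)) *
        ∑ S ∈ (Finset.univ : Finset (Fin n)).powersetCard 4, TS d f S := by
  have h1 : ∀ G H : Omega n d, P d G H * (f G - f H) ^ 2 =
      ∑ S ∈ (Finset.univ : Finset (Fin n)).powersetCard 4, ∑ p ∈ pairs S,
        (1 / 12) * (1 / (n.choose 4 : ℝ)) *
          ((if H.1 = attempt G.1 p.1 p.2 then 1 else 0) * (f G - f H) ^ 2) := by
    intro G H
    rw [ChainP.P_eq, add_mul]
    have h0 : (1 / 2 : ℝ) * (if H = G then 1 else 0) * (f G - f H) ^ 2 = 0 := by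
      by_cases h : H = G
      · rw [h]; ring
      · rw [if_neg h]; ring
    rw [h0, zero_add]
    simp only [Finset.mul_sum, Finset.sum_mul]
    refine Finset.sum_congr rfl fun S _ => Finset.sum_congr rfl fun p _ => ?_
    ring
  simp only [h1]
  unfold TS T
  rw [Finset.mul_sum]
  simp only [Finset.mul_sum]
  rw [Finset.sum_comm' (s := (Finset.univ : Finset (Fin n)).powersetCard 4)
      (t := fun _ => Finset.univ) (t' := Finset.univ)
      (s' := fun _ => (Finset.univ : Finset (Fin n)).powersetCard 4) (by simp)]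
  refine Finset.sum_congr rfl fun G _ => ?_
  rw [Finset.sum_comm]
  refine Finset.sum_congr rfl fun S _ => ?_
  rw [Finset.sum_comm]

end ChainD

theorem dirichlet_lower (hn : 4 ≤ n) (d : Fin n → ℕ) (f : Omega n d → ℝ) :
    (∑ a, ∑ b, ∑ c, ∑ e, if a ≠ b ∧ a ≠ c ∧ a ≠ e ∧ b ≠ c ∧ b ≠ e ∧ c ≠ e then
        ip (Anti a b c e (ext0 d f)) (Anti a b c e (ext0 d f)) else 0) ≤
      144 * (n.choose 4 : ℝ) * ((1 / 2) * ∑ G, ∑ H, P d G H * (f G - f H) ^ 2) := by
  have hC : (0 : ℝ) < (n.choose 4 : ℝ) := by exact_mod_cast Nat.choose_pos hn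
  rw [ChainD.form_eq]
  have h1 : 144 * (n.choose 4 : ℝ) * ((1 / 2) * ((1 / 12) * (1 / (n.choose 4 : ℝ)) *
        ∑ S ∈ (Finset.univ : Finset (Fin n)).powersetCard 4, ChainD.TS d f S)) =
      24 * ∑ S ∈ (Finset.univ : Finset (Fin n)).powersetCard 4, (1 / 4) * ChainD.TS d f S := by
    rw [← Finset.mul_sum]
    field_simp
    ring
  rw [h1]
  refine le_trans ?_ (ChainD.tuples_le (fun S => (1 / 4) * ChainD.TS d f S)
    (fun S => mul_nonneg (by norm_num) (ChainD.TS_nonneg d f S)))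
  refine Finset.sum_le_sum fun a _ => Finset.sum_le_sum fun b _ => Finset.sum_le_sum fun c _ =>
    Finset.sum_le_sum fun e _ => ?_
  by_cases h : a ≠ b ∧ a ≠ c ∧ a ≠ e ∧ b ≠ c ∧ b ≠ e ∧ c ≠ e
  · rw [if_pos h, if_pos h]
    obtain ⟨h1, h2, h3, h4, h5, h6⟩ := h
    exact ChainD.anti_le h1 h2 h3 h4 h5 h6 d f
  · rw [if_neg h, if_neg h]

end Vale.Agent.P335
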