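import Vale.Agent.P335.Statement

/-! # Perfect matchings of a four-element set -/

open scoped Classical

namespace Vale.Agent.P335

variable {n : ℕ}

namespace ChainM

theorem isPM_mk {S : Finset (Fin n)} {a b c e : Fin n} (hab : a ≠ b) (hac : a ≠ c) (hae : a ≠ e)
    (hbc : b ≠ c) (hbe : b ≠ e) (hce : c ≠ e)
    (hS : ∀ v, v ∈ S ↔ v = a ∨ v = b ∨ v = c ∨ v = e) : IsPM S {s(a, b), s(c, e)} := by
  constructor
  · intro f hf
    rw [Finset.mem_insert, Finset.mem_singleton] at hf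
    rcases hf with rfl | rfl
    · refine ⟨fun h => hab (Sym2.mk_isDiag_iff.1 h), fun v hv => ?_⟩
      rw [Sym2.mem_iff] at hv
      rw [hS]; tauto
    · refine ⟨fun h => hce (Sym2.mk_isDiag_iff.1 h), fun v hv => ?_⟩
      rw [Sym2.mem_iff] at hv
      rw [hS]; tauto
  · intro v hv
    rw [hS] at hv
    by_cases h : v = a ∨ v = b
    · refine ⟨s(a, b), ⟨Finset.mem_insert_self _ _, Sym2.mem_iff.2 h⟩, ?_⟩
      rintro f ⟨hf, hvf⟩
      rw [Finset.mem_insert, Finset.mem_singleton] at hf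
      rcases hf with rfl | rfl
      · rfl
      · exfalso
        rw [Sym2.mem_iff] at hvf
        rcases h with rfl | rfl <;> rcases hvf with h' | h'
        · exact hac h'
        · exact hae h'
        · exact hbc h'
        · exact hbe h'
    · have hv' : v = c ∨ v = e := by tauto
      refine ⟨s(c, e), ⟨Finset.mem_insert_of_mem (Finset.mem_singleton_self _),
        Sym2.mem_iff.2 hv'⟩, ?_⟩
      rintro f ⟨hf, hvf⟩
      rw [Finset.mem_insert, Finset.mem_singleton] at hf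
      rcases hf with rfl | rfl
      · exact absurd (Sym2.mem_iff.1 hvf) h
      · rfl

theorem isPM_eq {S : Finset (Fin n)} {F : Finset (Sym2 (Fin n))} {a b c e : Fin n}
    (hac : a ≠ c) (hbc : b ≠ c) (hae : a ≠ e) (hbe : b ≠ e)
    (hS : ∀ v, v ∈ S ↔ v = a ∨ v = b ∨ v = c ∨ v = e) (hF : IsPM S F) (h : s(a, b) ∈ F) :
    F = {s(a, b), s(c, e)} := by
  have haS : a ∈ S := (hS a).2 (Or.inl rfl)
  have hbS : b ∈ S := (hS b).2 (Or.inr (Or.inl rfl))
  have hcS : c ∈ S := (hS c).2 (Or.inr (Or.inr (Or.inl rfl)))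
  have heS : e ∈ S := (hS e).2 (Or.inr (Or.inr (Or.inr rfl)))
  have huniq : ∀ v ∈ S, ∀ f g, f ∈ F → g ∈ F → v ∈ f → v ∈ g → f = g := by
    intro v hv f g hf hg hvf hvg
    exact (hF.2 v hv).unique ⟨hf, hvf⟩ ⟨hg, hvg⟩
  have ha : ∀ f ∈ F, a ∈ f → f = s(a, b) := fun f hf haf =>
    huniq a haS f _ hf h haf (Sym2.mem_mk_left a b)
  have hb : ∀ f ∈ F, b ∈ f → f = s(a, b) := fun f hf hbf =>
    huniq b hbS f _ hf h hbf (Sym2.mem_mk_right a b)
  obtain ⟨g, ⟨hg, hcg⟩, -⟩ := hF.2 c hcS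
  obtain ⟨y, rfl⟩ := Sym2.mem_iff_exists.1 hcg
  have hgab : s(c, y) ≠ s(a, b) := by
    intro hh
    have : c ∈ s(a, b) := hh ▸ hcg
    rw [Sym2.mem_iff] at this
    rcases this with h' | h'
    · exact hac h'.symm
    · exact hbc h'.symm
  have hyS := (hF.1 _ hg).2 y (Sym2.mem_mk_right c y)
  have hye : y = e := by
    rw [hS] at hyS
    rcases hyS with rfl | rfl | rfl | rfl
    · exact absurd (ha _ hg (Sym2.mem_mk_right c y)) hgab
    · exact absurd (hb _ hg (Sym2.mem_mk_right c y)) hgab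
    · exact absurd (Sym2.mk_isDiag_iff.2 rfl) (hF.1 _ hg).1
    · rfl
  subst hye
  ext f
  rw [Finset.mem_insert, Finset.mem_singleton]
  constructor
  · intro hf
    induction f using Sym2.ind with
    | _ u w =>
      have huS := (hF.1 _ hf).2 u (Sym2.mem_mk_left u w)
      rw [hS] at huS
      rcases huS with rfl | rfl | rfl | rfl
      · left; exact ha _ hf (Sym2.mem_mk_left _ _)
      · left; exact hb _ hf (Sym2.mem_mk_left _ _)
      · right; exact huniq u hcS _ _ hf hg (Sym2.mem_mk_left _ _) (Sym2.mem_mk_left _ _)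
      · right; exact huniq u heS _ _ hf hg (Sym2.mem_mk_left _ _) (Sym2.mem_mk_right _ _)
  · rintro (rfl | rfl)
    · exact h
    · exact hg

/-- the perfect matchings of `{a, b, c, e}` -/
theorem isPM_iff {S : Finset (Fin n)} {F : Finset (Sym2 (Fin n))} {a b c e : Fin n}
    (hab : a ≠ b) (hac : a ≠ c) (hae : a ≠ e) (hbc : b ≠ c) (hbe : b ≠ e) (hce : c ≠ e)
    (hS : ∀ v, v ∈ S ↔ v = a ∨ v = b ∨ v = c ∨ v = e) :
    IsPM S F ↔ F = {s(a, b), s(c, e)} ∨ F = {s(a, c), s(b, e)} ∨ F = {s(a, e), s(b, c)} := by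
  have hS2 : ∀ v, v ∈ S ↔ v = a ∨ v = c ∨ v = b ∨ v = e := fun v => by rw [hS]; tauto
  have hS3 : ∀ v, v ∈ S ↔ v = a ∨ v = e ∨ v = b ∨ v = c := fun v => by rw [hS]; tauto
  constructor
  · intro hF
    have haS : a ∈ S := (hS a).2 (Or.inl rfl)
    obtain ⟨g, ⟨hg, hag⟩, -⟩ := hF.2 a haS
    obtain ⟨x, rfl⟩ := Sym2.mem_iff_exists.1 hag
    have hxS := (hF.1 _ hg).2 x (Sym2.mem_mk_right a x)
    rw [hS] at hxS
    rcases hxS with rfl | rfl | rfl | rfl
    · exact absurd (Sym2.mk_isDiag_iff.2 rfl) (hF.1 _ hg).1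
    · left; exact isPM_eq hac hbc hae hbe hS hF hg
    · right; left; exact isPM_eq hab hbc.symm hae hce hS2 hF hg
    · right; right; exact isPM_eq hab hbe.symm hac hce.symm hS3 hF hg
  · rintro (rfl | rfl | rfl)
    · exact isPM_mk hab hac hae hbc hbe hce hS
    · exact isPM_mk hac hab hae hbc.symm hce hbe hS2
    · exact isPM_mk hae hab hac hbe.symm hce.symm hbc hS3

theorem m_ne {a b c e : Fin n} (hac : a ≠ c) (hae : a ≠ e) (hbc : b ≠ c) :
    ({s(a, b), s(c, e)} : Finset (Sym2 (Fin n))) ≠ {s(a, c), s(b, e)} := by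
  intro h
  have h1 : s(a, b) ∈ ({s(a, c), s(b, e)} : Finset (Sym2 (Fin n))) := by
    rw [← h]; exact Finset.mem_insert_self _ _
  rw [Finset.mem_insert, Finset.mem_singleton] at h1
  rcases h1 with h1 | h1
  · rw [Sym2.congr_right] at h1
    exact hbc h1
  · have h2 : a ∈ s(b, e) := h1 ▸ Sym2.mem_mk_left a b
    rw [Sym2.mem_iff] at h2
    rcases h2 with h2 | h2
    · subst h2
      rw [Sym2.congr_right] at h1
      exact hae h1
    · exact hae h2

theorem pms_eq {S : Finset (Fin n)} {a b c e : Fin n}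
    (hab : a ≠ b) (hac : a ≠ c) (hae : a ≠ e) (hbc : b ≠ c) (hbe : b ≠ e) (hce : c ≠ e)
    (hS : ∀ v, v ∈ S ↔ v = a ∨ v = b ∨ v = c ∨ v = e) :
    (Finset.univ.filter (fun F => IsPM S F)) =
      {{s(a, b), s(c, e)}, {s(a, c), s(b, e)}, {s(a, e), s(b, c)}} := by
  ext F
  rw [Finset.mem_filter, isPM_iff hab hac hae hbc hbe hce hS, Finset.mem_insert,
    Finset.mem_insert, Finset.mem_singleton]
  exact ⟨fun h => h.2, fun h => ⟨Finset.mem_univ _, h⟩⟩

theorem exists_four {S : Finset (Fin n)} (h : S.card = 4) : ∃ a b c e : Fin n,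
    a ≠ b ∧ a ≠ c ∧ a ≠ e ∧ b ≠ c ∧ b ≠ e ∧ c ≠ e ∧
    ∀ v, v ∈ S ↔ v = a ∨ v = b ∨ v = c ∨ v = e := by
  obtain ⟨a, b, c, e, h1, h2, h3, h4, h5, h6, rfl⟩ := Finset.card_eq_four.1 h
  refine ⟨a, b, c, e, h1, h2, h3, h4, h5, h6, fun v => ?_⟩
  simp only [Finset.mem_insert, Finset.mem_singleton]

theorem pairs_eq_offDiag (S : Finset (Fin n)) :
    pairs S = (Finset.univ.filter (fun F => IsPM S F)).offDiag := by
  ext p
  simp only [pairs, Finset.mem_filter, Finset.mem_univ, true_and, Finset.mem_offDiag]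

end ChainM

theorem pairs_card {S : Finset (Fin n)} (h : S.card = 4) : (pairs S).card = 6 := by
  obtain ⟨a, b, c, e, hab, hac, hae, hbc, hbe, hce, hS⟩ := ChainM.exists_four h
  rw [ChainM.pairs_eq_offDiag, ChainM.pms_eq hab hac hae hbc hbe hce hS, Finset.offDiag_card]
  have h1 : ({s(a, b), s(c, e)} : Finset (Sym2 (Fin n))) ≠ {s(a, c), s(b, e)} :=
    ChainM.m_ne hac hae hbc
  have h2 : ({s(a, b), s(c, e)} : Finset (Sym2 (Fin n))) ≠ {s(a, e), s(b, c)} := by
    rw [Sym2.eq_swap (a := c) (b := e)]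
    exact ChainM.m_ne hae hac hbe
  have h3 : ({s(a, c), s(b, e)} : Finset (Sym2 (Fin n))) ≠ {s(a, e), s(b, c)} := by
    rw [Sym2.eq_swap (a := b) (b := e), Sym2.eq_swap (a := b) (b := c)]
    exact ChainM.m_ne hae hab hce
  have h4 : ({{s(a, b), s(c, e)}, {s(a, c), s(b, e)}, {s(a, e), s(b, c)}} :
      Finset (Finset (Sym2 (Fin n)))).card = 3 := by
    rw [Finset.card_eq_three]
    exact ⟨_, _, _, h1, h2, h3, rfl⟩
  rw [h4]

end Vale.Agent.P335
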