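import Vale.Agent.P335.ChainM

/-! # The switch chain `P_d`: nonnegativity, symmetry, row sums, laziness -/

open scoped Classical

namespace Vale.Agent.P335

variable {n : ℕ}

namespace ChainP

theorem attempt_pos {G : SimpleGraph (Fin n)} {F F' : Finset (Sym2 (Fin n))}
    (h1 : ∀ e ∈ F, e ∈ G.edgeSet) (h2 : ∀ e ∈ F', e ∉ G.edgeSet) :
    attempt G F F' = SimpleGraph.fromEdgeSet ((G.edgeSet \ ↑F) ∪ ↑F') := by
  unfold attempt; rw [if_pos ⟨h1, h2⟩]

theorem attempt_neg {G : SimpleGraph (Fin n)} {F F' : Finset (Sym2 (Fin n))}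
    (h : ¬ ((∀ e ∈ F, e ∈ G.edgeSet) ∧ (∀ e ∈ F', e ∉ G.edgeSet))) :
    attempt G F F' = G := by
  unfold attempt; rw [if_neg h]

theorem attempt_adj {G : SimpleGraph (Fin n)} {F F' : Finset (Sym2 (Fin n))}
    (h1 : ∀ e ∈ F, e ∈ G.edgeSet) (h2 : ∀ e ∈ F', e ∉ G.edgeSet) (v w : Fin n) :
    (attempt G F F').Adj v w ↔ ((G.Adj v w ∧ s(v, w) ∉ F) ∨ s(v, w) ∈ F') ∧ v ≠ w := by
  rw [attempt_pos h1 h2, SimpleGraph.fromEdgeSet_adj, Set.mem_union, Set.mem_diff,
    SimpleGraph.mem_edgeSet, Finset.mem_coe, Finset.mem_coe]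

theorem attempt_edge {G : SimpleGraph (Fin n)} {F F' : Finset (Sym2 (Fin n))}
    (h1 : ∀ e ∈ F, e ∈ G.edgeSet) (h2 : ∀ e ∈ F', e ∉ G.edgeSet) (hd : ∀ e ∈ F', ¬ e.IsDiag)
    (f : Sym2 (Fin n)) :
    f ∈ (attempt G F F').edgeSet ↔ (f ∈ G.edgeSet ∧ f ∉ F) ∨ f ∈ F' := by
  induction f using Sym2.ind with
  | _ v w =>
    rw [SimpleGraph.mem_edgeSet, SimpleGraph.mem_edgeSet, attempt_adj h1 h2]
    constructor
    · exact fun h => h.1
    · intro h
      refine ⟨h, ?_⟩
      rcases h with h | h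
      · exact h.1.ne
      · exact fun hvw => hd _ h (Sym2.mk_isDiag_iff.2 hvw)

theorem attempt_swap {S : Finset (Fin n)} {G : SimpleGraph (Fin n)}
    {F F' : Finset (Sym2 (Fin n))} (hF : IsPM S F) (hF' : IsPM S F')
    (hne : attempt G F F' ≠ G) : attempt (attempt G F F') F' F = G := by
  by_cases h : (∀ e ∈ F, e ∈ G.edgeSet) ∧ (∀ e ∈ F', e ∉ G.edgeSet)
  swap
  · exact absurd (attempt_neg h) hne
  obtain ⟨h1, h2⟩ := h
  have hE := attempt_edge h1 h2 (fun e he => (hF'.1 e he).1)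
  have h1' : ∀ e ∈ F', e ∈ (attempt G F F').edgeSet := fun e he => (hE e).2 (Or.inr he)
  have h2' : ∀ e ∈ F, e ∉ (attempt G F F').edgeSet := by
    intro e he h
    rcases (hE e).1 h with h | h
    · exact h.2 he
    · exact h2 e h (h1 e he)
  rw [← SimpleGraph.edgeSet_inj]
  ext f
  rw [attempt_edge h1' h2' (fun e he => (hF.1 e he).1), hE]
  constructor
  · rintro (⟨(⟨h, -⟩ | h), h'⟩ | h)
    · exact h
    · exact absurd h h'
    · exact h1 f h
  · intro h
    by_cases hf : f ∈ F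
    · right; exact hf
    · left; exact ⟨Or.inl ⟨h, hf⟩, fun h' => h2 f h' h⟩

theorem degree_eq (G : SimpleGraph (Fin n)) (v : Fin n) :
    G.degree v = (Finset.univ.filter (fun w => G.Adj v w)).card := by
  rw [← SimpleGraph.card_neighborFinset_eq_degree, SimpleGraph.neighborFinset_eq_filter]

theorem attempt_degree {S : Finset (Fin n)} (G : SimpleGraph (Fin n))
    {F F' : Finset (Sym2 (Fin n))} (hF : IsPM S F) (hF' : IsPM S F') (v : Fin n) :
    (attempt G F F').degree v = G.degree v := by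
  by_cases h : (∀ e ∈ F, e ∈ G.edgeSet) ∧ (∀ e ∈ F', e ∉ G.edgeSet)
  swap
  · rw [attempt_neg h]
  obtain ⟨h1, h2⟩ := h
  rw [degree_eq, degree_eq]
  by_cases hv : v ∈ S
  · obtain ⟨f, ⟨hf, hvf⟩, hfu⟩ := hF.2 v hv
    obtain ⟨f', ⟨hf', hvf'⟩, hfu'⟩ := hF'.2 v hv
    obtain ⟨x, rfl⟩ := Sym2.mem_iff_exists.1 hvf
    obtain ⟨y, rfl⟩ := Sym2.mem_iff_exists.1 hvf'
    have hvy : v ≠ y := fun h => (hF'.1 _ hf').1 (Sym2.mk_isDiag_iff.2 h)
    have hx : ∀ w, s(v, w) ∈ F ↔ w = x := by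
      intro w
      constructor
      · intro hw
        have := hfu _ ⟨hw, Sym2.mem_mk_left v w⟩
        exact Sym2.congr_right.1 this
      · rintro rfl; exact hf
    have hy : ∀ w, s(v, w) ∈ F' ↔ w = y := by
      intro w
      constructor
      · intro hw
        have := hfu' _ ⟨hw, Sym2.mem_mk_left v w⟩
        exact Sym2.congr_right.1 this
      · rintro rfl; exact hf'
    have hGx : G.Adj v x := (SimpleGraph.mem_edgeSet G).1 (h1 _ hf)
    have hGy : ¬ G.Adj v y := fun h => h2 _ hf' ((SimpleGraph.mem_edgeSet G).2 h)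
    have hset : Finset.univ.filter (fun w => (attempt G F F').Adj v w) =
        insert y ((Finset.univ.filter (fun w => G.Adj v w)).erase x) := by
      ext w
      simp only [Finset.mem_filter, Finset.mem_univ, true_and, Finset.mem_insert,
        Finset.mem_erase]
      rw [attempt_adj h1 h2, hx, hy]
      constructor
      · rintro ⟨⟨h, h'⟩ | h, -⟩
        · right; exact ⟨h', h⟩
        · left; exact h
      · rintro (h | ⟨h, h'⟩)
        · subst h; exact ⟨Or.inr rfl, hvy⟩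
        · exact ⟨Or.inl ⟨h', h⟩, h'.ne⟩
    have hxm : x ∈ Finset.univ.filter (fun w => G.Adj v w) :=
      Finset.mem_filter.2 ⟨Finset.mem_univ _, hGx⟩
    have hym : y ∉ (Finset.univ.filter (fun w => G.Adj v w)).erase x := by
      intro h
      exact hGy (Finset.mem_filter.1 (Finset.mem_of_mem_erase h)).2
    rw [hset, Finset.card_insert_of_notMem hym, Finset.card_erase_of_mem hxm]
    have : 0 < (Finset.univ.filter (fun w => G.Adj v w)).card := Finset.card_pos.2 ⟨x, hxm⟩
    omega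
  · congr 1
    ext w
    simp only [Finset.mem_filter, Finset.mem_univ, true_and]
    rw [attempt_adj h1 h2]
    have hx : s(v, w) ∉ F := fun h => hv ((hF.1 _ h).2 v (Sym2.mem_mk_left v w))
    have hy : s(v, w) ∉ F' := fun h => hv ((hF'.1 _ h).2 v (Sym2.mem_mk_left v w))
    constructor
    · rintro ⟨⟨h, -⟩ | h, -⟩
      · exact h
      · exact absurd h hy
    · intro h; exact ⟨Or.inl ⟨h, hx⟩, h.ne⟩

/-- the attempted move stays in `Ω_d` -/
noncomputable def move {d : Fin n → ℕ} (G : Omega n d) {S : Finset (Fin n)}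
    {F F' : Finset (Sym2 (Fin n))} (hF : IsPM S F) (hF' : IsPM S F') : Omega n d :=
  ⟨attempt G.1 F F', fun v => by rw [attempt_degree G.1 hF hF' v]; exact G.2 v⟩

theorem mem_pairs {S : Finset (Fin n)} {p : Finset (Sym2 (Fin n)) × Finset (Sym2 (Fin n))} :
    p ∈ pairs S ↔ IsPM S p.1 ∧ IsPM S p.2 ∧ p.1 ≠ p.2 := by
  unfold pairs; rw [Finset.mem_filter]; exact ⟨fun h => h.2, fun h => ⟨Finset.mem_univ _, h⟩⟩

theorem swap_mem_pairs {S : Finset (Fin n)}
    {p : Finset (Sym2 (Fin n)) × Finset (Sym2 (Fin n))} (h : p ∈ pairs S) : p.swap ∈ pairs S := by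
  rw [mem_pairs] at h ⊢
  exact ⟨h.2.1, h.1, h.2.2.symm⟩

/-- `P` with the constant `6` -/
theorem P_eq (d : Fin n → ℕ) (G H : Omega n d) : P d G H =
    (1 / 2) * (if H = G then 1 else 0) +
    (1 / 2) * ∑ S ∈ (Finset.univ : Finset (Fin n)).powersetCard 4, (1 / (n.choose 4 : ℝ)) *
      ∑ p ∈ pairs S, (1 / 6) * (if H.1 = attempt G.1 p.1 p.2 then 1 else 0) := by
  unfold P
  congr 2
  refine Finset.sum_congr rfl (fun S hS => ?_)
  rw [pairs_card (Finset.mem_powersetCard.1 hS).2]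
  norm_num

end ChainP

theorem P_nonneg (d : Fin n → ℕ) (G H : Omega n d) : 0 ≤ P d G H := by
  unfold P
  apply add_nonneg
  · apply mul_nonneg (by norm_num)
    split_ifs <;> norm_num
  · apply mul_nonneg (by norm_num)
    apply Finset.sum_nonneg
    intro S _
    apply mul_nonneg (by positivity)
    apply Finset.sum_nonneg
    intro p _
    apply mul_nonneg (by positivity)
    split_ifs <;> norm_num

theorem P_symm (d : Fin n → ℕ) (G H : Omega n d) : P d G H = P d H G := by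
  by_cases hGH : G = H
  · rw [hGH]
  rw [ChainP.P_eq, ChainP.P_eq, if_neg (fun h => hGH h.symm), if_neg hGH]
  congr 2
  refine Finset.sum_congr rfl (fun S _ => ?_)
  congr 1
  refine Finset.sum_bij' (fun p _ => p.swap) (fun p _ => p.swap)
    (fun p hp => ChainP.swap_mem_pairs hp) (fun p hp => ChainP.swap_mem_pairs hp)
    (fun p _ => Prod.swap_swap p) (fun p _ => Prod.swap_swap p) (fun p hp => ?_)
  rw [ChainP.mem_pairs] at hp
  have hne : G.1 ≠ H.1 := fun h => hGH (Subtype.ext h)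
  have key : H.1 = attempt G.1 p.1 p.2 ↔ G.1 = attempt H.1 p.swap.1 p.swap.2 := by
    rw [Prod.fst_swap, Prod.snd_swap]
    constructor
    · intro h
      have h1 : attempt G.1 p.1 p.2 ≠ G.1 := by rw [← h]; exact hne.symm
      have h2 := ChainP.attempt_swap hp.1 hp.2.1 h1
      rw [← h] at h2
      exact h2.symm
    · intro h
      have h1 : attempt H.1 p.2 p.1 ≠ H.1 := by rw [← h]; exact hne
      have h2 := ChainP.attempt_swap hp.2.1 hp.1 h1
      rw [← h] at h2
      exact h2.symm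
  by_cases h : H.1 = attempt G.1 p.1 p.2
  · rw [if_pos h, if_pos (key.1 h)]
  · rw [if_neg h, if_neg (fun h' => h (key.2 h'))]

theorem P_row (hn : 4 ≤ n) (d : Fin n → ℕ) (G : Omega n d) : ∑ H, P d G H = 1 := by
  simp only [ChainP.P_eq]
  rw [Finset.sum_add_distrib, ← Finset.mul_sum, ← Finset.mul_sum,
    Finset.sum_ite_eq' Finset.univ G (fun _ => (1 : ℝ)), if_pos (Finset.mem_univ _),
    Finset.sum_comm]
  have h1 : ∀ S ∈ (Finset.univ : Finset (Fin n)).powersetCard 4,
      ∑ H : Omega n d, (1 / (n.choose 4 : ℝ)) *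
        ∑ p ∈ pairs S, (1 / 6 : ℝ) * (if H.1 = attempt G.1 p.1 p.2 then 1 else 0) =
      1 / (n.choose 4 : ℝ) := by
    intro S hS
    have hcard := pairs_card (Finset.mem_powersetCard.1 hS).2
    rw [← Finset.mul_sum, Finset.sum_comm]
    have h2 : ∀ p ∈ pairs S, ∑ H : Omega n d,
        (1 / 6 : ℝ) * (if H.1 = attempt G.1 p.1 p.2 then 1 else 0) = 1 / 6 := by
      intro p hp
      rw [ChainP.mem_pairs] at hp
      rw [← Finset.mul_sum]
      have h3 : ∀ H : Omega n d, (if H.1 = attempt G.1 p.1 p.2 then (1 : ℝ) else 0) =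
          if H = ChainP.move G hp.1 hp.2.1 then 1 else 0 := by
        intro H
        have : H.1 = attempt G.1 p.1 p.2 ↔ H = ChainP.move G hp.1 hp.2.1 :=
          ⟨fun h => Subtype.ext h, fun h => by rw [h]; rfl⟩
        by_cases h : H = ChainP.move G hp.1 hp.2.1
        · rw [if_pos h, if_pos (this.2 h)]
        · rw [if_neg h, if_neg (fun h' => h (this.1 h'))]
      simp only [h3]
      rw [Finset.sum_ite_eq' Finset.univ _ (fun _ => (1 : ℝ)), if_pos (Finset.mem_univ _), mul_one]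
    rw [Finset.sum_congr rfl h2, Finset.sum_const, hcard]
    norm_num
  rw [Finset.sum_congr rfl h1, Finset.sum_const, Finset.card_powersetCard, Finset.card_univ,
    Fintype.card_fin, nsmul_eq_mul]
  have hpos : (0 : ℝ) < (n.choose 4 : ℝ) := by exact_mod_cast Nat.choose_pos hn
  field_simp
  norm_num

theorem P_lazy (d : Fin n → ℕ) (G : Omega n d) : 1 / 2 ≤ P d G G := by
  unfold P
  rw [if_pos rfl, mul_one]
  apply le_add_of_nonneg_right
  apply mul_nonneg (by norm_num)
  apply Finset.sum_nonneg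
  intro S _
  apply mul_nonneg (by positivity)
  apply Finset.sum_nonneg
  intro p _
  apply mul_nonneg (by positivity)
  split_ifs <;> norm_num

end Vale.Agent.P335
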