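import Vale.Agent.P335.AvgBasic
import Vale.Agent.P335.PairBasic

/-! # Commutation of the refined pair averages -/

open scoped Classical

namespace Vale.Agent.P335

variable {V : Type*} [Fintype V]

namespace Commute

/-- degree comparison when the adjacencies of `v` agree outside `{a, b}` -/
theorem deg_eq_of_split {a b : V} (hab : a ≠ b) {G H : SimpleGraph V} {v : V}
    (h : ∀ w, w ≠ a → w ≠ b → (G.Adj v w ↔ H.Adj v w))
    (h2 : (if G.Adj v a then 1 else 0) + (if G.Adj v b then 1 else 0) =
      (if H.Adj v a then 1 else 0) + (if H.Adj v b then (1 : ℕ) else 0)) :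
    deg G v = deg H v := by
  rw [deg_eq_sum, deg_eq_sum]
  have hs : ∀ K : SimpleGraph V, ∑ w, (if K.Adj v w then 1 else 0) =
      (∑ w ∈ (Finset.univ.erase a).erase b, if K.Adj v w then 1 else 0) +
        ((if K.Adj v a then 1 else 0) + (if K.Adj v b then (1 : ℕ) else 0)) := by
    intro K
    rw [← Finset.sum_erase_add Finset.univ _ (Finset.mem_univ a),
      ← Finset.sum_erase_add (Finset.univ.erase a) _
        (Finset.mem_erase.2 ⟨hab.symm, Finset.mem_univ b⟩)]
    ring
  rw [hs G, hs H, h2]
  congr 1
  refine Finset.sum_congr rfl (fun w hw => ?_)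
  rw [Finset.mem_erase, Finset.mem_erase] at hw
  simp only [h w hw.2.1 hw.1]

/-- `{u, v}` joins `{a, b}` to the complement of `{a, b, c, d}` -/
def inX (a b c d u v : V) : Prop :=
  ((u = a ∨ u = b) ∧ v ≠ a ∧ v ≠ b ∧ v ≠ c ∧ v ≠ d) ∨
  ((v = a ∨ v = b) ∧ u ≠ a ∧ u ≠ b ∧ u ≠ c ∧ u ≠ d)

omit [Fintype V] in
theorem inX_comm {a b c d u v : V} : inX a b c d u v ↔ inX a b c d v u := by
  unfold inX; tauto

/-- the `x`-part from `K`, the rest from `H` with rows permuted by `τ` -/
def mix (a b c d : V) (τ : Equiv.Perm V) (K H : SimpleGraph V) : SimpleGraph V where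
  Adj u v := if inX a b c d u v then K.Adj u v else H.Adj (τ u) (τ v)
  symm := ⟨by
    intro u v h
    by_cases hX : inX a b c d u v
    · rw [if_pos (inX_comm.1 hX)]; rw [if_pos hX] at h; exact h.symm
    · rw [if_neg (fun h' => hX (inX_comm.1 h'))]; rw [if_neg hX] at h; exact h.symm⟩
  loopless := ⟨fun u h => by
    by_cases hX : inX a b c d u u
    · rw [if_pos hX] at h; exact K.loopless.irrefl u h
    · rw [if_neg hX] at h; exact H.loopless.irrefl _ h⟩

omit [Fintype V] in
theorem mix_pos {a b c d : V} {τ : Equiv.Perm V} {K H : SimpleGraph V} {u v : V}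
    (h : inX a b c d u v) : (mix a b c d τ K H).Adj u v ↔ K.Adj u v := by
  show (if inX a b c d u v then K.Adj u v else H.Adj (τ u) (τ v)) ↔ K.Adj u v
  rw [if_pos h]

omit [Fintype V] in
theorem mix_neg {a b c d : V} {τ : Equiv.Perm V} {K H : SimpleGraph V} {u v : V}
    (h : ¬ inX a b c d u v) : (mix a b c d τ K H).Adj u v ↔ H.Adj (τ u) (τ v) := by
  show (if inX a b c d u v then K.Adj u v else H.Adj (τ u) (τ v)) ↔ H.Adj (τ u) (τ v)
  rw [if_neg h]

/-- `τ` is the identity or the swap of the rows `a`, `b` -/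
def Good (a b : V) (τ : Equiv.Perm V) : Prop := τ = 1 ∨ τ = Equiv.swap a b

omit [Fintype V] in
theorem Good.sq {a b : V} {τ : Equiv.Perm V} (h : Good a b τ) (u : V) : τ (τ u) = u := by
  rcases h with rfl | rfl
  · rfl
  · exact Equiv.swap_apply_self a b u

omit [Fintype V] in
theorem Good.out {a b : V} {τ : Equiv.Perm V} (h : Good a b τ) {u : V} (ha : u ≠ a) (hb : u ≠ b) :
    τ u = u := by
  rcases h with rfl | rfl
  · rfl
  · exact Equiv.swap_apply_of_ne_of_ne ha hb

omit [Fintype V] in
theorem Good.cases {a b : V} {τ : Equiv.Perm V} (h : Good a b τ) :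
    (τ a = a ∧ τ b = b) ∨ (τ a = b ∧ τ b = a) := by
  rcases h with rfl | rfl
  · left; exact ⟨rfl, rfl⟩
  · right; exact ⟨Equiv.swap_apply_left a b, Equiv.swap_apply_right a b⟩

omit [Fintype V] in
theorem Good.mem {a b : V} {τ : Equiv.Perm V} (h : Good a b τ) {u : V} :
    (τ u = a ∨ τ u = b) ↔ (u = a ∨ u = b) := by
  constructor
  · intro hu
    by_contra hcon
    push Not at hcon
    rw [h.out hcon.1 hcon.2] at hu
    rcases hu with hu | hu
    · exact hcon.1 hu
    · exact hcon.2 hu
  · rintro (rfl | rfl) <;> rcases h.cases with ⟨h1, h2⟩ | ⟨h1, h2⟩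
    · left; exact h1
    · right; exact h1
    · right; exact h2
    · left; exact h2

/-- row sums of the middle block of `G1` are the permuted row sums of `G` -/
def Row (a b c d : V) (τ : Equiv.Perm V) (G G1 : SimpleGraph V) : Prop :=
  ((if G.Adj (τ a) c then 1 else 0) + (if G.Adj (τ a) d then 1 else 0) =
    (if G1.Adj a c then 1 else 0) + (if G1.Adj a d then (1 : ℕ) else 0)) ∧
  ((if G.Adj (τ b) c then 1 else 0) + (if G.Adj (τ b) d then 1 else 0) =
    (if G1.Adj b c then 1 else 0) + (if G1.Adj b d then (1 : ℕ) else 0))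

omit [Fintype V] in
theorem Row.symm {a b c d : V} {τ : Equiv.Perm V} (hτ : Good a b τ) {G G1 : SimpleGraph V}
    (h : Row a b c d τ G G1) : Row a b c d τ G1 G := by
  unfold Row at h ⊢
  rcases hτ.cases with ⟨h1, h2⟩ | ⟨h1, h2⟩
  · rw [h1, h2] at h ⊢
    exact ⟨h.1.symm, h.2.symm⟩
  · rw [h1, h2] at h ⊢
    exact ⟨h.2.symm, h.1.symm⟩

theorem exists_tau {a b c d : V} (hab : a ≠ b) (hac : a ≠ c) (had : a ≠ d) (hbc : b ≠ c)
    (hbd : b ≠ d) {G G1 : SimpleGraph V} (h : pairRelZ a b c d G G1) :
    ∃ τ, Good a b τ ∧ Row a b c d τ G G1 := by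
  have e1 := pairRel_sum hab h.1 hac.symm hbc.symm
  have e2 := pairRel_sum hab h.1 had.symm hbd.symm
  have hZ := h.2
  rw [G.adj_comm c a, G.adj_comm c b, G1.adj_comm c a, G1.adj_comm c b] at e1
  rw [G.adj_comm d a, G.adj_comm d b, G1.adj_comm d a, G1.adj_comm d b] at e2
  unfold Z at hZ
  have key : ((if G.Adj a c then 1 else 0) + (if G.Adj a d then 1 else 0) =
        (if G1.Adj a c then 1 else 0) + (if G1.Adj a d then (1 : ℕ) else 0) ∧
      (if G.Adj b c then 1 else 0) + (if G.Adj b d then 1 else 0) =
        (if G1.Adj b c then 1 else 0) + (if G1.Adj b d then (1 : ℕ) else 0)) ∨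
      ((if G.Adj b c then 1 else 0) + (if G.Adj b d then 1 else 0) =
        (if G1.Adj a c then 1 else 0) + (if G1.Adj a d then (1 : ℕ) else 0) ∧
      (if G.Adj a c then 1 else 0) + (if G.Adj a d then 1 else 0) =
        (if G1.Adj b c then 1 else 0) + (if G1.Adj b d then (1 : ℕ) else 0)) := by
    clear h
    generalize G.Adj a c = p1 at *
    generalize G.Adj a d = p2 at *
    generalize G.Adj b c = p3 at *
    generalize G.Adj b d = p4 at *
    generalize G1.Adj a c = q1 at *
    generalize G1.Adj a d = q2 at *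
    generalize G1.Adj b c = q3 at *
    generalize G1.Adj b d = q4 at *
    by_cases x1 : p1 <;> by_cases x2 : p2 <;> by_cases x3 : p3 <;> by_cases x4 : p4 <;>
      by_cases y1 : q1 <;> by_cases y2 : q2 <;>
      simp only [x1, x2, x3, x4, y1, y2, if_true, if_false, true_and, and_true, false_and,
        and_false, not_true, not_false_iff, true_or, or_true, false_or, or_false, true_iff,
        iff_true, false_iff, iff_false] at e1 e2 hZ ⊢ <;>
      by_cases y3 : q3 <;> by_cases y4 : q4 <;>
      simp [y3, y4] at e1 e2 hZ ⊢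
  rcases key with hk | hk
  · exact ⟨1, Or.inl rfl, hk⟩
  · refine ⟨Equiv.swap a b, Or.inr rfl, ?_⟩
    unfold Row
    rw [Equiv.swap_apply_left, Equiv.swap_apply_right]
    exact hk

omit [Fintype V] in
theorem inX_tau {a b c d : V} (hac : a ≠ c) (had : a ≠ d) (hbc : b ≠ c) (hbd : b ≠ d)
    {τ : Equiv.Perm V} (hτ : Good a b τ) {u v : V} :
    inX a b c d (τ u) (τ v) ↔ inX a b c d u v := by
  have hmem : ∀ w : V, (τ w ≠ a ∧ τ w ≠ b ∧ τ w ≠ c ∧ τ w ≠ d) ↔
      (w ≠ a ∧ w ≠ b ∧ w ≠ c ∧ w ≠ d) := by
    intro w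
    by_cases hw : w = a ∨ w = b
    · have hw' := hτ.mem.2 hw
      constructor
      · rintro ⟨h1, h2, _⟩
        rcases hw' with h | h
        · exact absurd h h1
        · exact absurd h h2
      · rintro ⟨h1, h2, _⟩
        rcases hw with h | h
        · exact absurd h h1
        · exact absurd h h2
    · push Not at hw
      rw [hτ.out hw.1 hw.2]
  unfold inX
  rw [hmem, hmem, hτ.mem, hτ.mem]

omit [Fintype V] in
/-- outside the `x`-part, and with both or no endpoint in `{a, b}`, nothing changes -/
theorem adj_tau {a b : V} {τ : Equiv.Perm V} (hτ : Good a b τ) {H : SimpleGraph V} {u v : V}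
    (huv : (u = a ∨ u = b) ↔ (v = a ∨ v = b)) : H.Adj (τ u) (τ v) ↔ H.Adj u v := by
  by_cases hu : u = a ∨ u = b
  · have hv := huv.1 hu
    rcases hτ.cases with ⟨h1, h2⟩ | ⟨h1, h2⟩
    · rcases hu with rfl | rfl <;> rcases hv with rfl | rfl <;> simp only [h1, h2]
    · rcases hu with rfl | rfl <;> rcases hv with rfl | rfl
      · rw [h1]; exact ⟨fun h => absurd h (H.loopless.irrefl _), fun h => absurd h (H.loopless.irrefl _)⟩
      · rw [h1, h2]; exact H.adj_comm _ _
      · rw [h1, h2]; exact H.adj_comm _ _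
      · rw [h2]; exact ⟨fun h => absurd h (H.loopless.irrefl _), fun h => absurd h (H.loopless.irrefl _)⟩
  · have hv : ¬ (v = a ∨ v = b) := fun h => hu (huv.2 h)
    push Not at hu hv
    rw [hτ.out hu.1 hu.2, hτ.out hv.1 hv.2]

omit [Fintype V] in
theorem inX_ab {a b c d u v : V} (huv : (u = a ∨ u = b) ↔ (v = a ∨ v = b)) :
    ¬ inX a b c d u v := by
  unfold inX; tauto

omit [Fintype V] in
theorem mix_adj_ab {a b c d : V} {τ : Equiv.Perm V} (hτ : Good a b τ) {K H : SimpleGraph V}
    {u v : V} (huv : (u = a ∨ u = b) ↔ (v = a ∨ v = b)) :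
    (mix a b c d τ K H).Adj u v ↔ H.Adj u v := by
  rw [mix_neg (inX_ab huv), adj_tau hτ huv]

theorem mix_deg {a b c d : V} (hab : a ≠ b) (hac : a ≠ c) (had : a ≠ d) (hbc : b ≠ c)
    (hbd : b ≠ d) (hcd : c ≠ d) {τ : Equiv.Perm V} (hτ : Good a b τ) {G G1 H : SimpleGraph V}
    (hG : pairRel a b G G1) (hR : Row a b c d τ G G1) (hH : pairRel c d G H) (v : V) :
    deg (mix a b c d τ G1 H) v = deg G v := by
  by_cases hv : v = a ∨ v = b
  · -- compare with `G1`, splitting `c`, `d`
    rw [hG.2 v]
    apply deg_eq_of_split hcd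
    · intro w hwc hwd
      by_cases hw : w = a ∨ w = b
      · rw [mix_adj_ab hτ ⟨fun _ => hw, fun _ => hv⟩]
        have h1 : G.Adj v w ↔ G1.Adj v w := hG.1 v w ⟨fun _ => hw, fun _ => hv⟩
        have hv' : ¬ (v = c ∨ v = d) := by
          rintro (h | h) <;> subst h
          · rcases hv with h | h
            · exact hac h.symm
            · exact hbc h.symm
          · rcases hv with h | h
            · exact had h.symm
            · exact hbd h.symm
        have hw' : ¬ (w = c ∨ w = d) := by
          rintro (h | h)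
          · exact hwc h
          · exact hwd h
        have h2 : G.Adj v w ↔ H.Adj v w :=
          hH.1 v w ⟨fun h => absurd h hv', fun h => absurd h hw'⟩
        rw [← h2, h1]
      · push Not at hw
        rw [mix_pos]
        left
        exact ⟨hv, hw.1, hw.2, hwc, hwd⟩
    · have hcX : ¬ inX a b c d v c := by
        unfold inX; rintro (⟨_, _, _, h, _⟩ | ⟨h, _⟩)
        · exact h rfl
        · rcases h with h | h
          · exact hac h.symm
          · exact hbc h.symm
      have hdX : ¬ inX a b c d v d := by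
        unfold inX; rintro (⟨_, _, _, _, h⟩ | ⟨h, _⟩)
        · exact h rfl
        · rcases h with h | h
          · exact had h.symm
          · exact hbd h.symm
      have hc : (mix a b c d τ G1 H).Adj v c ↔ H.Adj (τ v) c := by
        rw [mix_neg hcX, hτ.out hac.symm hbc.symm]
      have hd : (mix a b c d τ G1 H).Adj v d ↔ H.Adj (τ v) d := by
        rw [mix_neg hdX, hτ.out had.symm hbd.symm]
      simp only [hc, hd]
      have hτv := hτ.mem.2 hv
      have h1 : τ v ≠ c := by
        rcases hτv with h | h <;> rw [h] <;> assumption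
      have h2 : τ v ≠ d := by
        rcases hτv with h | h <;> rw [h] <;> assumption
      rw [← pairRel_sum hcd hH h1 h2]
      rcases hv with rfl | rfl
      · exact hR.1
      · exact hR.2
  · by_cases hv2 : v = c ∨ v = d
    · rw [hH.2 v, deg_eq_sum, deg_eq_sum]
      have hτv : τ v = v := by
        push Not at hv
        exact hτ.out hv.1 hv.2
      have hX : ∀ w, ¬ inX a b c d v w := by
        intro w
        unfold inX; rintro (⟨h, _⟩ | ⟨_, _, _, h1, h2⟩)
        · exact hv h
        · rcases hv2 with h | h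
          · exact h1 h
          · exact h2 h
      have h1 : ∀ w, (mix a b c d τ G1 H).Adj v w ↔ H.Adj v (τ w) := by
        intro w
        rw [mix_neg (hX w), hτv]
      simp only [h1]
      exact Equiv.sum_comp τ (fun w => if H.Adj v w then 1 else 0)
    · rw [hH.2 v]
      push Not at hv hv2
      apply deg_eq_of_split hab
      · intro w hwa hwb
        exact mix_adj_ab hτ ⟨fun h => by rcases h with h | h
                                         · exact absurd h hv.1
                                         · exact absurd h hv.2,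
                            fun h => by rcases h with h | h
                                        · exact absurd h hwa
                                        · exact absurd h hwb⟩
      · have ha : (mix a b c d τ G1 H).Adj v a ↔ G1.Adj v a :=
          mix_pos (Or.inr ⟨Or.inl rfl, hv.1, hv.2, hv2.1, hv2.2⟩)
        have hb : (mix a b c d τ G1 H).Adj v b ↔ G1.Adj v b :=
          mix_pos (Or.inr ⟨Or.inr rfl, hv.1, hv.2, hv2.1, hv2.2⟩)
        simp only [ha, hb]
        rw [← pairRel_sum hab hG hv.1 hv.2]
        have hva : G.Adj v a ↔ H.Adj v a := hH.1 v a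
          ⟨fun h => by rcases h with h | h
                       · exact absurd h hv2.1
                       · exact absurd h hv2.2,
          fun h => by rcases h with h | h
                      · exact absurd h hac
                      · exact absurd h had⟩
        have hvb : G.Adj v b ↔ H.Adj v b := hH.1 v b
          ⟨fun h => by rcases h with h | h
                       · exact absurd h hv2.1
                       · exact absurd h hv2.2,
          fun h => by rcases h with h | h
                      · exact absurd h hbc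
                      · exact absurd h hbd⟩
        simp only [hva, hvb]

theorem mix_pairRel_cd {a b c d : V} (hab : a ≠ b) (hac : a ≠ c) (had : a ≠ d) (hbc : b ≠ c)
    (hbd : b ≠ d) (hcd : c ≠ d) {τ : Equiv.Perm V} (hτ : Good a b τ) {G G1 H : SimpleGraph V}
    (hG : pairRel a b G G1) (hR : Row a b c d τ G G1) (hH : pairRel c d G H) :
    pairRel c d G1 (mix a b c d τ G1 H) := by
  refine ⟨fun u v huv => ?_, fun v => ?_⟩
  · by_cases hX : inX a b c d u v
    · rw [mix_pos hX]
    · have hab' : (u = a ∨ u = b) ↔ (v = a ∨ v = b) := by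
        unfold inX at hX
        constructor
        · intro hu
          by_contra hv
          have hu' : ¬ (u = c ∨ u = d) := by
            rintro (h | h) <;> subst h
            · rcases hu with h | h
              · exact hac h.symm
              · exact hbc h.symm
            · rcases hu with h | h
              · exact had h.symm
              · exact hbd h.symm
          have hv' : ¬ (v = c ∨ v = d) := fun h => hu' (huv.2 h)
          push Not at hv hv'
          exact hX (Or.inl ⟨hu, hv.1, hv.2, hv'.1, hv'.2⟩)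
        · intro hv
          by_contra hu
          have hv' : ¬ (v = c ∨ v = d) := by
            rintro (h | h) <;> subst h
            · rcases hv with h | h
              · exact hac h.symm
              · exact hbc h.symm
            · rcases hv with h | h
              · exact had h.symm
              · exact hbd h.symm
          have hu' : ¬ (u = c ∨ u = d) := fun h => hv' (huv.1 h)
          push Not at hu hu'
          exact hX (Or.inr ⟨hv, hu.1, hu.2, hu'.1, hu'.2⟩)
      rw [mix_adj_ab hτ hab', ← hG.1 u v hab', hH.1 u v huv]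
  · rw [mix_deg hab hac had hbc hbd hcd hτ hG hR hH v, hG.2 v]

theorem mix_pairRelZ_ab {a b c d : V} (hab : a ≠ b) (hac : a ≠ c) (had : a ≠ d) (hbc : b ≠ c)
    (hbd : b ≠ d) (hcd : c ≠ d) {τ : Equiv.Perm V} (hτ : Good a b τ) {G G1 H : SimpleGraph V}
    (hG : pairRel a b G G1) (hR : Row a b c d τ G G1) (hH : pairRel c d G H) :
    pairRelZ a b c d H (mix a b c d τ G1 H) := by
  refine ⟨⟨fun u v huv => ?_, fun v => ?_⟩, ?_⟩
  · rw [mix_adj_ab hτ huv]
  · rw [mix_deg hab hac had hbc hbd hcd hτ hG hR hH v, hH.2 v]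
  · have hX : ∀ u v, (u = a ∨ u = b) → (v = c ∨ v = d) → ¬ inX a b c d u v := by
      intro u v hu hv
      unfold inX; rintro (⟨_, _, _, h1, h2⟩ | ⟨h, _⟩)
      · rcases hv with h | h
        · exact h1 h
        · exact h2 h
      · rcases hv with hv | hv <;> rcases h with h | h <;> subst hv
        · exact hac h.symm
        · exact hbc h.symm
        · exact had h.symm
        · exact hbd h.symm
    unfold Z
    rw [mix_neg (hX a c (Or.inl rfl) (Or.inl rfl)), mix_neg (hX a d (Or.inl rfl) (Or.inr rfl)),
      mix_neg (hX b c (Or.inr rfl) (Or.inl rfl)), mix_neg (hX b d (Or.inr rfl) (Or.inr rfl)),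
      hτ.out hac.symm hbc.symm, hτ.out had.symm hbd.symm]
    rcases hτ.cases with ⟨h1, h2⟩ | ⟨h1, h2⟩
    · rw [h1, h2]
    · rw [h1, h2]; tauto

theorem mix_mix {a b c d : V} (hac : a ≠ c) (had : a ≠ d) (hbc : b ≠ c)
    (hbd : b ≠ d) {τ : Equiv.Perm V} (hτ : Good a b τ) {G G1 H : SimpleGraph V}
    (hH : pairRel c d G H) :
    mix a b c d τ G (mix a b c d τ G1 H) = H := by
  ext u v
  by_cases hX : inX a b c d u v
  · rw [mix_pos hX]
    apply hH.1
    have aux : ∀ w, (w = a ∨ w = b) → ¬ (w = c ∨ w = d) := by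
      rintro w hw (h | h) <;> subst h
      · rcases hw with h | h
        · exact hac h.symm
        · exact hbc h.symm
      · rcases hw with h | h
        · exact had h.symm
        · exact hbd h.symm
    rcases hX with ⟨h1, _, _, h2, h3⟩ | ⟨h1, _, _, h2, h3⟩
    · refine ⟨fun h => absurd h (aux u h1), fun h => ?_⟩
      rcases h with h | h
      · exact absurd h h2
      · exact absurd h h3
    · refine ⟨fun h => ?_, fun h => absurd h (aux v h1)⟩
      rcases h with h | h
      · exact absurd h h2
      · exact absurd h h3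
  · rw [mix_neg hX, mix_neg (fun h => hX ((inX_tau hac had hbc hbd hτ).1 h)), hτ.sq, hτ.sq]

end Commute

theorem E'_comm_E (a b c d : V) (hab : a ≠ b) (hac : a ≠ c) (had : a ≠ d) (hbc : b ≠ c)
    (hbd : b ≠ d) (hcd : c ≠ d) (f : SimpleGraph V → ℝ) :
    E' a b c d (E c d f) = E c d (E' a b c d f) := by
  unfold E' E
  apply avg_comm_of
  intro G G1 hG
  obtain ⟨τ, hτ, hR⟩ := Commute.exists_tau hab hac had hbc hbd hG
  have hR' := hR.symm hτ
  have hG' : pairRel a b G1 G := (pairRel a b).symm hG.1
  refine ⟨Commute.mix a b c d τ G1, ?_, ?_⟩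
  · apply Set.InvOn.bijOn (f' := Commute.mix a b c d τ G)
    · refine ⟨fun H hH => ?_, fun H hH => ?_⟩
      · exact Commute.mix_mix hac had hbc hbd hτ hH
      · exact Commute.mix_mix hac had hbc hbd hτ hH
    · intro H hH
      exact Commute.mix_pairRel_cd hab hac had hbc hbd hcd hτ hG.1 hR hH
    · intro H hH
      exact Commute.mix_pairRel_cd hab hac had hbc hbd hcd hτ hG' hR' hH
  · intro H hH
    exact Commute.mix_pairRelZ_ab hab hac had hbc hbd hcd hτ hG.1 hR hH

theorem E'_comm_E' (a b c d : V) (hab : a ≠ b) (hac : a ≠ c) (had : a ≠ d) (hbc : b ≠ c)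
    (hbd : b ≠ d) (hcd : c ≠ d) (f : SimpleGraph V → ℝ) :
    E' a b c d (E' c d a b f) = E' c d a b (E' a b c d f) := by
  unfold E'
  apply avg_comm_of
  intro G G1 hG
  obtain ⟨τ, hτ, hR⟩ := Commute.exists_tau hab hac had hbc hbd hG
  have hR' := hR.symm hτ
  have hG' : pairRel a b G1 G := (pairRel a b).symm hG.1
  refine ⟨Commute.mix a b c d τ G1, ?_, ?_⟩
  · apply Set.InvOn.bijOn (f' := Commute.mix a b c d τ G)
    · refine ⟨fun H hH => ?_, fun H hH => ?_⟩
      · exact Commute.mix_mix hac had hbc hbd hτ hH.1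
      · exact Commute.mix_mix hac had hbc hbd hτ hH.1
    · intro H hH
      refine ⟨Commute.mix_pairRel_cd hab hac had hbc hbd hcd hτ hG.1 hR hH.1, ?_⟩
      have h1 := (Commute.mix_pairRelZ_ab hab hac had hbc hbd hcd hτ hG.1 hR hH.1).2
      exact Z_symm.symm.trans (hG.2.symm.trans ((Z_symm.trans (hH.2.trans Z_symm.symm)).trans
        (h1.trans Z_symm)))
    · intro H hH
      refine ⟨Commute.mix_pairRel_cd hab hac had hbc hbd hcd hτ hG' hR' hH.1, ?_⟩
      have h1 := (Commute.mix_pairRelZ_ab hab hac had hbc hbd hcd hτ hG' hR' hH.1).2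
      exact Z_symm.symm.trans (hG.2.trans ((Z_symm.trans (hH.2.trans Z_symm.symm)).trans
        (h1.trans Z_symm)))
  · intro H hH
    exact Commute.mix_pairRelZ_ab hab hac had hbc hbd hcd hτ hG.1 hR hH.1

end Vale.Agent.P335
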