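import Vale.Agent.P335.AvgBasic

/-! # Connectivity of the set of graphs with given degrees under pair moves -/

open scoped Classical

namespace Vale.Agent.P335

variable {V : Type*} [Fintype V]

private theorem con_card {s t : Finset V} {p q : V} (hp : p ∉ s) (hq : q ∈ s)
    (h : ∀ w, w ∈ t ↔ (w = p ∨ (w ≠ q ∧ w ∈ s))) : s.card = t.card := by
  have h1 : t = insert p (s.erase q) := by
    ext w
    rw [h w, Finset.mem_insert, Finset.mem_erase]
  rw [h1, Finset.card_insert_of_notMem (fun h' => hp (Finset.mem_of_mem_erase h')),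
    Finset.card_erase_of_mem hq]
  have : 0 < s.card := Finset.card_pos.2 ⟨q, hq⟩
  omega

private theorem con_adj_slot {a b c d : V} {G : SimpleGraph V} {u v : V}
    (h : slot a b c d u v) : (flip4 a b c d G).Adj u v ↔ u ≠ v ∧ ¬ G.Adj u v := by
  change (u ≠ v ∧ (if slot a b c d u v then ¬ G.Adj u v else G.Adj u v)) ↔ _
  rw [if_pos h]

private theorem con_adj_noslot {a b c d : V} {G : SimpleGraph V} {u v : V}
    (h : ¬ slot a b c d u v) : (flip4 a b c d G).Adj u v ↔ G.Adj u v := by
  change (u ≠ v ∧ (if slot a b c d u v then ¬ G.Adj u v else G.Adj u v)) ↔ _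
  rw [if_neg h]
  exact ⟨fun h' => h'.2, fun h' => ⟨h'.ne, h'⟩⟩

/-- the neighbourhood of one of the four vertices after the flip -/
private theorem con_nbr {a b c d x p q : V} {G : SimpleGraph V}
    (hs : ∀ w, slot a b c d x w ↔ (w = p ∨ w = q)) (hxp : x ≠ p)
    (hp : ¬ G.Adj x p) (hq : G.Adj x q) (w : V) :
    (flip4 a b c d G).Adj x w ↔ (w = p ∨ (w ≠ q ∧ G.Adj x w)) := by
  by_cases h1 : w = p
  · subst h1
    rw [con_adj_slot ((hs w).2 (Or.inl rfl))]
    exact ⟨fun _ => Or.inl rfl, fun _ => ⟨hxp, hp⟩⟩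
  · by_cases h2 : w = q
    · subst h2
      rw [con_adj_slot ((hs w).2 (Or.inr rfl))]
      constructor
      · intro h; exact absurd hq h.2
      · rintro (h | h)
        · exact absurd h h1
        · exact absurd rfl h.1
    · rw [con_adj_noslot (fun h => ((hs w).1 h).elim h1 h2)]
      exact ⟨fun h => Or.inr ⟨h2, h⟩, fun h => (h.elim (fun h' => absurd h' h1) fun h' => h'.2)⟩

private theorem con_deg {a b c d x p q : V} {G : SimpleGraph V}
    (hs : ∀ w, slot a b c d x w ↔ (w = p ∨ w = q)) (hxp : x ≠ p)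
    (hp : ¬ G.Adj x p) (hq : G.Adj x q) : deg G x = deg (flip4 a b c d G) x := by
  unfold deg
  refine con_card (p := p) (q := q) ?_ ?_ ?_
  · simpa using hp
  · simpa using hq
  · intro w
    rw [Finset.mem_filter, Finset.mem_filter, con_nbr hs hxp hp hq w]
    simp

private theorem con_flip {a b c d : V} (hab : a ≠ b) (hac : a ≠ c) (had : a ≠ d) (hbc : b ≠ c)
    (hbd : b ≠ d) (hcd : c ≠ d) {G : SimpleGraph V} (h1 : G.Adj a c) (h2 : G.Adj b d)
    (h3 : ¬ G.Adj a d) (h4 : ¬ G.Adj b c) : pairRel a b G (flip4 a b c d G) := by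
  constructor
  · intro u v huv
    rw [con_adj_noslot]
    rintro (⟨h5, h6⟩ | ⟨h5, h6⟩)
    · rcases huv.1 h5 with h7 | h7 <;> rcases h6 with h8 | h8 <;> subst h7 <;>
        first | exact hac h8 | exact had h8 | exact hbc h8 | exact hbd h8
    · rcases huv.2 h6 with h7 | h7 <;> rcases h5 with h8 | h8 <;> subst h7 <;>
        first | exact hac h8 | exact had h8 | exact hbc h8 | exact hbd h8
  · intro x
    by_cases hxa : x = a
    · subst hxa
      refine con_deg (p := d) (q := c) (fun w => ?_) had h3 h1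
      unfold slot
      constructor
      · rintro (⟨_, h⟩ | ⟨h, _⟩)
        · exact h.symm
        · exact (h.elim (fun h => absurd h hac) fun h => absurd h had)
      · intro h
        exact Or.inl ⟨Or.inl rfl, h.symm⟩
    by_cases hxb : x = b
    · subst hxb
      refine con_deg (p := c) (q := d) (fun w => ?_) hbc h4 h2
      unfold slot
      constructor
      · rintro (⟨_, h⟩ | ⟨h, _⟩)
        · exact h
        · exact (h.elim (fun h => absurd h hbc) fun h => absurd h hbd)
      · intro h
        exact Or.inl ⟨Or.inr rfl, h⟩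
    by_cases hxc : x = c
    · subst hxc
      refine con_deg (p := b) (q := a) (fun w => ?_) hxb (fun h => h4 h.symm) h1.symm
      unfold slot
      constructor
      · rintro (⟨h, _⟩ | ⟨_, h⟩)
        · exact (h.elim (fun h => absurd h hxa) fun h => absurd h hxb)
        · exact h.symm
      · intro h
        exact Or.inr ⟨Or.inl rfl, h.symm⟩
    by_cases hxd : x = d
    · subst hxd
      refine con_deg (p := a) (q := b) (fun w => ?_) hxa (fun h => h3 h.symm) h2.symm
      unfold slot
      constructor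
      · rintro (⟨h, _⟩ | ⟨_, h⟩)
        · exact (h.elim (fun h => absurd h hxa) fun h => absurd h hxb)
        · exact h
      · intro h
        exact Or.inr ⟨Or.inr rfl, h⟩
    · unfold deg
      congr 1
      ext w
      rw [Finset.mem_filter, Finset.mem_filter, con_adj_noslot]
      rintro (⟨h, _⟩ | ⟨h, _⟩)
      · exact (h.elim hxa hxb)
      · exact (h.elim hxc hxd)

/-- number of neighbours outside `S` -/
private noncomputable def dS (S : Finset V) (G : SimpleGraph V) (x : V) : ℕ :=
  (Finset.univ.filter (fun w => G.Adj x w ∧ w ∉ S)).card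

private theorem dS_eq (S : Finset V) (G H : SimpleGraph V) (x : V) (hd : deg G x = deg H x)
    (hS : ∀ s ∈ S, ∀ u, (G.Adj s u ↔ H.Adj s u)) : dS S G x = dS S H x := by
  have h1 : ∀ K : SimpleGraph V, deg K x =
      (Finset.univ.filter (fun w => K.Adj x w ∧ w ∈ S)).card + dS S K x := by
    intro K
    unfold deg dS
    rw [← Finset.card_filter_add_card_filter_not (s := Finset.univ.filter (fun w => K.Adj x w))
      (fun w => w ∈ S), Finset.filter_filter, Finset.filter_filter]
  have h2 : Finset.univ.filter (fun w => G.Adj x w ∧ w ∈ S) =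
      Finset.univ.filter (fun w => H.Adj x w ∧ w ∈ S) := by
    ext w
    rw [Finset.mem_filter, Finset.mem_filter]
    constructor
    · rintro ⟨_, h3, h4⟩
      exact ⟨Finset.mem_univ _, ((hS w h4 x).1 h3.symm).symm, h4⟩
    · rintro ⟨_, h3, h4⟩
      exact ⟨Finset.mem_univ _, ((hS w h4 x).2 h3.symm).symm, h4⟩
  have h3 := h1 G
  have h4 := h1 H
  rw [h2] at h3
  omega

private theorem con_one (f : SimpleGraph V → ℝ)
    (hf : ∀ a b, a ≠ b → ∀ G H, pairRel a b G H → f G = f H) (S : Finset V) (v : V)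
    (hv : v ∉ S) (G H : SimpleGraph V) (hS : ∀ s ∈ S, ∀ u, (G.Adj s u ↔ H.Adj s u)) (a b : V)
    (ha : G.Adj v a) (ha' : ¬ H.Adj v a) (hb : H.Adj v b) (hb' : ¬ G.Adj v b)
    (hle : dS S G a ≤ dS S G b) :
    ∃ G' : SimpleGraph V, f G' = f G ∧ (∀ x, deg G' x = deg G x) ∧
      (∀ s ∈ S, ∀ u, (G'.Adj s u ↔ G.Adj s u)) ∧
      (Finset.univ.filter (fun u => G'.Adj v u ∧ ¬ H.Adj v u)).card <
        (Finset.univ.filter (fun u => G.Adj v u ∧ ¬ H.Adj v u)).card := by
  have haS : a ∉ S := fun h => ha' ((hS a h v).1 ha.symm).symm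
  have hbS : b ∉ S := fun h => hb' ((hS b h v).2 hb.symm).symm
  have hab : a ≠ b := fun h => hb' (h ▸ ha)
  have hva : v ≠ a := ha.ne
  have hvb : v ≠ b := hb.ne
  obtain ⟨w, hwS, hbw, hwa, haw⟩ : ∃ w, w ∉ S ∧ G.Adj b w ∧ w ≠ a ∧ ¬ G.Adj a w := by
    by_contra hcon
    push Not at hcon
    have hsub : (Finset.univ.filter (fun w => G.Adj b w ∧ w ∉ S)).erase a ⊆
        ((Finset.univ.filter (fun w => G.Adj a w ∧ w ∉ S)).erase b).erase v := by
      intro w hw
      rw [Finset.mem_erase, Finset.mem_filter] at hw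
      obtain ⟨h1, _, h2, h3⟩ := hw
      rw [Finset.mem_erase, Finset.mem_erase, Finset.mem_filter]
      refine ⟨?_, ?_, Finset.mem_univ _, hcon w h3 h2 h1, h3⟩
      · rintro rfl
        exact hb' h2.symm
      · rintro rfl
        exact G.loopless.irrefl _ h2
    have hcard := Finset.card_le_card hsub
    have hv1 : v ∈ (Finset.univ.filter (fun w => G.Adj a w ∧ w ∉ S)).erase b := by
      rw [Finset.mem_erase, Finset.mem_filter]
      exact ⟨hvb, Finset.mem_univ _, ha.symm, hv⟩
    rw [Finset.card_erase_of_mem hv1] at hcard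
    have hpos := Finset.card_pos.2 ⟨v, hv1⟩
    unfold dS at hle
    by_cases hadj : G.Adj a b
    · have h1 : a ∈ Finset.univ.filter (fun w => G.Adj b w ∧ w ∉ S) := by
        rw [Finset.mem_filter]; exact ⟨Finset.mem_univ _, hadj.symm, haS⟩
      have h2 : b ∈ Finset.univ.filter (fun w => G.Adj a w ∧ w ∉ S) := by
        rw [Finset.mem_filter]; exact ⟨Finset.mem_univ _, hadj, hbS⟩
      rw [Finset.card_erase_of_mem h1, Finset.card_erase_of_mem h2] at hcard
      rw [Finset.card_erase_of_mem h2] at hpos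
      have := Finset.card_pos.2 ⟨a, h1⟩
      omega
    · have h1 : a ∉ Finset.univ.filter (fun w => G.Adj b w ∧ w ∉ S) := by
        rw [Finset.mem_filter]; exact fun h => hadj h.2.1.symm
      have h2 : b ∉ Finset.univ.filter (fun w => G.Adj a w ∧ w ∉ S) := by
        rw [Finset.mem_filter]; exact fun h => hadj h.2.1
      rw [Finset.erase_eq_of_notMem h1, Finset.erase_eq_of_notMem h2] at hcard
      rw [Finset.erase_eq_of_notMem h2] at hpos
      omega
  have hwv : v ≠ w := by
    rintro rfl
    exact hb' hbw.symm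
  have hbw' : b ≠ w := hbw.ne
  have hrel : pairRel a b G (flip4 a b v w G) :=
    con_flip hab hva.symm (Ne.symm hwa) hvb.symm hbw' hwv ha.symm hbw haw (fun h => hb' h.symm)
  have hnv : ∀ u, (flip4 a b v w G).Adj v u ↔ (u = b ∨ (u ≠ a ∧ G.Adj v u)) := by
    refine fun u => con_nbr (fun w' => ?_) hvb hb' ha u
    unfold slot
    constructor
    · rintro (⟨h, _⟩ | ⟨_, h⟩)
      · exact (h.elim (fun h => absurd h hva) fun h => absurd h hvb)
      · exact h.symm
    · intro h
      exact Or.inr ⟨Or.inl rfl, h.symm⟩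
  refine ⟨flip4 a b v w G, (hf a b hab _ _ hrel).symm, fun x => (hrel.2 x).symm, ?_, ?_⟩
  · intro s hs u
    rw [con_adj_noslot]
    rintro (⟨h, _⟩ | ⟨h, _⟩)
    · rcases h with h | h <;> subst h
      · exact haS hs
      · exact hbS hs
    · rcases h with h | h <;> subst h
      · exact hv hs
      · exact hwS hs
  · refine Finset.card_lt_card ?_
    rw [Finset.ssubset_iff_of_subset]
    · refine ⟨a, ?_, ?_⟩
      · rw [Finset.mem_filter]; exact ⟨Finset.mem_univ _, ha, ha'⟩
      · rw [Finset.mem_filter, hnv a]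
        rintro ⟨_, h | h, _⟩
        · exact hab h
        · exact h.1 rfl
    · intro u hu
      rw [Finset.mem_filter, hnv u] at hu
      rw [Finset.mem_filter]
      obtain ⟨_, h | h, h'⟩ := hu
      · rw [h] at h'; exact absurd hb h'
      · exact ⟨Finset.mem_univ _, h.2, h'⟩

private theorem con_diff_card (G H : SimpleGraph V) (v : V) (hd : deg G v = deg H v) :
    (Finset.univ.filter (fun u => G.Adj v u ∧ ¬ H.Adj v u)).card =
      (Finset.univ.filter (fun u => H.Adj v u ∧ ¬ G.Adj v u)).card := by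
  have h1 := Finset.card_filter_add_card_filter_not
    (s := Finset.univ.filter (fun w => G.Adj v w)) (fun w => H.Adj v w)
  have h2 := Finset.card_filter_add_card_filter_not
    (s := Finset.univ.filter (fun w => H.Adj v w)) (fun w => G.Adj v w)
  rw [Finset.filter_filter, Finset.filter_filter] at h1 h2
  have h3 : Finset.univ.filter (fun w => G.Adj v w ∧ H.Adj v w) =
      Finset.univ.filter (fun w => H.Adj v w ∧ G.Adj v w) := by
    ext w
    rw [Finset.mem_filter, Finset.mem_filter, and_comm (a := G.Adj v w)]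
  rw [h3] at h1
  unfold deg at hd
  omega

private theorem con_step (f : SimpleGraph V → ℝ)
    (hf : ∀ a b, a ≠ b → ∀ G H, pairRel a b G H → f G = f H) (S : Finset V) (v : V)
    (hv : v ∉ S) : ∀ k : ℕ, ∀ G H : SimpleGraph V, (∀ x, deg G x = deg H x) →
      (∀ s ∈ S, ∀ u, (G.Adj s u ↔ H.Adj s u)) →
      (Finset.univ.filter (fun u => G.Adj v u ∧ ¬ H.Adj v u)).card = k →
      ∃ G' H' : SimpleGraph V, f G' = f G ∧ f H' = f H ∧ (∀ x, deg G' x = deg H' x) ∧
        ∀ s ∈ insert v S, ∀ u, (G'.Adj s u ↔ H'.Adj s u) := by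
  intro k
  induction k using Nat.strong_induction_on with
  | _ k ih =>
    intro G H hd hS hk
    have hk' := (con_diff_card G H v (hd v)).symm.trans hk
    rcases Nat.eq_zero_or_pos k with h0 | hpos
    · subst h0
      rw [Finset.card_eq_zero] at hk hk'
      refine ⟨G, H, rfl, rfl, hd, ?_⟩
      intro s hs u
      rw [Finset.mem_insert] at hs
      rcases hs with rfl | hs
      · constructor
        · intro h
          by_contra h'
          have : u ∈ (∅ : Finset V) := by
            rw [← hk, Finset.mem_filter]; exact ⟨Finset.mem_univ _, h, h'⟩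
          exact absurd this (Finset.notMem_empty _)
        · intro h
          by_contra h'
          have : u ∈ (∅ : Finset V) := by
            rw [← hk', Finset.mem_filter]; exact ⟨Finset.mem_univ _, h, h'⟩
          exact absurd this (Finset.notMem_empty _)
      · exact hS s hs u
    · obtain ⟨a, ha⟩ := Finset.card_pos.1 (hk ▸ hpos)
      obtain ⟨b, hb⟩ := Finset.card_pos.1 (hk' ▸ hpos)
      rw [Finset.mem_filter] at ha hb
      rcases le_total (dS S G a) (dS S G b) with hle | hle
      · obtain ⟨G', h1, h2, h3, h4⟩ := con_one f hf S v hv G H hS a b ha.2.1 ha.2.2 hb.2.1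
          hb.2.2 hle
        obtain ⟨G'', H'', g1, g2, g3, g4⟩ := ih _ (hk ▸ h4) G' H
          (fun x => (h2 x).trans (hd x)) (fun s hs u => (h3 s hs u).trans (hS s hs u)) rfl
        exact ⟨G'', H'', g1.trans h1, g2, g3, g4⟩
      · have hle' : dS S H b ≤ dS S H a := by
          rw [← dS_eq S G H b (hd b) hS, ← dS_eq S G H a (hd a) hS]; exact hle
        obtain ⟨H', h1, h2, h3, h4⟩ := con_one f hf S v hv H G (fun s hs u => (hS s hs u).symm)
          b a hb.2.1 hb.2.2 ha.2.1 ha.2.2 hle'
        have hd' : ∀ x, deg G x = deg H' x := fun x => (hd x).trans (h2 x).symm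
        rw [← con_diff_card G H' v (hd' v)] at h4
        obtain ⟨G'', H'', g1, g2, g3, g4⟩ := ih _ (hk' ▸ h4) G H' hd'
          (fun s hs u => (hS s hs u).trans (h3 s hs u).symm) rfl
        exact ⟨G'', H'', g1, g2.trans h1, g3, g4⟩

theorem connected (f : SimpleGraph V → ℝ)
    (hf : ∀ a b, a ≠ b → ∀ G H, pairRel a b G H → f G = f H)
    (G H : SimpleGraph V) (hd : ∀ v, deg G v = deg H v) : f G = f H := by
  have key : ∀ S : Finset V, ∃ G' H' : SimpleGraph V, f G' = f G ∧ f H' = f H ∧
      (∀ x, deg G' x = deg H' x) ∧ ∀ s ∈ S, ∀ u, (G'.Adj s u ↔ H'.Adj s u) := by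
    intro S
    induction S using Finset.induction_on with
    | empty => exact ⟨G, H, rfl, rfl, hd, fun s hs => absurd hs (Finset.notMem_empty _)⟩
    | insert v S hv ih =>
      obtain ⟨G₁, H₁, h1, h2, h3, h4⟩ := ih
      obtain ⟨G₂, H₂, g1, g2, g3, g4⟩ := con_step f hf S v hv _ G₁ H₁ h3 h4 rfl
      exact ⟨G₂, H₂, g1.trans h1, g2.trans h2, g3, g4⟩
  obtain ⟨G', H', h1, h2, _, h4⟩ := key Finset.univ
  have h5 : G' = H' := by
    ext u w
    exact h4 u (Finset.mem_univ _) w
  rw [← h1, ← h2, h5]

end Vale.Agent.P335
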