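import Mathlib

/-!
# P335: basic definitions (averaging operators, pair heat baths on simple graphs)
-/

open scoped Classical

namespace Vale.Agent.P335

/-- counting inner product on real functions on a finite type -/
noncomputable def ip {X : Type*} [Fintype X] (f g : X → ℝ) : ℝ := ∑ x, f x * g x

/-- averaging over the classes of an equivalence relation (w.r.t. counting measure) -/
noncomputable def avg {X : Type*} [Fintype X] (r : Setoid X) (f : X → ℝ) (x : X) : ℝ :=
  (∑ y ∈ Finset.univ.filter (fun y => r x y), f y) /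
    ((Finset.univ.filter (fun y => r x y)).card : ℝ)

section Graphs

variable {V : Type*} [Fintype V]

/-- degree -/
noncomputable def deg (G : SimpleGraph V) (v : V) : ℕ :=
  (Finset.univ.filter (fun w => G.Adj v w)).card

/-- `G ~_{ab} H`: same adjacency on every pair not having exactly one endpoint in `{a,b}`,
and the same degrees. -/
def pairRel (a b : V) : Setoid (SimpleGraph V) where
  r G H := (∀ u v, ((u = a ∨ u = b) ↔ (v = a ∨ v = b)) → (G.Adj u v ↔ H.Adj u v)) ∧
    ∀ v, deg G v = deg H v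
  iseqv := ⟨fun _ => ⟨fun _ _ _ => Iff.rfl, fun _ => rfl⟩,
    fun h => ⟨fun u v huv => (h.1 u v huv).symm, fun v => (h.2 v).symm⟩,
    fun h k => ⟨fun u v huv => (h.1 u v huv).trans (k.1 u v huv), fun v => (h.2 v).trans (k.2 v)⟩⟩

/-- `E_ab` -/
noncomputable def E (a b : V) (f : SimpleGraph V → ℝ) : SimpleGraph V → ℝ := avg (pairRel a b) f

/-- `D_ab = 1 - E_ab` -/
noncomputable def D (a b : V) (f : SimpleGraph V → ℝ) : SimpleGraph V → ℝ :=
  fun G => f G - E a b f G

/-- the alternating 4-cycle event `Z_{ab|cd}` -/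
def Z (a b c d : V) (G : SimpleGraph V) : Prop :=
  (G.Adj a c ∧ G.Adj b d ∧ ¬ G.Adj a d ∧ ¬ G.Adj b c) ∨
  (¬ G.Adj a c ∧ ¬ G.Adj b d ∧ G.Adj a d ∧ G.Adj b c)

/-- the pair `{u,v}` is one of `ac, ad, bc, bd` -/
def slot (a b c d u v : V) : Prop :=
  ((u = a ∨ u = b) ∧ (v = c ∨ v = d)) ∨ ((u = c ∨ u = d) ∧ (v = a ∨ v = b))

/-- flip the four slots `ac, ad, bc, bd` -/
def flip4 (a b c d : V) (G : SimpleGraph V) : SimpleGraph V where
  Adj u v := u ≠ v ∧ (if slot a b c d u v then ¬ G.Adj u v else G.Adj u v)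
  symm := ⟨by
    intro u v ⟨h1, h2⟩
    refine ⟨h1.symm, ?_⟩
    have hs : slot a b c d v u ↔ slot a b c d u v := by unfold slot; tauto
    by_cases h : slot a b c d u v
    · rw [if_pos (hs.2 h)]; rw [if_pos h] at h2; rwa [G.adj_comm]
    · rw [if_neg (fun h' => h (hs.1 h'))]; rw [if_neg h] at h2; rwa [G.adj_comm]⟩
  loopless := ⟨fun u h => h.1 rfl⟩

/-- the switch on `a,b | c,d` (identity outside `Z`) -/
noncomputable def sw (a b c d : V) (G : SimpleGraph V) : SimpleGraph V :=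
  if Z a b c d G then flip4 a b c d G else G

/-- antisymmetric part on `Z` -/
noncomputable def Anti (a b c d : V) (f : SimpleGraph V → ℝ) : SimpleGraph V → ℝ :=
  fun G => if Z a b c d G then (f G - f (sw a b c d G)) / 2 else 0

/-- `~_{ab}` refined by the event `Z_{ab|cd}` -/
def pairRelZ (a b c d : V) : Setoid (SimpleGraph V) where
  r G H := pairRel a b G H ∧ (Z a b c d G ↔ Z a b c d H)
  iseqv := ⟨fun _ => ⟨(pairRel a b).refl _, Iff.rfl⟩,
    fun h => ⟨(pairRel a b).symm h.1, h.2.symm⟩,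
    fun h k => ⟨(pairRel a b).trans h.1 k.1, h.2.trans k.2⟩⟩

/-- `E'_ab` (refined by `Z_{ab|cd}`) -/
noncomputable def E' (a b c d : V) (f : SimpleGraph V → ℝ) : SimpleGraph V → ℝ :=
  avg (pairRelZ a b c d) f

/-- `B_{ab}^{cd}(f) = Σ_{G ∈ Z} (E'_{ab} f - E_{ab} f)^2` -/
noncomputable def B (a b c d : V) (f : SimpleGraph V → ℝ) : ℝ :=
  ∑ G : SimpleGraph V, if Z a b c d G then (E' a b c d f G - E a b f G) ^ 2 else 0

/-- `L f = Σ_a Σ_b D_ab f` (ordered pairs; `D_aa = 0`) -/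
noncomputable def L (f : SimpleGraph V → ℝ) : SimpleGraph V → ℝ :=
  fun G => ∑ a : V, ∑ b : V, D a b f G

end Graphs

section Mat3

variable {ι : Type*} [Fintype ι]

/-- 0/1 matrices with three columns -/
abbrev Mat (ι : Type*) := ι → Fin 3 → Bool

/-- `X ~_j Y`: same column `j`, same row sums, same column sums -/
def colRel (j : Fin 3) : Setoid (Mat ι) where
  r X Y := (∀ i, X i j = Y i j) ∧ (∀ i, ∑ k, (X i k).toNat = ∑ k, (Y i k).toNat) ∧
    ∀ k, ∑ i, (X i k).toNat = ∑ i, (Y i k).toNat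
  iseqv := ⟨fun _ => ⟨fun _ => rfl, fun _ => rfl, fun _ => rfl⟩,
    fun h => ⟨fun i => (h.1 i).symm, fun i => (h.2.1 i).symm, fun k => (h.2.2 k).symm⟩,
    fun h k => ⟨fun i => (h.1 i).trans (k.1 i), fun i => (h.2.1 i).trans (k.2.1 i),
      fun j => (h.2.2 j).trans (k.2.2 j)⟩⟩

/-- `L₃ = Σ_j (1 - E_j)` -/
noncomputable def L3 (f : Mat ι → ℝ) : Mat ι → ℝ :=
  fun X => ∑ j : Fin 3, (f X - avg (colRel j) f X)

end Mat3

end Vale.Agent.P335
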