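import Vale.Agent.P335.Commute
import Vale.Agent.P335.PairBasic

/-! # Lower bound for disjoint pairs -/

open scoped Classical

namespace Vale.Agent.P335

/-- the product of two commuting orthogonal projections -/
theorem ip_comm_proj {X : Type*} [Fintype X] (A B : (X → ℝ) →ₗ[ℝ] (X → ℝ))
    (hA : ∀ f g, ip (A f) g = ip f (A g)) (hB : ∀ f g, ip (B f) g = ip f (B g))
    (hA2 : ∀ f, A (A f) = A f) (hB2 : ∀ f, B (B f) = B f)
    (hAB : ∀ f, A (B f) = B (A f)) (f : X → ℝ) :
    ip (A f) (B f) = ip (A (B f)) (A (B f)) := by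
  rw [hA f (B f), hA (B f) (A (B f)), hA2, hB f (A (B f)), ← hAB (B f), hB2]

variable {X : Type*} [Fintype X]

/-- `1 - avg r` as a linear map -/
noncomputable def coL (r : Setoid X) : (X → ℝ) →ₗ[ℝ] (X → ℝ) := LinearMap.id - avgL r

/-- `avg r' - avg r` as a linear map -/
noncomputable def diffL (r' r : Setoid X) : (X → ℝ) →ₗ[ℝ] (X → ℝ) := avgL r' - avgL r

theorem coL_apply (r : Setoid X) (f : X → ℝ) : coL r f = f - avg r f := rfl

theorem diffL_apply (r' r : Setoid X) (f : X → ℝ) : diffL r' r f = avg r' f - avg r f := rfl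

theorem coL_symm (r : Setoid X) (f g : X → ℝ) : ip (coL r f) g = ip f (coL r g) := by
  rw [coL_apply, coL_apply, ip_sub_left, ip_sub_right, avg_symm]

theorem coL_idem (r : Setoid X) (f : X → ℝ) : coL r (coL r f) = coL r f := by
  simp only [coL_apply, avg_sub, avg_idem]; abel

theorem diffL_symm (r' r : Setoid X) (f g : X → ℝ) :
    ip (diffL r' r f) g = ip f (diffL r' r g) := by
  rw [diffL_apply, diffL_apply, ip_sub_left, ip_sub_right, avg_symm, avg_symm]

theorem diffL_idem {r' r : Setoid X} (h : ∀ x y, r' x y → r x y) (f : X → ℝ) :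
    diffL r' r (diffL r' r f) = diffL r' r f := by
  simp only [diffL_apply, avg_sub, avg_idem, avg_le_left h, avg_le_right h]; abel

variable {V : Type*} [Fintype V]

theorem E_eq (a b : V) (f : SimpleGraph V → ℝ) : E a b f = avg (pairRel a b) f := rfl

theorem E'_eq (a b c d : V) (f : SimpleGraph V → ℝ) : E' a b c d f = avg (pairRelZ a b c d) f := rfl

/-- an antisymmetric function averages to zero -/
theorem avg_anti {X : Type*} [Fintype X] (r : Setoid X) (σ : X ≃ X) (hσ : ∀ x, r x (σ x))
    (g : X → ℝ) (hg : ∀ x, g (σ x) = - g x) : avg r g = 0 := by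
  funext x
  have h1 : avg r (fun y => g (σ y)) x = avg r g (σ x) :=
    avg_comp_equiv r σ (fun x y => ⟨fun h => r.trans (r.symm (hσ x)) (r.trans h (hσ y)),
      fun h => r.trans (hσ x) (r.trans h (r.symm (hσ y)))⟩) g x
  have h2 : (fun y => g (σ y)) = (-1 : ℝ) • g := by
    funext y; rw [hg]; simp
  rw [h2, avg_smul, ← avg_eq_of_rel r g (hσ x)] at h1
  simp only [Pi.smul_apply, smul_eq_mul] at h1
  simp only [Pi.zero_apply]
  linarith

theorem Anti_sw {a b c d : V} (hac : a ≠ c) (had : a ≠ d) (hbc : b ≠ c)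
    (hbd : b ≠ d) (f : SimpleGraph V → ℝ) (G : SimpleGraph V) :
    Anti a b c d f (sw a b c d G) = - Anti a b c d f G := by
  unfold Anti
  by_cases h : Z a b c d G
  · rw [if_pos h, if_pos ((Z_sw hac had hbc hbd G).2 h), sw_sw hac had hbc hbd]; ring
  · rw [if_neg h, if_neg (fun h' => h ((Z_sw hac had hbc hbd G).1 h'))]; ring

theorem ip_Anti {a b c d : V} (hac : a ≠ c) (had : a ≠ d) (hbc : b ≠ c)
    (hbd : b ≠ d) (f : SimpleGraph V → ℝ) :
    ip f (Anti a b c d f) = ip (Anti a b c d f) (Anti a b c d f) := by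
  have h1 : ip f (Anti a b c d f) = - ip (fun G => f (sw a b c d G)) (Anti a b c d f) := by
    unfold ip
    rw [← Equiv.sum_comp (swEquiv hac had hbc hbd), ← Finset.sum_neg_distrib]
    refine Finset.sum_congr rfl (fun G _ => ?_)
    change f (sw a b c d G) * Anti a b c d f (sw a b c d G) = _
    rw [Anti_sw hac had hbc hbd]; ring
  have h2 : 2 * ip (Anti a b c d f) (Anti a b c d f) =
      ip f (Anti a b c d f) - ip (fun G => f (sw a b c d G)) (Anti a b c d f) := by
    unfold ip
    rw [Finset.mul_sum, ← Finset.sum_sub_distrib]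
    refine Finset.sum_congr rfl (fun G _ => ?_)
    unfold Anti
    by_cases h : Z a b c d G
    · simp only [if_pos h]; ring
    · simp only [if_neg h]; ring
  linarith

/-- if the class of `G` does not meet `Z`, then `E'` and `E` agree at `G` -/
theorem E'_eq_E_of_not {a b c d : V} (f : SimpleGraph V → ℝ) {G : SimpleGraph V}
    (h : ∀ G1, pairRel a b G G1 → ¬ Z a b c d G1) : E' a b c d f G = E a b f G := by
  have hc : cls (pairRelZ a b c d) G = cls (pairRel a b) G := by
    ext H
    rw [mem_cls, mem_cls]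
    constructor
    · exact fun h1 => h1.1
    · intro h1
      exact ⟨h1, ⟨fun h2 => absurd h2 (h G ((pairRel a b).refl G)), fun h2 => absurd h2 (h H h1)⟩⟩
  rw [E'_eq, E_eq, avg_def, avg_def, hc]

theorem disjoint_ineq (a b c d : V) (hab : a ≠ b) (hac : a ≠ c) (had : a ≠ d) (hbc : b ≠ c)
    (hbd : b ≠ d) (hcd : c ≠ d) (f : SimpleGraph V → ℝ) :
    ip (Anti a b c d f) (Anti a b c d f) - (B a b c d f + B c d a b f) / 2 ≤
      ip (D a b f) (D c d f) := by
  set r := pairRel a b with hr
  set s := pairRel c d with hs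
  set r' := pairRelZ a b c d with hr'
  set s' := pairRelZ c d a b with hs'
  have hrr : ∀ x y, r' x y → r x y := fun x y h => h.1
  have hss : ∀ x y, s' x y → s x y := fun x y h => h.1
  -- commutations
  have c1 : ∀ g, avg r' (avg s g) = avg s (avg r' g) := fun g =>
    E'_comm_E a b c d hab hac had hbc hbd hcd g
  have c2 : ∀ g, avg r' (avg s' g) = avg s' (avg r' g) := fun g =>
    E'_comm_E' a b c d hab hac had hbc hbd hcd g
  have c3 : ∀ g, avg s' (avg r g) = avg r (avg s' g) := fun g =>
    E'_comm_E c d a b hcd hac.symm hbc.symm had.symm hbd.symm hab g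
  have dP : D a b f = coL r' f + diffL r' r f := by
    funext G
    rw [Pi.add_apply, coL_apply, diffL_apply, Pi.sub_apply, Pi.sub_apply]
    unfold D; rw [E_eq]; ring
  have dQ : D c d f = coL s' f + diffL s' s f := by
    funext G
    rw [Pi.add_apply, coL_apply, diffL_apply, Pi.sub_apply, Pi.sub_apply]
    unfold D; rw [E_eq]; ring
  have t1 : ip (coL r' f) (coL s' f) = ip (coL r' (coL s' f)) (coL r' (coL s' f)) :=
    ip_comm_proj _ _ (coL_symm r') (coL_symm s') (coL_idem r') (coL_idem s')
      (fun g => by simp only [coL_apply, avg_sub, c2]; abel) f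
  have t2 : ip (coL r' f) (diffL s' s f) = ip (coL r' (diffL s' s f)) (coL r' (diffL s' s f)) :=
    ip_comm_proj _ _ (coL_symm r') (diffL_symm s' s) (coL_idem r') (diffL_idem hss)
      (fun g => by simp only [coL_apply, diffL_apply, avg_sub, c1, c2]; abel) f
  have t3 : ip (diffL r' r f) (coL s' f) = ip (diffL r' r (coL s' f)) (diffL r' r (coL s' f)) :=
    ip_comm_proj _ _ (diffL_symm r' r) (coL_symm s') (diffL_idem hrr) (coL_idem s')
      (fun g => by simp only [coL_apply, diffL_apply, avg_sub, c2, c3]; abel) f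
  -- the antisymmetric part
  set A := Anti a b c d f with hA
  have z1 : avg r' A = 0 := avg_anti r' (swEquiv hac had hbc hbd)
    (fun G => pairRelZ_sw hac had hbc hbd G) A (fun G => Anti_sw hac had hbc hbd f G)
  have z2 : avg s' A = 0 := avg_anti s' (swEquiv hac had hbc hbd)
    (fun G => pairRelZ_sw' hac had hbc hbd G) A (fun G => Anti_sw hac had hbc hbd f G)
  have t4 : ip A A ≤ ip (coL r' (coL s' f)) (coL r' (coL s' f)) := by
    have h1 : ip (coL r' (coL s' f)) A = ip A A := by
      rw [coL_symm, coL_apply r' A, z1, sub_zero, coL_symm, coL_apply s' A, z2, sub_zero]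
      exact ip_Anti hac had hbc hbd f
    have h2 := ip_self_nonneg (coL r' (coL s' f) - A)
    rw [ip_sub_left, ip_sub_right, ip_sub_right, h1, ip_comm A (coL r' (coL s' f)), h1] at h2
    linarith
  -- the remaining term
  have t5 : - (B a b c d f + B c d a b f) / 2 ≤ ip (diffL r' r f) (diffL s' s f) := by
    unfold B ip
    rw [← Finset.sum_add_distrib, neg_div, Finset.sum_div, ← Finset.sum_neg_distrib]
    refine Finset.sum_le_sum (fun G _ => ?_)
    rw [diffL_apply, diffL_apply, Pi.sub_apply, Pi.sub_apply]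
    by_cases hZ : Z a b c d G
    · rw [if_pos hZ, if_pos (Z_symm.1 hZ)]
      change -(((avg r' f G - avg r f G) ^ 2 + (avg s' f G - avg s f G) ^ 2) / 2) ≤ _
      nlinarith [sq_nonneg ((avg r' f G - avg r f G) + (avg s' f G - avg s f G))]
    · rw [if_neg hZ, if_neg (fun h => hZ (Z_symm.2 h))]
      have h0 : (avg r' f G - avg r f G) * (avg s' f G - avg s f G) = 0 := by
        by_cases h1 : ∃ G1, pairRel a b G G1 ∧ Z a b c d G1
        · obtain ⟨G1, hG1, hZ1⟩ := h1
          have h2 : ∀ G2, pairRel c d G G2 → ¬ Z c d a b G2 := by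
            intro G2 hG2 hZ2
            exact hZ (Z_of_both hab hac had hbc hbd hcd hG1 hZ1 hG2 (Z_symm.2 hZ2))
          have h3 := E'_eq_E_of_not (a := c) (b := d) (c := a) (d := b) f h2
          rw [E'_eq, E_eq] at h3
          rw [h3, sub_self, mul_zero]
        · push Not at h1
          have h3 := E'_eq_E_of_not (a := a) (b := b) (c := c) (d := d) f h1
          rw [E'_eq, E_eq] at h3
          rw [h3, sub_self, zero_mul]
      rw [h0]; simp
  rw [dP, dQ, ip_add_left, ip_add_right, ip_add_right, t1, t2, t3]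
  have n2 := ip_self_nonneg (coL r' (diffL s' s f))
  have n3 := ip_self_nonneg (diffL r' r (coL s' f))
  linarith

end Vale.Agent.P335
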