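import Mathlib

/-! # From a Poincaré inequality to mixing (abstract lazy symmetric chain) -/

open scoped Classical

namespace Vale.Agent.P335

/-- a symmetric stochastic matrix is a contraction of `ℓ²` -/
private theorem mixAbs_contr {Ω : Type*} [Fintype Ω] (K : Ω → Ω → ℝ)
    (hsymm : ∀ x y, K x y = K y x) (hnonneg : ∀ x y, 0 ≤ K x y) (hrow : ∀ x, ∑ y, K x y = 1)
    (u : Ω → ℝ) : ∑ x, (∑ y, K x y * u y) ^ 2 ≤ ∑ x, u x ^ 2 := by
  have h1 : ∀ x, (∑ y, K x y * u y) ^ 2 ≤ ∑ y, K x y * u y ^ 2 := by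
    intro x
    have h2 : (∑ y, K x y * u y) ^ 2 ≤ (∑ y, K x y) * ∑ y, K x y * u y ^ 2 := by
      have h3 := Finset.sum_sq_le_sum_mul_sum_of_sq_le_mul Finset.univ
        (r := fun y => K x y * u y) (f := fun y => K x y) (g := fun y => K x y * u y ^ 2)
        (fun y _ => hnonneg x y) (fun y _ => mul_nonneg (hnonneg x y) (sq_nonneg _))
        (fun y _ => le_of_eq (by ring))
      exact h3
    rw [hrow x, one_mul] at h2
    exact h2
  calc ∑ x, (∑ y, K x y * u y) ^ 2 ≤ ∑ x, ∑ y, K x y * u y ^ 2 :=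
        Finset.sum_le_sum fun x _ => h1 x
    _ = ∑ y, ∑ x, K x y * u y ^ 2 := Finset.sum_comm
    _ = ∑ y, u y ^ 2 := by
        refine Finset.sum_congr rfl fun y _ => ?_
        rw [← Finset.sum_mul]
        have : ∑ x, K x y = 1 := by
          rw [← hrow y]
          exact Finset.sum_congr rfl fun x _ => hsymm x y
        rw [this, one_mul]

private theorem mixAbs_step {Ω : Type*} [Fintype Ω] (P : Matrix Ω Ω ℝ)
    (hsymm : ∀ x y, P x y = P y x) (hnonneg : ∀ x y, 0 ≤ P x y) (hrow : ∀ x, ∑ y, P x y = 1)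
    (hlazy : ∀ x, 1 / 2 ≤ P x x) (γ : ℝ)
    (u : Ω → ℝ) (hgap : γ * ∑ x, u x ^ 2 ≤ (1 / 2) * ∑ x, ∑ y, P x y * (u x - u y) ^ 2) :
    ∑ x, (∑ y, P x y * u y) ^ 2 ≤ (1 - γ) * ∑ x, u x ^ 2 := by
  -- the Dirichlet form
  have hcol : ∀ y, ∑ x, P x y = 1 := by
    intro y
    rw [← hrow y]
    exact Finset.sum_congr rfl fun x _ => hsymm x y
  have hD : (1 / 2) * ∑ x, ∑ y, P x y * (u x - u y) ^ 2 =
      ∑ x, u x ^ 2 - ∑ x, u x * ∑ y, P x y * u y := by
    have e1 : ∑ x, ∑ y, P x y * (u x - u y) ^ 2 =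
        ∑ x, ∑ y, P x y * u x ^ 2 + ∑ x, ∑ y, P x y * u y ^ 2 -
          2 * ∑ x, ∑ y, P x y * (u x * u y) := by
      rw [Finset.mul_sum, ← Finset.sum_add_distrib, ← Finset.sum_sub_distrib]
      refine Finset.sum_congr rfl fun x _ => ?_
      rw [Finset.mul_sum, ← Finset.sum_add_distrib, ← Finset.sum_sub_distrib]
      exact Finset.sum_congr rfl fun y _ => by ring
    have e2 : ∑ x, ∑ y, P x y * u x ^ 2 = ∑ x, u x ^ 2 := by
      refine Finset.sum_congr rfl fun x _ => ?_
      rw [← Finset.sum_mul, hrow x, one_mul]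
    have e3 : ∑ x, ∑ y, P x y * u y ^ 2 = ∑ x, u x ^ 2 := by
      rw [Finset.sum_comm]
      refine Finset.sum_congr rfl fun y _ => ?_
      rw [← Finset.sum_mul, hcol y, one_mul]
    have e4 : ∑ x, ∑ y, P x y * (u x * u y) = ∑ x, u x * ∑ y, P x y * u y := by
      refine Finset.sum_congr rfl fun x _ => ?_
      rw [Finset.mul_sum]
      exact Finset.sum_congr rfl fun y _ => by ring
    rw [e1, e2, e3, e4]; ring
  rw [hD] at hgap
  -- K = 2P - 1
  let K : Ω → Ω → ℝ := fun x y => 2 * P x y - if x = y then 1 else 0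
  have hK := mixAbs_contr K (by
    intro x y
    simp only [K]
    rw [hsymm x y]
    by_cases h : x = y
    · simp [h]
    · simp [h, Ne.symm h]) (by
    intro x y
    simp only [K]
    by_cases h : x = y
    · subst h
      have := hlazy x
      rw [if_pos rfl]; linarith
    · rw [if_neg h, sub_zero]
      exact mul_nonneg (by norm_num) (hnonneg x y)) (by
    intro x
    simp only [K]
    rw [Finset.sum_sub_distrib, ← Finset.mul_sum, hrow x, Finset.sum_ite_eq]
    simp
    norm_num) u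
  have hKu : ∀ x, ∑ y, K x y * u y = 2 * (∑ y, P x y * u y) - u x := by
    intro x
    simp only [K]
    have : ∀ y, (2 * P x y - if x = y then 1 else 0) * u y =
        2 * (P x y * u y) - if x = y then u y else 0 := by
      intro y
      by_cases h : x = y
      · simp [h]; ring
      · simp [h]; ring
    rw [Finset.sum_congr rfl fun y _ => this y, Finset.sum_sub_distrib, ← Finset.mul_sum,
      Finset.sum_ite_eq]
    simp
  have h1 : ∑ x, (2 * (∑ y, P x y * u y) - u x) ^ 2 ≤ ∑ x, u x ^ 2 := by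
    refine le_trans (le_of_eq ?_) hK
    exact Finset.sum_congr rfl fun x _ => by rw [hKu x]
  have h2 : ∑ x, (2 * (∑ y, P x y * u y) - u x) ^ 2 =
      4 * ∑ x, (∑ y, P x y * u y) ^ 2 - 4 * ∑ x, u x * ∑ y, P x y * u y + ∑ x, u x ^ 2 := by
    rw [Finset.mul_sum, Finset.mul_sum, ← Finset.sum_sub_distrib, ← Finset.sum_add_distrib]
    exact Finset.sum_congr rfl fun x _ => by ring
  rw [h2] at h1
  linarith

theorem mixing_abstract {Ω : Type*} [Fintype Ω] [Nonempty Ω] (P : Matrix Ω Ω ℝ)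
    (hsymm : ∀ x y, P x y = P y x) (hnonneg : ∀ x y, 0 ≤ P x y) (hrow : ∀ x, ∑ y, P x y = 1)
    (hlazy : ∀ x, 1 / 2 ≤ P x x) (γ : ℝ) (hγ0 : 0 ≤ γ) (hγ1 : γ ≤ 1)
    (hgap : ∀ f : Ω → ℝ, ∑ x, f x = 0 →
      γ * ∑ x, f x ^ 2 ≤ (1 / 2) * ∑ x, ∑ y, P x y * (f x - f y) ^ 2) (t : ℕ) (x : Ω) :
    ∑ y, |(P ^ t) x y - 1 / (Fintype.card Ω : ℝ)| ≤
      Real.sqrt (Fintype.card Ω) * Real.sqrt ((1 - γ) ^ t) := by
  set N : ℝ := (Fintype.card Ω : ℝ) with hN
  have hNpos : 0 < N := by rw [hN]; exact_mod_cast Fintype.card_pos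
  have hN1 : 1 ≤ N := by rw [hN]; exact_mod_cast Nat.one_le_iff_ne_zero.2 Fintype.card_ne_zero
  have hcol : ∀ y, ∑ x, P x y = 1 := by
    intro y
    rw [← hrow y]
    exact Finset.sum_congr rfl fun x _ => hsymm x y
  have hrowt : ∀ t : ℕ, ∑ y, (P ^ t) x y = 1 := by
    intro t
    induction t with
    | zero => simp [Matrix.one_apply]
    | succ t ih =>
      simp only [pow_succ, Matrix.mul_apply]
      rw [Finset.sum_comm]
      rw [← ih]
      refine Finset.sum_congr rfl fun z _ => ?_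
      rw [← Finset.mul_sum, hrow z, mul_one]
  have hmean : ∀ t : ℕ, ∑ y, ((P ^ t) x y - 1 / N) = 0 := by
    intro t
    rw [Finset.sum_sub_distrib, hrowt t, Finset.sum_const, Finset.card_univ, nsmul_eq_mul,
      ← hN, mul_one_div, div_self hNpos.ne', sub_self]
  have hdecay : ∀ t : ℕ, ∑ y, ((P ^ t) x y - 1 / N) ^ 2 ≤ (1 - γ) ^ t := by
    intro t
    induction t with
    | zero =>
      rw [pow_zero, pow_zero]
      have e1 : ∀ y, ((1 : Matrix Ω Ω ℝ) x y - 1 / N) ^ 2 =
          (if x = y then 1 - 2 / N else 0) + 1 / N ^ 2 := by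
        intro y
        rw [Matrix.one_apply]
        by_cases h : x = y
        · rw [if_pos h, if_pos h]; field_simp; ring
        · rw [if_neg h, if_neg h]; field_simp; ring
      rw [Finset.sum_congr rfl fun y _ => e1 y, Finset.sum_add_distrib, Finset.sum_ite_eq,
        Finset.sum_const, Finset.card_univ, nsmul_eq_mul, ← hN]
      simp only [Finset.mem_univ, if_true]
      have : N * (1 / N ^ 2) = 1 / N := by field_simp
      rw [this]
      have h2 : 0 ≤ 1 / N := by positivity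
      have h3 : 2 / N = 2 * (1 / N) := by ring
      rw [h3]
      linarith
    | succ t ih =>
      have hu := mixAbs_step P hsymm hnonneg hrow hlazy γ (fun y => (P ^ t) x y - 1 / N)
        (hgap _ (hmean t))
      have e1 : ∀ y, (P ^ (t + 1)) x y - 1 / N = ∑ z, P y z * ((P ^ t) x z - 1 / N) := by
        intro y
        rw [pow_succ, Matrix.mul_apply]
        have : ∑ z, P y z * ((P ^ t) x z - 1 / N) =
            ∑ z, (P ^ t) x z * P z y - 1 / N * ∑ z, P y z := by
          rw [Finset.mul_sum, ← Finset.sum_sub_distrib]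
          refine Finset.sum_congr rfl fun z _ => ?_
          rw [hsymm y z]; ring
        rw [this, hrow y, mul_one]
      calc ∑ y, ((P ^ (t + 1)) x y - 1 / N) ^ 2
          = ∑ y, (∑ z, P y z * ((P ^ t) x z - 1 / N)) ^ 2 :=
            Finset.sum_congr rfl fun y _ => by rw [e1 y]
        _ ≤ (1 - γ) * ∑ y, ((P ^ t) x y - 1 / N) ^ 2 := hu
        _ ≤ (1 - γ) * (1 - γ) ^ t := mul_le_mul_of_nonneg_left ih (by linarith)
        _ = (1 - γ) ^ (t + 1) := by rw [pow_succ]; ring
  have hcs : (∑ y, |(P ^ t) x y - 1 / N|) ^ 2 ≤ N * (1 - γ) ^ t := by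
    have h := sq_sum_le_card_mul_sum_sq (s := Finset.univ) (f := fun y => |(P ^ t) x y - 1 / N|)
    refine h.trans ?_
    rw [Finset.card_univ, ← hN]
    refine mul_le_mul_of_nonneg_left ?_ hNpos.le
    refine le_trans (le_of_eq ?_) (hdecay t)
    exact Finset.sum_congr rfl fun y _ => sq_abs _
  rw [← Real.sqrt_mul hNpos.le]
  exact Real.le_sqrt_of_sq_le hcs

end Vale.Agent.P335
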