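import Vale.Agent.P335.Main
import Vale.Agent.P335.Chain
import Vale.Agent.P335.MixAbs

/-! # Assembly -/

open scoped Classical

namespace Vale.Agent.P335

theorem deg_eq_degree {n : ℕ} (G : SimpleGraph (Fin n)) (v : Fin n) : deg G v = G.degree v := by
  unfold deg
  rw [← SimpleGraph.card_neighborFinset_eq_degree, SimpleGraph.neighborFinset_eq_filter]

theorem sum_ext {α : Type*} [Fintype α] (p : α → Prop) [inst : ∀ x, Decidable (p x)]
    [Fintype {x // p x}] (g : {x // p x} → ℝ) :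
    (∑ x, if h : p x then g ⟨x, h⟩ else 0) = ∑ x : {x // p x}, g x := by
  have h1 : (∑ x, if h : p x then g ⟨x, h⟩ else 0) =
      ∑ x ∈ Finset.univ.filter p, if h : p x then g ⟨x, h⟩ else 0 := by
    rw [Finset.sum_filter]
    refine Finset.sum_congr rfl (fun x _ => ?_)
    by_cases h : p x
    · rw [dif_pos h, if_pos h]
    · rw [dif_neg h, if_neg h]
  rw [h1, Finset.sum_subtype (p := p) (Finset.univ.filter p) (fun x => by simp)]
  refine Finset.sum_congr rfl (fun x _ => ?_)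
  rw [dif_pos x.2]

theorem ip_ext0 {n : ℕ} (d : Fin n → ℕ) (f : Omega n d → ℝ) :
    ip (ext0 d f) (ext0 d f) = ∑ x, f x ^ 2 := by
  refine Eq.trans ?_ (sum_ext (fun G : SimpleGraph (Fin n) => ∀ v, G.degree v = d v)
    (fun x => f x ^ 2))
  unfold ip ext0
  refine Finset.sum_congr rfl (fun G _ => ?_)
  by_cases h : ∀ v, G.degree v = d v
  · rw [dif_pos h, dif_pos h]; ring
  · rw [dif_neg h, dif_neg h]; ring

theorem ext0_sum {n : ℕ} (d : Fin n → ℕ) (f : Omega n d → ℝ) (hf : ∑ x, f x = 0)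
    (G : SimpleGraph (Fin n)) :
    ∑ H ∈ Finset.univ.filter (fun H => ∀ v, deg G v = deg H v), ext0 d f H = 0 := by
  by_cases hG : ∀ v, G.degree v = d v
  · have h1 : ∑ H ∈ Finset.univ.filter (fun H => ∀ v, deg G v = deg H v), ext0 d f H =
        ∑ H : SimpleGraph (Fin n), ext0 d f H := by
      rw [Finset.sum_filter]
      refine Finset.sum_congr rfl (fun H _ => ?_)
      by_cases hH : ∀ v, deg G v = deg H v
      · rw [if_pos hH]
      · rw [if_neg hH]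
        unfold ext0
        rw [dif_neg]
        intro h
        exact hH (fun v => by rw [deg_eq_degree, deg_eq_degree, hG v, h v])
    rw [h1]
    have h2 := sum_ext (fun G : SimpleGraph (Fin n) => ∀ v, G.degree v = d v) f
    unfold ext0
    exact h2.trans hf
  · refine Finset.sum_eq_zero (fun H hH => ?_)
    rw [Finset.mem_filter] at hH
    unfold ext0
    rw [dif_neg]
    intro h
    apply hG
    intro v
    have e1 := deg_eq_degree G v
    have e2 := deg_eq_degree H v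
    have e3 := hH.2 v
    have e4 := h v
    omega

theorem ext0_sum' {n : ℕ} (d : Fin n → ℕ) (f : Omega n d → ℝ) (hf : ∑ x, f x = 0)
    (G : SimpleGraph (Fin n)) (q : SimpleGraph (Fin n) → Prop) {_ : DecidablePred q}
    (hq : ∀ H, q H ↔ ∀ v, deg G v = deg H v) :
    ∑ H ∈ Finset.univ.filter q, ext0 d f H = 0 := by
  rw [← ext0_sum d f hf G]
  refine Finset.sum_congr ?_ (fun _ _ => rfl)
  ext H
  rw [Finset.mem_filter, Finset.mem_filter, hq]

theorem dirichlet_lower' {n : ℕ} (hn : 4 ≤ n) (d : Fin n → ℕ) (f : Omega n d → ℝ) :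
    (∑ a, ∑ b, ∑ c, ∑ e, if dist4 a b c e then
        ip (Anti a b c e (ext0 d f)) (Anti a b c e (ext0 d f)) else 0) ≤
      144 * (n.choose 4 : ℝ) * ((1 / 2) * ∑ G, ∑ H, P d G H * (f G - f H) ^ 2) := by
  refine le_trans (le_of_eq ?_) (dirichlet_lower hn d f)
  refine Finset.sum_congr rfl (fun a _ => Finset.sum_congr rfl (fun b _ =>
    Finset.sum_congr rfl (fun c _ => Finset.sum_congr rfl (fun e _ => ?_))))
  by_cases h : dist4 a b c e
  · have h' : a ≠ b ∧ a ≠ c ∧ a ≠ e ∧ b ≠ c ∧ b ≠ e ∧ c ≠ e := h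
    rw [if_pos h, if_pos h']
  · have h' : ¬ (a ≠ b ∧ a ≠ c ∧ a ≠ e ∧ b ≠ c ∧ b ≠ e ∧ c ≠ e) := h
    rw [if_neg h, if_neg h']

theorem gap_P {n : ℕ} (hn : 4 ≤ n) (d : Fin n → ℕ) (f : Omega n d → ℝ) (hf : ∑ x, f x = 0) :
    (1 / (18 * (n.choose 4 : ℝ))) * ∑ x, f x ^ 2 ≤
      (1 / 2) * ∑ G, ∑ H, P d G H * (f G - f H) ^ 2 := by
  have h1 := sw_gap_inst _ (ext0 d f) (fun G => ext0_sum' d f hf G _ (fun H => Iff.rfl))
  have h2 := dirichlet_lower' hn d f
  rw [ip_ext0] at h1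
  have hc : 0 < (n.choose 4 : ℝ) := by exact_mod_cast Nat.choose_pos hn
  have h3 := h1.trans h2
  rw [div_mul_eq_mul_div, one_mul, div_le_iff₀ (by positivity)]
  linarith

theorem card_Omega_le {n : ℕ} (d : Fin n → ℕ) : Fintype.card (Omega n d) ≤ 2 ^ (n ^ 2) := by
  have h1 : Function.Injective (fun x : Omega n d => x.1.Adj) := by
    intro x y hxy
    apply Subtype.ext
    exact SimpleGraph.ext hxy
  have h2 := Fintype.card_le_of_injective _ h1
  refine h2.trans (le_of_eq ?_)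
  rw [Fintype.card_fun, Fintype.card_fun, Fintype.card_prop, Fintype.card_fin, ← pow_mul]
  congr 1
  ring

theorem exp_bound (k : ℕ) (hk : 16 ≤ k) : 4 * (2 : ℝ) ^ k ≤ Real.exp k := by
  have h1 : (27 / 10 : ℝ) ≤ Real.exp 1 := by
    have := Real.exp_one_gt_d9
    linarith
  have h2 : Real.exp k = Real.exp 1 ^ k := by
    rw [← Real.exp_nat_mul, mul_one]
  rw [h2]
  have h3 : (27 / 10 : ℝ) ^ k ≤ Real.exp 1 ^ k := pow_le_pow_left₀ (by norm_num) h1 k
  refine le_trans ?_ h3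
  have h4 : (27 / 10 : ℝ) ^ k = (27 / 20 : ℝ) ^ k * 2 ^ k := by
    rw [← mul_pow]; norm_num
  rw [h4]
  refine mul_le_mul_of_nonneg_right ?_ (by positivity)
  have h5 : (27 / 20 : ℝ) ^ 16 ≤ (27 / 20 : ℝ) ^ k := pow_le_pow_right₀ (by norm_num) hk
  refine le_trans ?_ h5
  norm_num

theorem mixing_abstract_dec {Ω : Type*} [Fintype Ω] [hdec : DecidableEq Ω] [Nonempty Ω]
    (P : Matrix Ω Ω ℝ)
    (hsymm : ∀ x y, P x y = P y x) (hnonneg : ∀ x y, 0 ≤ P x y) (hrow : ∀ x, ∑ y, P x y = 1)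
    (hlazy : ∀ x, 1 / 2 ≤ P x x) (γ : ℝ) (hγ0 : 0 ≤ γ) (hγ1 : γ ≤ 1)
    (hgap : ∀ f : Ω → ℝ, ∑ x, f x = 0 →
      γ * ∑ x, f x ^ 2 ≤ (1 / 2) * ∑ x, ∑ y, P x y * (f x - f y) ^ 2) (t : ℕ) (x : Ω) :
    ∑ y, |(P ^ t) x y - 1 / (Fintype.card Ω : ℝ)| ≤
      Real.sqrt (Fintype.card Ω) * Real.sqrt ((1 - γ) ^ t) := by
  have e : hdec = (fun a b => Classical.propDecidable (a = b)) := Subsingleton.elim _ _
  subst e
  exact mixing_abstract P hsymm hnonneg hrow hlazy γ hγ0 hγ1 hgap t x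

theorem mixed_at {n : ℕ} (hn : 4 ≤ n) (d : Fin n → ℕ) (hd : Nonempty (Omega n d)) (t : ℕ)
    (ht : n ^ 6 ≤ t) : t ∈ mixedTimes d := by
  intro G
  have hc : 0 < (n.choose 4 : ℝ) := by exact_mod_cast Nat.choose_pos hn
  have hc1 : (1 : ℝ) ≤ (n.choose 4 : ℝ) := by exact_mod_cast Nat.choose_pos hn
  set γ : ℝ := 1 / (18 * (n.choose 4 : ℝ)) with hγ
  have hγ0 : 0 ≤ γ := by positivity
  have hγ1 : γ ≤ 1 := by
    rw [hγ, div_le_one (by positivity)]; linarith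
  have hmix : ∑ y, |(P d ^ t) G y - 1 / (Fintype.card (Omega n d) : ℝ)| ≤
      Real.sqrt (Fintype.card (Omega n d)) * Real.sqrt ((1 - γ) ^ t) :=
    mixing_abstract_dec (P d) (P_symm d) (P_nonneg d) (P_row hn d) (P_lazy d) γ hγ0 hγ1
      (fun f hf => gap_P hn d f hf) t G
  unfold tv unif
  have hN : (Fintype.card (Omega n d) : ℝ) ≤ 2 ^ (n ^ 2) := by
    exact_mod_cast card_Omega_le d
  have hch : (n.choose 4 : ℝ) ≤ (n : ℝ) ^ 4 / 24 := by
    have := Nat.choose_le_pow_div 4 n (α := ℝ)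
    simpa [Nat.factorial] using this
  have hn0 : (0 : ℝ) < n := by exact_mod_cast (by omega : 0 < n)
  have hγt : ((n ^ 2 : ℕ) : ℝ) ≤ γ * t := by
    have h1 : (n : ℝ) ^ 6 ≤ t := by exact_mod_cast ht
    have h2 : γ * (n : ℝ) ^ 6 ≤ γ * t := mul_le_mul_of_nonneg_left h1 hγ0
    refine le_trans ?_ h2
    rw [hγ, div_mul_eq_mul_div, one_mul, le_div_iff₀ (by positivity)]
    push_cast
    have h3 : (n : ℝ) ^ 2 * (18 * (n.choose 4 : ℝ)) ≤ (n : ℝ) ^ 2 * (18 * ((n : ℝ) ^ 4 / 24)) := by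
      apply mul_le_mul_of_nonneg_left _ (by positivity)
      linarith
    refine h3.trans ?_
    have h4 : (n : ℝ) ^ 2 * (18 * ((n : ℝ) ^ 4 / 24)) = (3 / 4) * (n : ℝ) ^ 6 := by ring
    rw [h4]
    have : (0 : ℝ) ≤ (n : ℝ) ^ 6 := by positivity
    linarith
  have hpow : (1 - γ) ^ t ≤ Real.exp (-((n ^ 2 : ℕ) : ℝ)) := by
    have h1 : 1 - γ ≤ Real.exp (-γ) := by
      have := Real.add_one_le_exp (-γ)
      linarith
    calc (1 - γ) ^ t ≤ (Real.exp (-γ)) ^ t := pow_le_pow_left₀ (by linarith) h1 t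
      _ = Real.exp (-(γ * t)) := by rw [← Real.exp_nat_mul]; congr 1; ring
      _ ≤ Real.exp (-((n ^ 2 : ℕ) : ℝ)) := Real.exp_le_exp.2 (by linarith)
  have hk : 16 ≤ n ^ 2 := by nlinarith
  have hexp := exp_bound (n ^ 2) hk
  have hprod : (Fintype.card (Omega n d) : ℝ) * (1 - γ) ^ t ≤ 1 / 4 := by
    calc (Fintype.card (Omega n d) : ℝ) * (1 - γ) ^ t
        ≤ 2 ^ (n ^ 2) * Real.exp (-((n ^ 2 : ℕ) : ℝ)) :=
          mul_le_mul hN hpow (pow_nonneg (by linarith) _) (by positivity)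
      _ ≤ 1 / 4 := by
          rw [Real.exp_neg, ← div_eq_mul_inv, div_le_iff₀ (Real.exp_pos _)]
          linarith
  have hsq : Real.sqrt (Fintype.card (Omega n d)) * Real.sqrt ((1 - γ) ^ t) ≤ 1 / 2 := by
    rw [← Real.sqrt_mul (by positivity)]
    rw [Real.sqrt_le_left (by norm_num)]
    norm_num
    linarith
  have h := hmix.trans hsq
  change (1 / 2) * ∑ y, |(P d ^ t) G y - 1 / (Fintype.card (Omega n d) : ℝ)| ≤ 1 / 4
  linarith

end Vale.Agent.P335
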