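import Vale.Agent.P335.AvgBasic

/-! # Linear algebra: from `T² ≥ cT` to a spectral gap, and `T² ≥ T` from eigenvalues -/

open scoped Classical

namespace Vale.Agent.P335

variable {X : Type*} [Fintype X]

private theorem linAlg_inner (u v : EuclideanSpace ℝ X) :
    inner ℝ u v = ip (WithLp.linearEquiv 2 ℝ (X → ℝ) u) (WithLp.linearEquiv 2 ℝ (X → ℝ) v) := by
  unfold ip
  rw [PiLp.inner_apply]
  refine Finset.sum_congr rfl fun x _ => ?_
  simp [mul_comm]

/-- spectral theorem for the counting inner product -/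
private theorem linAlg_spectral (T : (X → ℝ) →ₗ[ℝ] (X → ℝ))
    (hs : ∀ f g, ip (T f) g = ip f (T g)) :
    ∃ (n : ℕ) (v : Fin n → X → ℝ) (l : Fin n → ℝ), (∀ i, T (v i) = l i • v i) ∧
      (∀ i, v i ≠ 0) ∧ (∀ i, ip (v i) (v i) = 1) ∧
      ∀ f g, ip f g = ∑ i, ip f (v i) * ip g (v i) := by
  let e := WithLp.linearEquiv 2 ℝ (X → ℝ)
  let T' : EuclideanSpace ℝ X →ₗ[ℝ] EuclideanSpace ℝ X :=
    e.symm.toLinearMap ∘ₗ T ∘ₗ e.toLinearMap
  have hT'e : ∀ u, e (T' u) = T (e u) := by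
    intro u
    simp [T']
  have hT' : T'.IsSymmetric := by
    intro u v
    rw [linAlg_inner, linAlg_inner]
    change ip (e (T' u)) (e v) = ip (e u) (e (T' v))
    rw [hT'e, hT'e]
    exact hs _ _
  let b := hT'.eigenvectorBasis (rfl : Module.finrank ℝ (EuclideanSpace ℝ X) = _)
  refine ⟨_, fun i => e (b i), fun i => hT'.eigenvalues rfl i, ?_, ?_, ?_, ?_⟩
  · intro i
    rw [← hT'e, ← map_smul]
    congr 1
    exact hT'.apply_eigenvectorBasis rfl i
  · intro i h
    have h1 : b i = 0 := by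
      apply e.injective
      rw [map_zero]
      exact h
    have h2 := b.orthonormal.ne_zero i
    exact h2 h1
  · intro i
    have h1 := linAlg_inner (b i) (b i)
    rw [real_inner_self_eq_norm_sq, b.orthonormal.1 i] at h1
    change ip (e (b i)) (e (b i)) = 1
    rw [← h1]; norm_num
  · intro f g
    have h1 := b.sum_inner_mul_inner (e.symm f) (e.symm g)
    rw [linAlg_inner (e.symm f) (e.symm g)] at h1
    change _ = ip (e (e.symm f)) (e (e.symm g)) at h1
    rw [LinearEquiv.apply_symm_apply, LinearEquiv.apply_symm_apply] at h1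
    rw [← h1]
    refine Finset.sum_congr rfl fun i _ => ?_
    rw [real_inner_comm (e.symm g) (b i), linAlg_inner, linAlg_inner]
    change ip (e (e.symm f)) (e (b i)) * ip (e (e.symm g)) (e (b i)) = _
    rw [LinearEquiv.apply_symm_apply, LinearEquiv.apply_symm_apply]

private theorem ip_comm' (f g : X → ℝ) : ip f g = ip g f := by
  unfold ip
  exact Finset.sum_congr rfl fun x _ => mul_comm _ _

private theorem ip_smul' (c : ℝ) (f g : X → ℝ) : ip f (c • g) = c * ip f g := by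
  unfold ip
  rw [Finset.mul_sum]
  refine Finset.sum_congr rfl fun x _ => ?_
  simp only [Pi.smul_apply, smul_eq_mul]; ring

/-- `T² ≥ cT`, `T ≥ 0` symmetric, `f ⟂ ker T` imply `T ≥ c` on `f`. -/
theorem poincare_of_sq (T : (X → ℝ) →ₗ[ℝ] (X → ℝ)) (hs : ∀ f g, ip (T f) g = ip f (T g))
    (hpos : ∀ f, 0 ≤ ip f (T f)) (c : ℝ) (hc : 0 < c)
    (hsq : ∀ f, c * ip f (T f) ≤ ip (T f) (T f))
    (f : X → ℝ) (hf : ∀ g, T g = 0 → ip f g = 0) : c * ip f f ≤ ip f (T f) := by
  obtain ⟨n, v, l, hv, hv0, hv1, hsum⟩ := linAlg_spectral T hs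
  have h1 : ∀ i, ip (T f) (v i) = l i * ip f (v i) := by
    intro i
    rw [hs, hv i, ip_smul']
  rw [hsum f f, hsum f (T f), Finset.mul_sum]
  refine Finset.sum_le_sum fun i _ => ?_
  rw [h1 i]
  have hl0 : 0 ≤ l i := by
    have := hpos (v i)
    rw [hv i, ip_smul', hv1 i, mul_one] at this
    exact this
  have hl1 : c * l i ≤ l i * l i := by
    have := hsq (v i)
    rw [hv i, ip_smul', hv1 i, mul_one, ip_smul', ip_comm', ip_smul', hv1 i, mul_one] at this
    exact this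
  rcases hl0.eq_or_lt with h0 | h0
  · have h2 : T (v i) = 0 := by rw [hv i, ← h0, zero_smul]
    rw [hf _ h2]
    simp
  · have h2 : c ≤ l i := le_of_mul_le_mul_right hl1 h0
    nlinarith [mul_nonneg (sub_nonneg.2 h2) (mul_self_nonneg (ip f (v i)))]

/-- if every eigenvalue satisfies `μ ≤ μ²` then `T ≤ T²` -/
theorem sq_ge_of_eig (T : (X → ℝ) →ₗ[ℝ] (X → ℝ)) (hs : ∀ f g, ip (T f) g = ip f (T g))
    (h : ∀ (μ : ℝ) (f : X → ℝ), f ≠ 0 → T f = μ • f → μ ≤ μ ^ 2) (f : X → ℝ) :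
    ip f (T f) ≤ ip (T f) (T f) := by
  obtain ⟨n, v, l, hv, hv0, hv1, hsum⟩ := linAlg_spectral T hs
  have h1 : ∀ i, ip (T f) (v i) = l i * ip f (v i) := by
    intro i
    rw [hs, hv i, ip_smul']
  rw [hsum f (T f), hsum (T f) (T f)]
  refine Finset.sum_le_sum fun i _ => ?_
  rw [h1 i]
  have h2 := h (l i) (v i) (hv0 i) (hv i)
  nlinarith [mul_nonneg (sub_nonneg.2 h2) (mul_self_nonneg (ip f (v i)))]

end Vale.Agent.P335
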