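import Mathlib

/-! # Bessel type bounds on the slice -/

open scoped Classical

namespace Vale.Agent.P335

namespace SliceB

variable {ι : Type*}

/-- indicator -/
noncomputable def ind (c : ι) (x : Finset ι) : ℝ := if c ∈ x then 1 else 0

theorem ind_mul_self (c : ι) (x : Finset ι) : ind c x * ind c x = ind c x := by
  unfold ind; split_ifs <;> simp

theorem card_filter_sub (T : Finset ι) (α : ℕ) (A : Finset ι) (hA : A ⊆ T) (h : A.card ≤ α) :
    ((T.powersetCard α).filter (fun x => A ⊆ x)).card =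
      (T.card - A.card).choose (α - A.card) := by
  rw [← Finset.card_sdiff_of_subset hA, ← Finset.card_powersetCard]
  refine Finset.card_nbij' (fun x => x \ A) (fun y => y ∪ A) ?_ ?_ ?_ ?_
  · intro x hx
    simp only [Finset.coe_filter, Finset.mem_powersetCard, Set.mem_ofPred_eq] at hx
    simp only [Finset.mem_coe, Finset.mem_powersetCard]
    refine ⟨Finset.sdiff_subset_sdiff hx.1.1 (Finset.Subset.refl _), ?_⟩
    rw [Finset.card_sdiff_of_subset hx.2, hx.1.2]
  · intro y hy
    simp only [Finset.mem_coe, Finset.mem_powersetCard] at hy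
    simp only [Finset.coe_filter, Finset.mem_powersetCard, Set.mem_ofPred_eq]
    refine ⟨⟨Finset.union_subset (hy.1.trans Finset.sdiff_subset) hA, ?_⟩,
      Finset.subset_union_right⟩
    have hdis : Disjoint y A := by
      rw [Finset.disjoint_left]
      intro a ha haA
      have := hy.1 ha
      rw [Finset.mem_sdiff] at this
      exact this.2 haA
    rw [Finset.card_union_of_disjoint hdis, hy.2]
    omega
  · intro x hx
    simp only [Finset.coe_filter, Finset.mem_powersetCard, Set.mem_ofPred_eq] at hx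
    exact Finset.sdiff_union_of_subset hx.2
  · intro y hy
    simp only [Finset.mem_coe, Finset.mem_powersetCard] at hy
    ext a
    simp only [Finset.mem_sdiff, Finset.mem_union]
    constructor
    · rintro ⟨h1 | h1, h2⟩
      · exact h1
      · exact absurd h1 h2
    · intro h1
      have := hy.1 h1
      rw [Finset.mem_sdiff] at this
      exact ⟨Or.inl h1, this.2⟩

theorem filter_sub_empty (T : Finset ι) (α : ℕ) (A : Finset ι) (h : α < A.card) :
    (T.powersetCard α).filter (fun x => A ⊆ x) = ∅ := by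
  rw [Finset.filter_eq_empty_iff]
  intro x hx hAx
  rw [Finset.mem_powersetCard] at hx
  have := Finset.card_le_card hAx
  omega

/-- the counts -/
noncomputable def ct (t α j : ℕ) : ℝ := if j ≤ α then ((t - j).choose (α - j) : ℕ) else 0

theorem card_filter_sub' (T : Finset ι) (α : ℕ) (A : Finset ι) (hA : A ⊆ T) :
    (((T.powersetCard α).filter (fun x => A ⊆ x)).card : ℝ) = ct T.card α A.card := by
  unfold ct
  split_ifs with h
  · rw [card_filter_sub T α A hA h]
  · rw [filter_sub_empty T α A (by omega)]; simp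

theorem sum_ind (T : Finset ι) (α : ℕ) (c : ι) (hc : c ∈ T) :
    ∑ x ∈ T.powersetCard α, ind c x = ct T.card α 1 := by
  have h := card_filter_sub' T α {c} (by simpa using hc)
  rw [Finset.card_singleton] at h
  rw [← h, Finset.card_filter]
  push_cast
  refine Finset.sum_congr rfl fun x _ => ?_
  unfold ind
  simp

theorem sum_ind2 (T : Finset ι) (α : ℕ) (c d : ι) (hc : c ∈ T) (hd : d ∈ T) (hcd : c ≠ d) :
    ∑ x ∈ T.powersetCard α, ind c x * ind d x = ct T.card α 2 := by
  have h := card_filter_sub' T α {c, d} (by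
    intro a ha; simp only [Finset.mem_insert, Finset.mem_singleton] at ha
    rcases ha with rfl | rfl <;> assumption)
  rw [Finset.card_pair hcd] at h
  rw [← h, Finset.card_filter]
  push_cast
  refine Finset.sum_congr rfl fun x _ => ?_
  unfold ind
  simp only [Finset.insert_subset_iff, Finset.singleton_subset_iff]
  split_ifs <;> simp_all

theorem sum_ind3 (T : Finset ι) (α : ℕ) (c d e : ι) (hc : c ∈ T) (hd : d ∈ T) (he : e ∈ T)
    (hcd : c ≠ d) (hce : c ≠ e) (hde : d ≠ e) :
    ∑ x ∈ T.powersetCard α, ind c x * ind d x * ind e x = ct T.card α 3 := by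
  have h := card_filter_sub' T α {c, d, e} (by
    intro a ha; simp only [Finset.mem_insert, Finset.mem_singleton] at ha
    rcases ha with rfl | rfl | rfl <;> assumption)
  rw [Finset.card_eq_three.2 ⟨c, d, e, hcd, hce, hde, rfl⟩] at h
  rw [← h, Finset.card_filter]
  push_cast
  refine Finset.sum_congr rfl fun x _ => ?_
  unfold ind
  simp only [Finset.insert_subset_iff, Finset.singleton_subset_iff]
  split_ifs <;> simp_all

/-- `n` -/
noncomputable def nn (t α : ℕ) : ℝ := ct t α 1 - ct t α 2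
/-- `m` -/
noncomputable def mm (t α : ℕ) : ℝ := ct t α 2 - ct t α 3

theorem nn_pos (t α : ℕ) (h1 : 1 ≤ α) (h2 : α + 1 ≤ t) : 0 < nn t α := by
  unfold nn ct
  obtain ⟨a, rfl⟩ : ∃ a, α = a + 1 := ⟨α - 1, by omega⟩
  obtain ⟨s, rfl⟩ : ∃ s, t = s + 2 := ⟨t - 2, by omega⟩
  cases a with
  | zero => simp
  | succ b =>
    have e1 : s + 2 - 1 = s + 1 := by omega
    have e2 : b + 1 + 1 - 1 = b + 1 := by omega
    have e3 : s + 2 - 2 = s := by omega
    have e4 : b + 1 + 1 - 2 = b := by omega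
    rw [if_pos (by omega), if_pos (by omega), e1, e2, e3, e4, Nat.choose_succ_succ]
    have : 0 < s.choose (b+1) := Nat.choose_pos (by omega)
    push_cast
    have : (0 : ℝ) < s.choose (b+1) := by exact_mod_cast this
    linarith

theorem mm_nonneg (t α : ℕ) (h1 : 1 ≤ α) (h2 : α + 1 ≤ t) : 0 ≤ mm t α := by
  unfold mm ct
  rcases Nat.lt_or_ge α 3 with h | h
  · rw [if_neg (by omega : ¬ 3 ≤ α)]
    split_ifs <;> simp
  · obtain ⟨a, rfl⟩ : ∃ a, α = a + 3 := ⟨α - 3, by omega⟩
    obtain ⟨s, rfl⟩ : ∃ s, t = s + 3 := ⟨t - 3, by omega⟩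
    have e1 : s + 3 - 2 = s + 1 := by omega
    have e2 : a + 3 - 2 = a + 1 := by omega
    have e3 : s + 3 - 3 = s := by omega
    have e4 : a + 3 - 3 = a := by omega
    rw [if_pos (by omega), if_pos (by omega), e1, e2, e3, e4, Nat.choose_succ_succ]
    push_cast
    have : (0 : ℝ) ≤ s.choose (a+1) := by positivity
    linarith

theorem mm_le_nn (t α : ℕ) (h1 : 1 ≤ α) (h2 : α + 1 ≤ t) : mm t α ≤ nn t α := by
  unfold mm nn ct
  rcases Nat.lt_or_ge α 3 with h | h
  · rw [if_neg (by omega : ¬ 3 ≤ α)]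
    have : α = 1 ∨ α = 2 := by omega
    rcases this with rfl | rfl
    · simp
    · rw [if_pos (by omega), if_pos (by omega)]
      have e0 : 2 - 1 = 1 := rfl
      have e1 : 2 - 2 = 0 := rfl
      rw [e0, e1, Nat.choose_zero_right, Nat.choose_one_right, Nat.cast_sub (by omega)]
      have : (3 : ℝ) ≤ t := by exact_mod_cast h2
      push_cast
      linarith
  · obtain ⟨a, rfl⟩ : ∃ a, α = a + 3 := ⟨α - 3, by omega⟩
    obtain ⟨s, rfl⟩ : ∃ s, t = s + 3 := ⟨t - 3, by omega⟩
    have e1 : s + 3 - 2 = s + 1 := by omega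
    have e2 : a + 3 - 2 = a + 1 := by omega
    have e3 : s + 3 - 3 = s := by omega
    have e4 : a + 3 - 3 = a := by omega
    have e5 : s + 3 - 1 = s + 1 + 1 := by omega
    have e6 : a + 3 - 1 = a + 1 + 1 := by omega
    rw [if_pos (by omega), if_pos (by omega), if_pos (by omega), e1, e2, e3, e4, e5, e6,
      Nat.choose_succ_succ (s+1) (a+1), Nat.choose_succ_succ s a, Nat.choose_succ_succ s (a+1)]
    push_cast
    have : (0 : ℝ) ≤ s.choose (a+1+1) := by positivity
    linarith

/-- `P d e` -/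
theorem sum_ind2' (T : Finset ι) (α : ℕ) (c d : ι) (hc : c ∈ T) (hd : d ∈ T) :
    ∑ x ∈ T.powersetCard α, ind c x * ind d x =
      ct T.card α 2 + if c = d then nn T.card α else 0 := by
  split_ifs with h
  · subst h
    simp only [ind_mul_self]
    rw [sum_ind T α c hc]; unfold nn; ring
  · rw [sum_ind2 T α c d hc hd h]; ring

theorem sum_ind3' (T : Finset ι) (α : ℕ) (c d e : ι) (hc : c ∈ T) (hd : d ∈ T) (he : e ∈ T)
    (hcd : c ≠ d) :
    ∑ x ∈ T.powersetCard α, ind c x * ind d x * ind e x =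
      ct T.card α 3 + (if c = e then mm T.card α else 0) + (if d = e then mm T.card α else 0) := by
  by_cases h1 : c = e
  · subst h1
    have : ∀ x, ind c x * ind d x * ind c x = ind c x * ind d x := by
      intro x; rw [mul_right_comm, ind_mul_self]
    simp only [this]
    rw [sum_ind2 T α c d hc hd hcd, if_neg (Ne.symm hcd)]
    simp only [if_true]
    unfold mm; ring
  · by_cases h2 : d = e
    · subst h2
      have : ∀ x, ind c x * ind d x * ind d x = ind c x * ind d x := by
        intro x; rw [mul_assoc, ind_mul_self]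
      simp only [this]
      rw [sum_ind2 T α c d hc hd hcd, if_neg hcd]
      simp only [if_true]
      unfold mm; ring
    · rw [sum_ind3 T α c d e hc hd he hcd h1 h2, if_neg h1, if_neg h2]; ring

/-- linear functional -/
noncomputable def lin (T : Finset ι) (a : ι → ℝ) (x : Finset ι) : ℝ := ∑ e ∈ T, a e * ind e x

/-- `G_c` -/
noncomputable def G1 (T : Finset ι) (α : ℕ) (g : Finset ι → ℝ) (c : ι) : ℝ :=
  ∑ x ∈ T.powersetCard α, ind c x * g x

/-- `G_cd` -/
noncomputable def G2 (T : Finset ι) (α : ℕ) (g : Finset ι → ℝ) (c d : ι) : ℝ :=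
  ∑ x ∈ T.powersetCard α, ind c x * ind d x * g x

theorem G2_symm (T : Finset ι) (α : ℕ) (g : Finset ι → ℝ) (c d : ι) :
    G2 T α g c d = G2 T α g d c := by
  unfold G2
  refine Finset.sum_congr rfl fun x _ => ?_
  ring

theorem G2_self (T : Finset ι) (α : ℕ) (g : Finset ι → ℝ) (c : ι) :
    G2 T α g c c = G1 T α g c := by
  unfold G2 G1
  simp only [ind_mul_self]

theorem sum_ind_card (T : Finset ι) (α : ℕ) (x : Finset ι) (hx : x ∈ T.powersetCard α) :
    ∑ c ∈ T, ind c x = α := by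
  rw [Finset.mem_powersetCard] at hx
  unfold ind
  rw [← Finset.sum_filter, Finset.filter_mem_eq_inter, Finset.inter_eq_right.2 hx.1]
  simp [hx.2]

theorem sum_G1 (T : Finset ι) (α : ℕ) (g : Finset ι → ℝ) :
    ∑ c ∈ T, G1 T α g c = α * ∑ x ∈ T.powersetCard α, g x := by
  unfold G1
  rw [Finset.sum_comm, Finset.mul_sum]
  refine Finset.sum_congr rfl fun x hx => ?_
  rw [← Finset.sum_mul, sum_ind_card T α x hx]

theorem sum_G2 (T : Finset ι) (α : ℕ) (g : Finset ι → ℝ) (c : ι) :
    ∑ d ∈ T, G2 T α g c d = α * G1 T α g c := by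
  unfold G1 G2
  rw [Finset.sum_comm, Finset.mul_sum]
  refine Finset.sum_congr rfl fun x hx => ?_
  rw [← Finset.sum_mul, ← Finset.mul_sum, sum_ind_card T α x hx]
  ring

theorem inner_lin (T : Finset ι) (α : ℕ) (g : Finset ι → ℝ) (a : ι → ℝ) :
    ∑ x ∈ T.powersetCard α, lin T a x * g x = ∑ e ∈ T, a e * G1 T α g e := by
  unfold lin G1
  simp only [Finset.sum_mul, Finset.mul_sum]
  rw [Finset.sum_comm]
  refine Finset.sum_congr rfl fun x _ => Finset.sum_congr rfl fun e _ => ?_
  ring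

theorem G1_lin (T : Finset ι) (α : ℕ) (a : ι → ℝ) (ha : ∑ e ∈ T, a e = 0) (c : ι) (hc : c ∈ T) :
    G1 T α (lin T a) c = nn T.card α * a c := by
  unfold lin G1
  simp only [Finset.mul_sum]
  rw [Finset.sum_comm]
  have : ∀ e ∈ T, ∑ x ∈ T.powersetCard α, ind c x * (a e * ind e x) =
      a e * ct T.card α 2 + if c = e then a e * nn T.card α else 0 := by
    intro e he
    have h := sum_ind2' T α c e hc he
    have h2 : ∑ x ∈ T.powersetCard α, ind c x * (a e * ind e x) =
        a e * ∑ x ∈ T.powersetCard α, ind c x * ind e x := by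
      rw [Finset.mul_sum]
      refine Finset.sum_congr rfl fun x _ => ?_
      ring
    rw [h2, h]
    split_ifs <;> ring
  rw [Finset.sum_congr rfl this, Finset.sum_add_distrib, ← Finset.sum_mul, ha,
    Finset.sum_ite_eq, if_pos hc]
  ring

theorem G2_lin (T : Finset ι) (α : ℕ) (a : ι → ℝ) (ha : ∑ e ∈ T, a e = 0) (c d : ι) (hc : c ∈ T)
    (hd : d ∈ T) (hcd : c ≠ d) :
    G2 T α (lin T a) c d = mm T.card α * (a c + a d) := by
  unfold lin G2
  simp only [Finset.mul_sum]
  rw [Finset.sum_comm]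
  have : ∀ e ∈ T, ∑ x ∈ T.powersetCard α, ind c x * ind d x * (a e * ind e x) =
      a e * ct T.card α 3 + (if c = e then a e * mm T.card α else 0) +
        (if d = e then a e * mm T.card α else 0) := by
    intro e he
    have h := sum_ind3' T α c d e hc hd he hcd
    have h2 : ∑ x ∈ T.powersetCard α, ind c x * ind d x * (a e * ind e x) =
        a e * ∑ x ∈ T.powersetCard α, ind c x * ind d x * ind e x := by
      rw [Finset.mul_sum]
      refine Finset.sum_congr rfl fun x _ => ?_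
      ring
    rw [h2, h]
    split_ifs <;> ring
  rw [Finset.sum_congr rfl this, Finset.sum_add_distrib, Finset.sum_add_distrib,
    ← Finset.sum_mul, ha, Finset.sum_ite_eq, Finset.sum_ite_eq, if_pos hc, if_pos hd]
  ring

theorem lin_sq (T : Finset ι) (α : ℕ) (a : ι → ℝ) (ha : ∑ e ∈ T, a e = 0) :
    ∑ x ∈ T.powersetCard α, lin T a x ^ 2 = nn T.card α * ∑ e ∈ T, a e ^ 2 := by
  have h := inner_lin T α (lin T a) a
  have h2 : ∑ x ∈ T.powersetCard α, lin T a x ^ 2 =
      ∑ x ∈ T.powersetCard α, lin T a x * lin T a x := by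
    refine Finset.sum_congr rfl fun x _ => ?_
    ring
  rw [h2, h, Finset.mul_sum]
  refine Finset.sum_congr rfl fun e he => ?_
  rw [G1_lin T α a ha e he]; ring

/-- per element bound -/
theorem U_bound (T : Finset ι) (α : ℕ) (h : Finset ι → ℝ) (hh : ∀ d ∈ T, G1 T α h d = 0)
    (c : ι) (hn : 0 ≤ nn T.card α) (hc : c ∈ T) :
    4 * ∑ d ∈ T, G2 T α h c d ^ 2 ≤
      nn T.card α * ∑ x ∈ T.powersetCard α, h x ^ 2 := by
  set a : ι → ℝ := fun d => G2 T α h c d with ha
  have ha0 : ∑ d ∈ T, a d = 0 := by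
    rw [ha]
    simp only
    rw [sum_G2, hh c hc, mul_zero]
  set ψ : Finset ι → ℝ := fun x => (2 * ind c x - 1) * lin T a x with hψ
  have hψ2 : ∑ x ∈ T.powersetCard α, ψ x ^ 2 = nn T.card α * ∑ e ∈ T, a e ^ 2 := by
    rw [← lin_sq T α a ha0]
    refine Finset.sum_congr rfl fun x _ => ?_
    rw [hψ]
    simp only
    have : (2 * ind c x - 1) ^ 2 = 1 := by
      unfold ind; split_ifs <;> norm_num
    rw [mul_pow, this, one_mul]
  have hψ1 : ∑ x ∈ T.powersetCard α, ψ x * h x = 2 * ∑ e ∈ T, a e ^ 2 := by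
    have e1 : ∑ x ∈ T.powersetCard α, ψ x * h x =
        ∑ e ∈ T, (2 * a e * G2 T α h c e - a e * G1 T α h e) := by
      unfold G2 G1
      simp only [Finset.mul_sum, hψ, lin, Finset.sum_mul, ← Finset.sum_sub_distrib]
      rw [Finset.sum_comm]
      refine Finset.sum_congr rfl fun e _ => Finset.sum_congr rfl fun x _ => ?_
      ring
    rw [e1, Finset.mul_sum]
    refine Finset.sum_congr rfl fun e he => ?_
    rw [hh e he, ha]; ring
  have hCS := Finset.sum_mul_sq_le_sq_mul_sq (T.powersetCard α) ψ h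
  rw [hψ1, hψ2] at hCS
  have hU : 0 ≤ ∑ e ∈ T, a e ^ 2 := Finset.sum_nonneg fun _ _ => sq_nonneg _
  have hH : 0 ≤ ∑ x ∈ T.powersetCard α, h x ^ 2 := Finset.sum_nonneg fun _ _ => sq_nonneg _
  rcases hU.eq_or_lt with h0 | h0
  · rw [← h0, mul_zero]; positivity
  · have : (∑ e ∈ T, a e ^ 2) * (4 * ∑ e ∈ T, a e ^ 2) ≤
        (∑ e ∈ T, a e ^ 2) * (nn T.card α * ∑ x ∈ T.powersetCard α, h x ^ 2) := by
      nlinarith [hCS]
    exact le_of_mul_le_mul_left this h0

/-- a symmetric zero-diagonal matrix with zero row sums on at most three points vanishes -/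
theorem small_zero (T : Finset ι) (hT : T.card ≤ 3) (H : ι → ι → ℝ) (hs : ∀ c d, H c d = H d c)
    (hd : ∀ c ∈ T, H c c = 0) (hr : ∀ c ∈ T, ∑ d ∈ T, H c d = 0) :
    ∀ c ∈ T, ∀ d ∈ T, H c d = 0 := by
  intro c hc d hdT
  by_cases hcd : c = d
  · subst hcd; exact hd c hc
  have h2 : 2 ≤ T.card := by
    have : ({c, d} : Finset ι) ⊆ T := by
      intro a ha; simp only [Finset.mem_insert, Finset.mem_singleton] at ha
      rcases ha with rfl | rfl <;> assumption
    have := Finset.card_le_card this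
    rwa [Finset.card_pair hcd] at this
  have h3 : T.card = 2 ∨ T.card = 3 := by omega
  have key : ∀ (f : ι → ℝ), ∑ e ∈ T, f e = f c + f d + ∑ e ∈ (T.erase c).erase d, f e := by
    intro f
    rw [← Finset.add_sum_erase T f hc,
      ← Finset.add_sum_erase (T.erase c) f (Finset.mem_erase.2 ⟨Ne.symm hcd, hdT⟩)]
    ring
  have hcard : ((T.erase c).erase d).card = T.card - 2 := by
    rw [Finset.card_erase_of_mem (Finset.mem_erase.2 ⟨Ne.symm hcd, hdT⟩),
      Finset.card_erase_of_mem hc]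
    omega
  rcases h3 with h3 | h3
  · have he : (T.erase c).erase d = ∅ := by
      rw [← Finset.card_eq_zero, hcard, h3]
    have h4 := hr c hc
    rw [key, he, Finset.sum_empty, hd c hc] at h4
    linarith
  · have h5 : ((T.erase c).erase d).card = 1 := by rw [hcard, h3]
    obtain ⟨e, he⟩ := Finset.card_eq_one.1 h5
    have heT : e ∈ T := by
      have : e ∈ (T.erase c).erase d := by rw [he]; simp
      exact Finset.mem_of_mem_erase (Finset.mem_of_mem_erase this)
    have h6 := hr c hc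
    have h7 := hr d hdT
    have h8 := hr e heT
    rw [key, he, Finset.sum_singleton, hd c hc] at h6
    rw [key, he, Finset.sum_singleton, hd d hdT, hs d c] at h7
    rw [key, he, Finset.sum_singleton, hd e heT, hs e c, hs e d] at h8
    linarith

/-- the bound (B) -/
theorem B_bound (T : Finset ι) (α : ℕ) (h1 : 1 ≤ α) (h2 : α + 1 ≤ T.card) (g : Finset ι → ℝ)
    (hg : ∑ x ∈ T.powersetCard α, g x = 0) :
    ∑ c ∈ T, ∑ d ∈ T.erase c, (G1 T α g c + G1 T α g d - 2 * G2 T α g c d) ^ 2 ≤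
      2 * nn T.card α * ((T.card : ℝ) - 2) * ∑ x ∈ T.powersetCard α, g x ^ 2 := by
  set n := nn T.card α with hn
  set m := mm T.card α with hm
  have hn0 : 0 < n := nn_pos _ _ h1 h2
  have hm0 : 0 ≤ m := mm_nonneg _ _ h1 h2
  have hmn : m ≤ n := mm_le_nn _ _ h1 h2
  set a : ι → ℝ := fun c => G1 T α g c with ha
  have ha0 : ∑ c ∈ T, a c = 0 := by
    rw [ha]; simp only; rw [sum_G1, hg, mul_zero]
  set h : Finset ι → ℝ := fun x => g x - lin T a x / n with hh
  have hG1 : ∀ c ∈ T, G1 T α h c = 0 := by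
    intro c hc
    have e1 : G1 T α h c = G1 T α g c - G1 T α (lin T a) c / n := by
      unfold G1
      rw [Finset.sum_div, ← Finset.sum_sub_distrib]
      refine Finset.sum_congr rfl fun x _ => ?_
      rw [hh]; simp only; ring
    rw [e1, G1_lin T α a ha0 c hc, ← hn, mul_div_cancel_left₀ _ hn0.ne', ha]
    simp
  have hG2 : ∀ c ∈ T, ∀ d ∈ T, c ≠ d → G2 T α g c d = G2 T α h c d + m / n * (a c + a d) := by
    intro c hc d hd hcd
    have e1 : G2 T α h c d = G2 T α g c d - G2 T α (lin T a) c d / n := by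
      unfold G2
      rw [Finset.sum_div, ← Finset.sum_sub_distrib]
      refine Finset.sum_congr rfl fun x _ => ?_
      rw [hh]; simp only; ring
    rw [e1, G2_lin T α a ha0 c d hc hd hcd, ← hm]
    ring
  set Γ := ∑ c ∈ T, a c ^ 2 with hΓ
  have hΓ0 : 0 ≤ Γ := Finset.sum_nonneg fun _ _ => sq_nonneg _
  have hnorm : ∑ x ∈ T.powersetCard α, g x ^ 2 =
      Γ / n + ∑ x ∈ T.powersetCard α, h x ^ 2 := by
    have e1 := lin_sq T α a ha0
    have e2 := inner_lin T α g a
    have e3 : ∑ x ∈ T.powersetCard α, h x ^ 2 = ∑ x ∈ T.powersetCard α, g x ^ 2 -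
        2 / n * ∑ x ∈ T.powersetCard α, lin T a x * g x +
        1 / n ^ 2 * ∑ x ∈ T.powersetCard α, lin T a x ^ 2 := by
      rw [Finset.mul_sum, Finset.mul_sum, ← Finset.sum_sub_distrib, ← Finset.sum_add_distrib]
      refine Finset.sum_congr rfl fun x _ => ?_
      rw [hh]; simp only; field_simp; ring
    have e4 : ∑ e ∈ T, a e * G1 T α g e = Γ := by
      rw [hΓ]
      refine Finset.sum_congr rfl fun e _ => ?_
      rw [ha]; simp only; ring
    rw [e3, e1, e2, e4, ← hn, ← hΓ]
    field_simp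
    ring
  set H : ι → ι → ℝ := fun c d => G2 T α h c d with hH
  have hHs : ∀ c d, H c d = H d c := fun c d => G2_symm _ _ _ _ _
  have hHd : ∀ c ∈ T, H c c = 0 := by
    intro c hc; rw [hH]; simp only; rw [G2_self, hG1 c hc]
  have hHr : ∀ c ∈ T, ∑ d ∈ T, H c d = 0 := by
    intro c hc; rw [hH]; simp only; rw [sum_G2, hG1 c hc, mul_zero]
  set W := ∑ x ∈ T.powersetCard α, h x ^ 2 with hW
  have hW0 : 0 ≤ W := Finset.sum_nonneg fun _ _ => sq_nonneg _
  -- bound on U
  have hU : 4 * ∑ c ∈ T, ∑ d ∈ T, H c d ^ 2 ≤ 2 * n * ((T.card : ℝ) - 2) * W := by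
    rcases Nat.lt_or_ge T.card 4 with h4 | h4
    · have hz := small_zero T (by omega) H hHs hHd hHr
      have : ∑ c ∈ T, ∑ d ∈ T, H c d ^ 2 = 0 := by
        refine Finset.sum_eq_zero fun c hc => Finset.sum_eq_zero fun d hd => ?_
        rw [hz c hc d hd]; simp
      rw [this, mul_zero]
      have : (2 : ℝ) ≤ T.card := by
        have : 2 ≤ T.card := by omega
        exact_mod_cast this
      have : 0 ≤ (T.card : ℝ) - 2 := by linarith
      positivity
    · have e1 : ∑ c ∈ T, 4 * ∑ d ∈ T, H c d ^ 2 ≤ ∑ c ∈ T, n * W := by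
        refine Finset.sum_le_sum fun c hc => ?_
        exact U_bound T α h hG1 c hn0.le hc
      rw [← Finset.mul_sum, Finset.sum_const, nsmul_eq_mul] at e1
      refine e1.trans ?_
      have : (4 : ℝ) ≤ T.card := by exact_mod_cast h4
      have e2 : 0 ≤ n * W := by positivity
      nlinarith [e2, this]
  -- the full expansion
  set r := 1 - 2 * (m / n) with hr
  have hr2 : r ^ 2 ≤ 1 := by
    have e1 : 0 ≤ m / n := by positivity
    have e2 : m / n ≤ 1 := by rw [div_le_one hn0]; exact hmn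
    rw [sq_le_one_iff_abs_le_one, abs_le]
    constructor <;> linarith
  have e1 : ∑ c ∈ T, ∑ d ∈ T.erase c, (G1 T α g c + G1 T α g d - 2 * G2 T α g c d) ^ 2 =
      ∑ c ∈ T, ∑ d ∈ T.erase c, (r * (a c + a d) - 2 * H c d) ^ 2 := by
    refine Finset.sum_congr rfl fun c hc => Finset.sum_congr rfl fun d hd => ?_
    rw [Finset.mem_erase] at hd
    rw [hG2 c hc d hd.2 (Ne.symm hd.1), hr, ha, hH]
    simp only
    ring
  have e2 : ∀ c ∈ T, ∑ d ∈ T.erase c, (r * (a c + a d) - 2 * H c d) ^ 2 =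
      ∑ d ∈ T, (r * (a c + a d) - 2 * H c d) ^ 2 - 4 * r ^ 2 * a c ^ 2 := by
    intro c hc
    rw [← Finset.add_sum_erase T (fun d => (r * (a c + a d) - 2 * H c d) ^ 2) hc, hHd c hc]
    ring
  have e3 : ∀ c ∈ T, ∑ d ∈ T, (r * (a c + a d) - 2 * H c d) ^ 2 =
      r ^ 2 * ((T.card : ℝ) * a c ^ 2 + Γ) - 4 * r * ∑ d ∈ T, a d * H c d +
        4 * ∑ d ∈ T, H c d ^ 2 := by
    intro c hc
    have f1 : ∀ d ∈ T, (r * (a c + a d) - 2 * H c d) ^ 2 = r ^ 2 * a c ^ 2 +
        2 * r ^ 2 * a c * a d + r ^ 2 * a d ^ 2 - 4 * r * a c * H c d - 4 * r * (a d * H c d) +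
        4 * H c d ^ 2 := by intro d _; ring
    rw [Finset.sum_congr rfl f1, Finset.sum_add_distrib, Finset.sum_sub_distrib,
      Finset.sum_sub_distrib, Finset.sum_add_distrib, Finset.sum_add_distrib, ← Finset.mul_sum,
      ← Finset.mul_sum, ← Finset.mul_sum, ← Finset.mul_sum, ← Finset.mul_sum, ← Finset.mul_sum,
      ha0, hHr c hc,
      Finset.sum_const, nsmul_eq_mul, ← hΓ]
    ring
  have e4 : ∑ c ∈ T, ∑ d ∈ T, a d * H c d = 0 := by
    rw [Finset.sum_comm]
    refine Finset.sum_eq_zero fun d hd => ?_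
    rw [← Finset.mul_sum]
    have : ∑ c ∈ T, H c d = ∑ c ∈ T, H d c := Finset.sum_congr rfl fun c _ => hHs c d
    rw [this, hHr d hd, mul_zero]
  rw [e1, Finset.sum_congr rfl e2, Finset.sum_sub_distrib, Finset.sum_congr rfl e3,
    Finset.sum_add_distrib, Finset.sum_sub_distrib, ← Finset.mul_sum, ← Finset.mul_sum,
    ← Finset.mul_sum, ← Finset.mul_sum, e4, Finset.sum_add_distrib, ← Finset.mul_sum,
    Finset.sum_const, nsmul_eq_mul, ← hΓ, hnorm]
  have e5 : 2 * n * ((T.card : ℝ) - 2) * (Γ / n + W) =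
      2 * ((T.card : ℝ) - 2) * Γ + 2 * n * ((T.card : ℝ) - 2) * W := by
    field_simp
  rw [e5]
  have e6 : (2 : ℝ) ≤ T.card := by
    have : 2 ≤ T.card := by omega
    exact_mod_cast this
  have e7 : 0 ≤ (1 - r ^ 2) * (2 * ((T.card : ℝ) - 2) * Γ) := by
    refine mul_nonneg (by linarith) (mul_nonneg (mul_nonneg (by norm_num) (by linarith)) hΓ0)
  nlinarith [hU, e7]

end SliceB

end Vale.Agent.P335
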