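import Mathlib

/-! # The Poincaré inequality of the Johnson graph (up-down operators) -/

open scoped Classical

namespace Vale.Agent.P335

namespace SliceJ

variable {ι : Type*}

/-- up-down bijection -/
theorem ud (T : Finset ι) (k : ℕ) (F : Finset ι → ι → ℝ) :
    ∑ x ∈ T.powersetCard (k+1), ∑ c ∈ x, F x c =
      ∑ y ∈ T.powersetCard k, ∑ d ∈ T \ y, F (insert d y) d := by
  rw [Finset.sum_sigma', Finset.sum_sigma']
  refine Finset.sum_bij' (fun p _ => (⟨p.1.erase p.2, p.2⟩ : (_ : Finset ι) × ι))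
    (fun q _ => (⟨insert q.2 q.1, q.2⟩ : (_ : Finset ι) × ι)) ?_ ?_ ?_ ?_ ?_
  · rintro ⟨x, c⟩ h
    simp only [Finset.mem_sigma, Finset.mem_powersetCard, Finset.mem_sdiff] at h ⊢
    obtain ⟨⟨hxT, hx⟩, hc⟩ := h
    refine ⟨⟨(Finset.erase_subset _ _).trans hxT, ?_⟩, hxT hc, Finset.notMem_erase _ _⟩
    rw [Finset.card_erase_of_mem hc, hx]; rfl
  · rintro ⟨y, d⟩ h
    simp only [Finset.mem_sigma, Finset.mem_powersetCard, Finset.mem_sdiff] at h ⊢
    obtain ⟨⟨hyT, hy⟩, hdT, hd⟩ := h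
    refine ⟨⟨Finset.insert_subset hdT hyT, ?_⟩, Finset.mem_insert_self _ _⟩
    rw [Finset.card_insert_of_notMem hd, hy]
  · rintro ⟨x, c⟩ h
    simp only [Finset.mem_sigma, Finset.mem_powersetCard] at h
    simp only [Finset.insert_erase h.2]
  · rintro ⟨y, d⟩ h
    simp only [Finset.mem_sigma, Finset.mem_powersetCard, Finset.mem_sdiff] at h
    simp only [Finset.erase_insert h.2.2]
  · rintro ⟨x, c⟩ h
    simp only [Finset.mem_sigma, Finset.mem_powersetCard] at h
    simp only [Finset.insert_erase h.2]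

/-- down operator -/
noncomputable def dn (T : Finset ι) (g : Finset ι → ℝ) (y : Finset ι) : ℝ :=
  ∑ d ∈ T \ y, g (insert d y)

/-- up operator -/
noncomputable def up (f : Finset ι → ℝ) (x : Finset ι) : ℝ :=
  ∑ c ∈ x, f (x.erase c)

/-- off-diagonal form -/
noncomputable def off (T : Finset ι) (k : ℕ) (f : Finset ι → ℝ) : ℝ :=
  ∑ y ∈ T.powersetCard k, ∑ c ∈ y, ∑ d ∈ T \ y, f y * f (insert d (y.erase c))

theorem sum_dn (T : Finset ι) (k : ℕ) (g : Finset ι → ℝ) :
    ∑ y ∈ T.powersetCard k, dn T g y = (k + 1) * ∑ x ∈ T.powersetCard (k+1), g x := by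
  unfold dn
  rw [← ud T k (fun x _ => g x), Finset.mul_sum]
  refine Finset.sum_congr rfl fun x hx => ?_
  rw [Finset.mem_powersetCard] at hx
  simp [hx.2]

theorem adj (T : Finset ι) (k : ℕ) (f g : Finset ι → ℝ) :
    ∑ y ∈ T.powersetCard k, f y * dn T g y = ∑ x ∈ T.powersetCard (k+1), up f x * g x := by
  have h := ud T k (fun x c => f (x.erase c) * g x)
  calc _ = ∑ y ∈ T.powersetCard k, ∑ d ∈ T \ y, f ((insert d y).erase d) * g (insert d y) := by
        refine Finset.sum_congr rfl fun y _ => ?_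
        unfold dn
        rw [Finset.mul_sum]
        refine Finset.sum_congr rfl fun d hd => ?_
        rw [Finset.mem_sdiff] at hd
        rw [Finset.erase_insert hd.2]
    _ = _ := by
        rw [← h]
        refine Finset.sum_congr rfl fun x _ => ?_
        unfold up
        rw [Finset.sum_mul]

/-- splitting the square of a finite sum -/
theorem sq_split (s : Finset ι) (a : ι → ℝ) :
    (∑ c ∈ s, a c) ^ 2 = ∑ c ∈ s, a c ^ 2 + ∑ c ∈ s, ∑ d ∈ s.erase c, a c * a d := by
  rw [sq, Finset.sum_mul_sum, ← Finset.sum_add_distrib]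
  refine Finset.sum_congr rfl fun c hc => ?_
  rw [← Finset.add_sum_erase s (fun d => a c * a d) hc, sq]

theorem sdiff_insert_erase (T y : Finset ι) (d : ι) : T \ insert d y = (T \ y).erase d := by
  ext e
  simp only [Finset.mem_sdiff, Finset.mem_insert, Finset.mem_erase]
  tauto

theorem dnsq (T : Finset ι) (k : ℕ) (f : Finset ι → ℝ) :
    ∑ w ∈ T.powersetCard k, dn T f w ^ 2 =
      (k + 1) * ∑ x ∈ T.powersetCard (k+1), f x ^ 2 + off T (k+1) f := by
  have h1 := sum_dn T k (fun x => f x ^ 2)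
  have h2 := ud T k (fun x c => ∑ d ∈ T \ x, f x * f (insert d (x.erase c)))
  unfold off
  rw [h2, ← h1, ← Finset.sum_add_distrib]
  refine Finset.sum_congr rfl fun w hw => ?_
  unfold dn
  rw [sq_split]
  congr 1
  refine Finset.sum_congr rfl fun c hc => ?_
  rw [Finset.mem_sdiff] at hc
  rw [sdiff_insert_erase, Finset.erase_insert hc.2]

theorem upsq (T : Finset ι) (k : ℕ) (hk : k ≤ T.card) (f : Finset ι → ℝ) :
    ∑ x ∈ T.powersetCard (k+1), up f x ^ 2 =
      ((T.card : ℝ) - k) * ∑ y ∈ T.powersetCard k, f y ^ 2 + off T k f := by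
  have h1 := ud T k (fun x c => f (x.erase c) ^ 2)
  have h2 := ud T k (fun x c => ∑ d ∈ x.erase c, f (x.erase c) * f (x.erase d))
  have h3 : ∑ x ∈ T.powersetCard (k+1), up f x ^ 2 =
      ∑ x ∈ T.powersetCard (k+1), ∑ c ∈ x, f (x.erase c) ^ 2 +
      ∑ x ∈ T.powersetCard (k+1), ∑ c ∈ x, ∑ d ∈ x.erase c, f (x.erase c) * f (x.erase d) := by
    rw [← Finset.sum_add_distrib]
    refine Finset.sum_congr rfl fun x _ => ?_
    unfold up
    rw [sq_split]
  rw [h3, h1, h2]
  congr 1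
  · rw [Finset.mul_sum]
    refine Finset.sum_congr rfl fun y hy => ?_
    rw [Finset.mem_powersetCard] at hy
    have : ∀ d ∈ T \ y, f ((insert d y).erase d) ^ 2 = f y ^ 2 := by
      intro d hd
      rw [Finset.mem_sdiff] at hd
      rw [Finset.erase_insert hd.2]
    rw [Finset.sum_congr rfl this, Finset.sum_const, nsmul_eq_mul,
      Finset.card_sdiff_of_subset hy.1, hy.2, Nat.cast_sub hk]
  · unfold off
    refine Finset.sum_congr rfl fun y hy => ?_
    rw [Finset.sum_comm]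
    refine Finset.sum_congr rfl fun d hd => ?_
    rw [Finset.mem_sdiff] at hd
    rw [Finset.erase_insert hd.2]
    refine Finset.sum_congr rfl fun c hc => ?_
    have hcd : c ≠ d := by rintro rfl; exact hd.2 hc
    rw [Finset.erase_insert_of_ne (Ne.symm hcd)]

theorem dn_bound (T : Finset ι) (k : ℕ) :
    k + 1 ≤ T.card → ∀ g : Finset ι → ℝ, ∑ x ∈ T.powersetCard (k+1), g x = 0 →
      ∑ y ∈ T.powersetCard k, dn T g y ^ 2 ≤
        (k * ((T.card : ℝ) - k - 1)) * ∑ x ∈ T.powersetCard (k+1), g x ^ 2 := by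
  induction k with
  | zero =>
    intro hk g hg
    have h := sum_dn T 0 g
    rw [hg] at h
    simp only [Finset.powersetCard_zero, Finset.sum_singleton] at h ⊢
    rw [h]; simp
  | succ k ih =>
    intro hk g hg
    set f : Finset ι → ℝ := dn T g with hf
    have hf0 : ∑ x ∈ T.powersetCard (k+1), f x = 0 := by
      rw [hf, sum_dn, hg, mul_zero]
    have h1 := ih (by omega) f hf0
    rw [dnsq] at h1
    have h2 := upsq T (k+1) (by omega) f
    have h3 : ∑ x ∈ T.powersetCard (k+1), f x ^ 2 =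
        ∑ x ∈ T.powersetCard (k+1+1), up f x * g x := by
      rw [← adj]
      refine Finset.sum_congr rfl fun x _ => ?_
      rw [hf, sq]
    have h4 := Finset.sum_mul_sq_le_sq_mul_sq (T.powersetCard (k+1+1)) (up f) g
    rw [← h3, h2] at h4
    set N := ∑ x ∈ T.powersetCard (k+1), f x ^ 2 with hN
    set M := ∑ x ∈ T.powersetCard (k+1+1), g x ^ 2 with hM
    have hN0 : 0 ≤ N := Finset.sum_nonneg fun _ _ => sq_nonneg _
    have hM0 : 0 ≤ M := Finset.sum_nonneg fun _ _ => sq_nonneg _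
    have hkt : (k : ℝ) + 1 + 1 ≤ T.card := by exact_mod_cast hk
    push_cast at h1 h4 ⊢
    have h5 : N ^ 2 ≤ ((((k : ℝ) + 1) * ((T.card : ℝ) - (k + 1) - 1)) * N) * M := by
      refine h4.trans (mul_le_mul_of_nonneg_right ?_ hM0)
      nlinarith [h1]
    rcases hN0.eq_or_lt with h | h
    · rw [← h]
      refine mul_nonneg (mul_nonneg (by positivity) (by linarith)) hM0
    · have h6 : N * N ≤ N * ((((k : ℝ) + 1) * ((T.card : ℝ) - (k + 1) - 1)) * M) := by
        nlinarith [h5]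
      exact le_of_mul_le_mul_left h6 h

/-- the Dirichlet form of the Johnson graph -/
noncomputable def dir (T : Finset ι) (α : ℕ) (g : Finset ι → ℝ) : ℝ :=
  ∑ x ∈ T.powersetCard α, ∑ c ∈ x, ∑ d ∈ T \ x, (g x - g (insert d (x.erase c))) ^ 2

theorem dir_eq (T : Finset ι) (k : ℕ) (hk : k + 1 ≤ T.card) (g : Finset ι → ℝ) :
    dir T (k+1) g = 2 * ((k + 1) * ((T.card : ℝ) - (k + 1))) *
      ∑ x ∈ T.powersetCard (k+1), g x ^ 2 - 2 * off T (k+1) g := by
  unfold dir
  have h1 : ∑ x ∈ T.powersetCard (k+1), ∑ c ∈ x, ∑ d ∈ T \ x, g x ^ 2 =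
      ((k + 1) * ((T.card : ℝ) - (k + 1))) * ∑ x ∈ T.powersetCard (k+1), g x ^ 2 := by
    rw [Finset.mul_sum]
    refine Finset.sum_congr rfl fun x hx => ?_
    rw [Finset.mem_powersetCard] at hx
    rw [Finset.sum_const, Finset.sum_const, Finset.card_sdiff_of_subset hx.1, hx.2, nsmul_eq_mul,
      nsmul_eq_mul, Nat.cast_sub hk]
    push_cast; ring
  have h2 : ∑ x ∈ T.powersetCard (k+1), ∑ c ∈ x, ∑ d ∈ T \ x, g (insert d (x.erase c)) ^ 2 =
      ((k + 1) * ((T.card : ℝ) - (k + 1))) * ∑ x ∈ T.powersetCard (k+1), g x ^ 2 := by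
    rw [ud T k (fun x c => ∑ d ∈ T \ x, g (insert d (x.erase c)) ^ 2)]
    have h3 := sum_dn T k (fun x => g x ^ 2)
    unfold dn at h3
    have h4 : ((k + 1) * ((T.card : ℝ) - (k + 1))) * ∑ x ∈ T.powersetCard (k+1), g x ^ 2 =
      ((T.card : ℝ) - (k + 1)) * ((k + 1) * ∑ x ∈ T.powersetCard (k+1), g x ^ 2) := by ring
    rw [h4, ← h3, Finset.mul_sum]
    refine Finset.sum_congr rfl fun y hy => ?_
    rw [Finset.mem_powersetCard] at hy
    have h5 : ∀ c ∈ T \ y, ∑ d ∈ T \ insert c y, g (insert d ((insert c y).erase c)) ^ 2 =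
        ∑ d ∈ T \ y, g (insert d y) ^ 2 - g (insert c y) ^ 2 := by
      intro c hc
      have hc' := hc
      rw [Finset.mem_sdiff] at hc'
      rw [sdiff_insert_erase, Finset.erase_insert hc'.2,
        ← Finset.add_sum_erase (T \ y) (fun d => g (insert d y) ^ 2) hc]
      ring
    rw [Finset.sum_congr rfl h5, Finset.sum_sub_distrib, Finset.sum_const, nsmul_eq_mul,
      Finset.card_sdiff_of_subset hy.1, hy.2, Nat.cast_sub (by omega)]
    ring
  have h6 : ∑ x ∈ T.powersetCard (k+1), ∑ c ∈ x, ∑ d ∈ T \ x,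
      (g x - g (insert d (x.erase c))) ^ 2 =
      ∑ x ∈ T.powersetCard (k+1), ∑ c ∈ x, ∑ d ∈ T \ x, g x ^ 2 +
      ∑ x ∈ T.powersetCard (k+1), ∑ c ∈ x, ∑ d ∈ T \ x, g (insert d (x.erase c)) ^ 2 -
      2 * off T (k+1) g := by
    unfold off
    rw [Finset.mul_sum, ← Finset.sum_add_distrib, ← Finset.sum_sub_distrib]
    refine Finset.sum_congr rfl fun x _ => ?_
    rw [Finset.mul_sum, ← Finset.sum_add_distrib, ← Finset.sum_sub_distrib]
    refine Finset.sum_congr rfl fun c _ => ?_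
    rw [Finset.mul_sum, ← Finset.sum_add_distrib, ← Finset.sum_sub_distrib]
    refine Finset.sum_congr rfl fun d _ => ?_
    ring
  rw [h6, h1, h2]
  ring

/-- Poincaré inequality of the Johnson graph -/
theorem poincare (T : Finset ι) (α : ℕ) (g : Finset ι → ℝ)
    (hg : ∑ x ∈ T.powersetCard α, g x = 0) :
    2 * (T.card : ℝ) * ∑ x ∈ T.powersetCard α, g x ^ 2 ≤ dir T α g := by
  rcases lt_or_ge T.card α with hlt | hle
  · have : T.powersetCard α = ∅ := Finset.powersetCard_eq_empty.2 hlt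
    unfold dir
    rw [this]; simp
  · cases α with
    | zero =>
      unfold dir
      simp only [Finset.powersetCard_zero, Finset.sum_singleton] at hg ⊢
      rw [hg]; simp
    | succ k =>
      have h1 := dn_bound T k hle g hg
      rw [dnsq] at h1
      rw [dir_eq T k hle]
      nlinarith [h1]

end SliceJ

end Vale.Agent.P335
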