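import Mathlib
import Vale.Agent.P335.SliceJ
import Vale.Agent.P335.SliceB

/-! # The slice inequality (Johnson scheme) -/

open scoped Classical

namespace Vale.Agent.P335

variable {ι : Type*} [Fintype ι]

/-- `x` separates `c` and `d` -/
def sep (c d : ι) (x : Finset ι) : Prop := (c ∈ x ∧ d ∉ x) ∨ (c ∉ x ∧ d ∈ x)

/-- apply the transposition `(c d)` -/
noncomputable def swp (c d : ι) (x : Finset ι) : Finset ι := x.map (Equiv.swap c d).toEmbedding

/-- mean over a finset of finsets -/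
noncomputable def mean (S : Finset (Finset ι)) (g : Finset ι → ℝ) : ℝ :=
  (∑ x ∈ S, g x) / (S.card : ℝ)

namespace SliceM

omit [Fintype ι] in
theorem swp_comm (c d : ι) (x : Finset ι) : swp c d x = swp d c x := by
  unfold swp; rw [Equiv.swap_comm]

omit [Fintype ι] in
theorem swp_eq (c d : ι) (x : Finset ι) (hc : c ∈ x) (hd : d ∉ x) :
    swp c d x = insert d (x.erase c) := by
  ext e
  unfold swp
  simp only [Finset.mem_map_equiv, Equiv.symm_swap, Finset.mem_insert, Finset.mem_erase]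
  by_cases h1 : e = c
  · subst h1
    rw [Equiv.swap_apply_left]
    constructor
    · intro h; exact absurd h hd
    · rintro (h | h)
      · subst h; exact hc
      · exact absurd rfl h.1
  · by_cases h2 : e = d
    · subst h2
      rw [Equiv.swap_apply_right]
      constructor
      · intro _; exact Or.inl rfl
      · intro _; exact hc
    · rw [Equiv.swap_apply_of_ne_of_ne h1 h2]
      constructor
      · intro h; exact Or.inr ⟨h1, h⟩
      · rintro (h | h)
        · exact absurd h h2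
        · exact h.2

omit [Fintype ι] in
/-- sum over separated pairs = sum over members times nonmembers -/
theorem sum_sep (T : Finset ι) (α : ℕ) (φ : Finset ι → ι → ι → ℝ)
    (hφ : ∀ x c d, φ x c d = φ x d c) :
    ∑ c ∈ T, ∑ d ∈ T.erase c, ∑ x ∈ (T.powersetCard α).filter (sep c d), φ x c d =
      2 * ∑ x ∈ T.powersetCard α, ∑ c ∈ x, ∑ d ∈ T \ x, φ x c d := by
  have e1 : ∀ c ∈ T, ∑ d ∈ T.erase c, ∑ x ∈ (T.powersetCard α).filter (sep c d), φ x c d =
      ∑ d ∈ T, ∑ x ∈ T.powersetCard α, if sep c d x then φ x c d else 0 := by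
    intro c hc
    rw [← Finset.add_sum_erase T _ hc]
    have : ∑ x ∈ T.powersetCard α, (if sep c c x then φ x c c else 0) = 0 := by
      refine Finset.sum_eq_zero fun x _ => ?_
      rw [if_neg]
      unfold sep
      tauto
    rw [this, zero_add]
    refine Finset.sum_congr rfl fun d _ => ?_
    rw [Finset.sum_filter]
  rw [Finset.sum_congr rfl e1]
  have e2 : ∑ c ∈ T, ∑ d ∈ T, ∑ x ∈ T.powersetCard α, (if sep c d x then φ x c d else 0) =
      ∑ x ∈ T.powersetCard α, ∑ c ∈ T, ∑ d ∈ T, if sep c d x then φ x c d else 0 := by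
    rw [Finset.sum_comm' (s := T) (t' := T) (s' := fun _ => T) (t := fun _ => T)
      (by intro x y; tauto)]
    rw [Finset.sum_comm]
    refine (Finset.sum_congr rfl fun c _ => Finset.sum_comm).trans ?_
    rw [Finset.sum_comm]
  rw [e2, Finset.mul_sum]
  refine Finset.sum_congr rfl fun x hx => ?_
  rw [Finset.mem_powersetCard] at hx
  have e3 : ∑ c ∈ T, ∑ d ∈ T, (if (c ∈ x ∧ d ∉ x) then φ x c d else 0) =
      ∑ c ∈ x, ∑ d ∈ T \ x, φ x c d := by
    rw [← Finset.sum_subset hx.1 (f := fun c => ∑ d ∈ T, if (c ∈ x ∧ d ∉ x) then φ x c d else 0)]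
    · refine Finset.sum_congr rfl fun c hc => ?_
      rw [Finset.sdiff_eq_filter, Finset.sum_filter]
      refine Finset.sum_congr rfl fun d _ => ?_
      by_cases hd : d ∈ x
      · rw [if_neg (by tauto), if_neg (by tauto)]
      · rw [if_pos ⟨hc, hd⟩, if_pos hd]
    · intro c _ hc
      refine Finset.sum_eq_zero fun d _ => ?_
      rw [if_neg (by tauto)]
  have e4 : ∑ c ∈ T, ∑ d ∈ T, (if (c ∉ x ∧ d ∈ x) then φ x c d else 0) =
      ∑ c ∈ x, ∑ d ∈ T \ x, φ x c d := by
    rw [← e3, Finset.sum_comm]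
    refine Finset.sum_congr rfl fun c _ => Finset.sum_congr rfl fun d _ => ?_
    rw [hφ x d c]
    by_cases h : c ∈ x ∧ d ∉ x
    · rw [if_pos h, if_pos ⟨h.2, h.1⟩]
    · rw [if_neg h, if_neg (by tauto)]
  rw [two_mul]
  nth_rewrite 1 [← e3]
  rw [← e4, ← Finset.sum_add_distrib]
  refine Finset.sum_congr rfl fun c _ => ?_
  rw [← Finset.sum_add_distrib]
  refine Finset.sum_congr rfl fun d _ => ?_
  unfold sep
  by_cases h1 : c ∈ x <;> by_cases h2 : d ∈ x <;> simp [h1, h2]

omit [Fintype ι] in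
theorem sum_sep_eq (T : Finset ι) (α : ℕ) (g : Finset ι → ℝ) (c d : ι) :
    ∑ x ∈ (T.powersetCard α).filter (sep c d), g x =
      SliceB.G1 T α g c + SliceB.G1 T α g d - 2 * SliceB.G2 T α g c d := by
  unfold SliceB.G1 SliceB.G2
  rw [Finset.sum_filter, Finset.mul_sum, ← Finset.sum_add_distrib, ← Finset.sum_sub_distrib]
  refine Finset.sum_congr rfl fun x _ => ?_
  unfold SliceB.ind sep
  by_cases h1 : c ∈ x <;> by_cases h2 : d ∈ x <;> simp [h1, h2]
  ring

omit [Fintype ι] in
theorem card_sep (T : Finset ι) (α : ℕ) (c d : ι) (hc : c ∈ T) (hd : d ∈ T) (hcd : c ≠ d) :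
    (((T.powersetCard α).filter (sep c d)).card : ℝ) = 2 * SliceB.nn T.card α := by
  have h := sum_sep_eq T α (fun _ => 1) c d
  rw [Finset.sum_const, nsmul_eq_mul, mul_one] at h
  rw [h]
  unfold SliceB.G1 SliceB.G2
  simp only [mul_one]
  rw [SliceB.sum_ind T α c hc, SliceB.sum_ind T α d hd, SliceB.sum_ind2 T α c d hc hd hcd]
  unfold SliceB.nn; ring

omit [Fintype ι] in
/-- degenerate slices -/
theorem degenerate (T : Finset ι) (α : ℕ) (g : Finset ι → ℝ) (h : α = 0 ∨ T.card ≤ α) :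
    2 * ∑ x ∈ T.powersetCard α, (g x - mean (T.powersetCard α) g) ^ 2 ≤
      ∑ c ∈ T, ∑ d ∈ T.erase c,
        ((∑ x ∈ (T.powersetCard α).filter (sep c d), ((g x - g (swp c d x)) / 2) ^ 2) -
          ∑ x ∈ (T.powersetCard α).filter (sep c d),
            (mean ((T.powersetCard α).filter (sep c d)) g - mean (T.powersetCard α) g) ^ 2) := by
  have h1 : ∃ x0, T.powersetCard α ⊆ {x0} ∧ (x0 = ∅ ∨ x0 = T) := by
    rcases h with h | h
    · exact ⟨∅, by rw [h]; simp, Or.inl rfl⟩
    · refine ⟨T, ?_, Or.inr rfl⟩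
      intro x hx
      rw [Finset.mem_powersetCard] at hx
      rw [Finset.mem_singleton]
      exact Finset.eq_of_subset_of_card_le hx.1 (by omega)
  obtain ⟨x0, hx0, hx0'⟩ := h1
  have hsep : ∀ c ∈ T, ∀ d ∈ T, (T.powersetCard α).filter (sep c d) = ∅ := by
    intro c hc d hd
    rw [Finset.filter_eq_empty_iff]
    intro x hx
    have := hx0 hx
    rw [Finset.mem_singleton] at this
    subst this
    unfold sep
    rcases hx0' with h | h
    · rw [h]; simp
    · rw [h]; tauto
  have hR : ∑ c ∈ T, ∑ d ∈ T.erase c,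
        ((∑ x ∈ (T.powersetCard α).filter (sep c d), ((g x - g (swp c d x)) / 2) ^ 2) -
          ∑ x ∈ (T.powersetCard α).filter (sep c d),
            (mean ((T.powersetCard α).filter (sep c d)) g - mean (T.powersetCard α) g) ^ 2) = 0 := by
    refine Finset.sum_eq_zero fun c hc => Finset.sum_eq_zero fun d hd => ?_
    rw [hsep c hc d (Finset.mem_of_mem_erase hd)]
    simp
  rw [hR]
  have hL : ∑ x ∈ T.powersetCard α, (g x - mean (T.powersetCard α) g) ^ 2 = 0 := by
    rcases Finset.subset_singleton_iff.1 hx0 with h2 | h2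
    · rw [h2]; simp
    · rw [h2]
      unfold mean
      simp
  rw [hL]; simp

end SliceM

omit [Fintype ι] in
/-- the slices `{x ⊆ T : |x| = α}`, ordered-pair form:
`2 Σ (g - mean)² ≤ Σ_{c≠d∈T} [ Σ_{x sep cd} ((g x - g (cd)x)/2)² - Σ_{x sep cd} (mean_{sep} g - mean g)² ]` -/
theorem slice_ineq_aux (T : Finset ι) (α : ℕ) (g : Finset ι → ℝ) :
    2 * ∑ x ∈ T.powersetCard α, (g x - mean (T.powersetCard α) g) ^ 2 ≤
      ∑ c ∈ T, ∑ d ∈ T.erase c,
        ((∑ x ∈ (T.powersetCard α).filter (sep c d), ((g x - g (swp c d x)) / 2) ^ 2) -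
          ∑ x ∈ (T.powersetCard α).filter (sep c d),
            (mean ((T.powersetCard α).filter (sep c d)) g - mean (T.powersetCard α) g) ^ 2) := by
  by_cases hdeg : α = 0 ∨ T.card ≤ α
  · exact SliceM.degenerate T α g hdeg
  · push Not at hdeg
    have hα1 : 1 ≤ α := by omega
    have hα2 : α + 1 ≤ T.card := by omega
    set X := T.powersetCard α with hX
    set μ := mean X g with hμ
    set g0 : Finset ι → ℝ := fun x => g x - μ with hg0
    have hXpos : 0 < X.card := by
      rw [hX, Finset.card_powersetCard]; exact Nat.choose_pos (by omega)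
    have hXpos' : (0 : ℝ) < X.card := by exact_mod_cast hXpos
    have hg0s : ∑ x ∈ X, g0 x = 0 := by
      rw [hg0, Finset.sum_sub_distrib, Finset.sum_const, nsmul_eq_mul, hμ]
      unfold mean
      field_simp
      ring
    have hJ := SliceJ.poincare T α g0 hg0s
    have hB := SliceB.B_bound T α hα1 hα2 g0 hg0s
    rw [← hX] at hJ hB
    have hn := SliceB.nn_pos T.card α hα1 hα2
    set n := SliceB.nn T.card α with hn'
    -- first part
    have hA : ∑ c ∈ T, ∑ d ∈ T.erase c, ∑ x ∈ X.filter (sep c d),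
        ((g x - g (swp c d x)) / 2) ^ 2 = 1 / 2 * SliceJ.dir T α g0 := by
      rw [hX, SliceM.sum_sep T α (fun x c d => ((g x - g (swp c d x)) / 2) ^ 2)
        (fun x c d => by rw [SliceM.swp_comm])]
      unfold SliceJ.dir
      rw [Finset.mul_sum, Finset.mul_sum]
      refine Finset.sum_congr rfl fun x _ => ?_
      rw [Finset.mul_sum, Finset.mul_sum]
      refine Finset.sum_congr rfl fun c hc => ?_
      rw [Finset.mul_sum, Finset.mul_sum]
      refine Finset.sum_congr rfl fun d hd => ?_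
      rw [Finset.mem_sdiff] at hd
      rw [SliceM.swp_eq c d x hc hd.2, hg0]
      ring
    -- second part
    have hBB : ∑ c ∈ T, ∑ d ∈ T.erase c, ∑ x ∈ X.filter (sep c d),
        (mean (X.filter (sep c d)) g - μ) ^ 2 =
        (∑ c ∈ T, ∑ d ∈ T.erase c,
          (SliceB.G1 T α g0 c + SliceB.G1 T α g0 d - 2 * SliceB.G2 T α g0 c d) ^ 2) / (2 * n) := by
      rw [Finset.sum_div]
      refine Finset.sum_congr rfl fun c hc => ?_
      rw [Finset.sum_div]
      refine Finset.sum_congr rfl fun d hd => ?_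
      rw [Finset.mem_erase] at hd
      have hcard := SliceM.card_sep T α c d hc hd.2 (Ne.symm hd.1)
      rw [← hX, ← hn'] at hcard
      rw [← SliceM.sum_sep_eq, ← hX, Finset.sum_const, nsmul_eq_mul, hcard]
      have e1 : ∑ x ∈ X.filter (sep c d), g0 x =
          ∑ x ∈ X.filter (sep c d), g x - 2 * n * μ := by
        rw [hg0, Finset.sum_sub_distrib, Finset.sum_const, nsmul_eq_mul, hcard]
      rw [e1]
      unfold mean
      rw [hcard]
      field_simp
    have hsplit : ∑ c ∈ T, ∑ d ∈ T.erase c,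
        ((∑ x ∈ X.filter (sep c d), ((g x - g (swp c d x)) / 2) ^ 2) -
          ∑ x ∈ X.filter (sep c d), (mean (X.filter (sep c d)) g - μ) ^ 2) =
        1 / 2 * SliceJ.dir T α g0 - (∑ c ∈ T, ∑ d ∈ T.erase c,
          (SliceB.G1 T α g0 c + SliceB.G1 T α g0 d - 2 * SliceB.G2 T α g0 c d) ^ 2) / (2 * n) := by
      rw [← hA, ← hBB, ← Finset.sum_sub_distrib]
      refine Finset.sum_congr rfl fun c _ => ?_
      rw [← Finset.sum_sub_distrib]
    rw [hsplit]
    have hB2 : (∑ c ∈ T, ∑ d ∈ T.erase c,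
          (SliceB.G1 T α g0 c + SliceB.G1 T α g0 d - 2 * SliceB.G2 T α g0 c d) ^ 2) / (2 * n) ≤
        ((T.card : ℝ) - 2) * ∑ x ∈ X, g0 x ^ 2 := by
      rw [div_le_iff₀ (by positivity)]
      refine hB.trans (le_of_eq ?_)
      ring
    nlinarith [hJ, hB2]

/-- the slices `{x ⊆ T : |x| = α}`, ordered-pair form:
`2 Σ (g - mean)² ≤ Σ_{c≠d∈T} [ Σ_{x sep cd} ((g x - g (cd)x)/2)² - Σ_{x sep cd} (mean_{sep} g - mean g)² ]` -/
theorem slice_ineq (T : Finset ι) (α : ℕ) (g : Finset ι → ℝ) :
    2 * ∑ x ∈ T.powersetCard α, (g x - mean (T.powersetCard α) g) ^ 2 ≤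
      ∑ c ∈ T, ∑ d ∈ T.erase c,
        ((∑ x ∈ (T.powersetCard α).filter (sep c d), ((g x - g (swp c d x)) / 2) ^ 2) -
          ∑ x ∈ (T.powersetCard α).filter (sep c d),
            (mean ((T.powersetCard α).filter (sep c d)) g - mean (T.powersetCard α) g) ^ 2) :=
  slice_ineq_aux T α g

end Vale.Agent.P335
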