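import Vale.Agent.P335.AvgBasic
import Vale.Agent.P335.PairBasic
import Vale.Agent.P335.Slice

/-! # The slice inequality on the classes of `~_{ab}` -/

open scoped Classical

namespace Vale.Agent.P335

variable {V : Type*} [Fintype V]

/-- the vertices (other than `a, b`) adjacent to exactly one of `a`, `b` -/
private noncomputable def stT (a b : V) (G : SimpleGraph V) : Finset V :=
  Finset.univ.filter (fun w => w ≠ a ∧ w ≠ b ∧ ¬ (G.Adj a w ↔ G.Adj b w))

/-- the neighbours of `a` in `T` -/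
private noncomputable def stX (a : V) (T : Finset V) (H : SimpleGraph V) : Finset V :=
  T.filter (fun w => H.Adj a w)

/-- `G` with the neighbours of `a` in `T` replaced by `x` and those of `b` in `T` by `T \ x` -/
private def stG (a b : V) (T : Finset V) (G : SimpleGraph V) (x : Finset V) : SimpleGraph V where
  Adj u v := u ≠ v ∧ (if (u = a ∧ v ∈ T) ∨ (v = a ∧ u ∈ T) then (u ∈ x ∨ v ∈ x) else
    if (u = b ∧ v ∈ T) ∨ (v = b ∧ u ∈ T) then ¬ (u ∈ x ∨ v ∈ x) else G.Adj u v)
  symm := ⟨by
    intro u v ⟨h1, h2⟩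
    refine ⟨h1.symm, ?_⟩
    by_cases c1 : (u = a ∧ v ∈ T) ∨ (v = a ∧ u ∈ T)
    · rw [if_pos c1] at h2
      rw [if_pos c1.symm]
      exact h2.symm
    · rw [if_neg c1] at h2
      rw [if_neg (fun h => c1 h.symm)]
      by_cases c2 : (u = b ∧ v ∈ T) ∨ (v = b ∧ u ∈ T)
      · rw [if_pos c2] at h2
        rw [if_pos c2.symm]
        exact fun h => h2 h.symm
      · rw [if_neg c2] at h2
        rw [if_neg (fun h => c2 h.symm)]
        exact h2.symm⟩
  loopless := ⟨fun u h => h.1 rfl⟩

section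

variable {a b : V} (hab : a ≠ b) {G : SimpleGraph V}

private theorem mem_stT {w : V} : w ∈ stT a b G ↔ w ≠ a ∧ w ≠ b ∧ ¬ (G.Adj a w ↔ G.Adj b w) := by
  unfold stT; rw [Finset.mem_filter]; exact ⟨fun h => h.2, fun h => ⟨Finset.mem_univ _, h⟩⟩

private theorem a_notMem : a ∉ stT a b G := fun h => (mem_stT.1 h).1 rfl

private theorem b_notMem : b ∉ stT a b G := fun h => (mem_stT.1 h).2.1 rfl

private theorem stG_adj {T x : Finset V} {u v : V} : (stG a b T G x).Adj u v ↔
    u ≠ v ∧ (if (u = a ∧ v ∈ T) ∨ (v = a ∧ u ∈ T) then (u ∈ x ∨ v ∈ x) else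
    if (u = b ∧ v ∈ T) ∨ (v = b ∧ u ∈ T) then ¬ (u ∈ x ∨ v ∈ x) else G.Adj u v) := Iff.rfl

private theorem stG_a {x : Finset V} (hx : x ⊆ stT a b G) {w : V} (hw : w ∈ stT a b G) :
    (stG a b (stT a b G) G x).Adj a w ↔ w ∈ x := by
  rw [stG_adj, if_pos (Or.inl ⟨rfl, hw⟩)]
  have h1 : a ∉ x := fun h => a_notMem (hx h)
  constructor
  · rintro ⟨_, h | h⟩
    · exact absurd h h1
    · exact h
  · intro h
    exact ⟨(mem_stT.1 hw).1.symm, Or.inr h⟩

include hab in
private theorem stG_b {x : Finset V} (hx : x ⊆ stT a b G) {w : V} (hw : w ∈ stT a b G) :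
    (stG a b (stT a b G) G x).Adj b w ↔ w ∉ x := by
  have h0 : ¬ ((b = a ∧ w ∈ stT a b G) ∨ (w = a ∧ b ∈ stT a b G)) := by
    rintro (⟨h, _⟩ | ⟨_, h⟩)
    · exact hab h.symm
    · exact b_notMem h
  rw [stG_adj, if_neg h0, if_pos (Or.inl ⟨rfl, hw⟩)]
  have h1 : b ∉ x := fun h => b_notMem (hx h)
  constructor
  · rintro ⟨_, h⟩ h2
    exact h (Or.inr h2)
  · intro h
    exact ⟨(mem_stT.1 hw).2.1.symm, fun h2 => h2.elim h1 h⟩

private theorem stG_other {T x : Finset V} {u v : V} (h1 : ¬ ((u = a ∨ u = b) ∧ v ∈ T))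
    (h2 : ¬ ((v = a ∨ v = b) ∧ u ∈ T)) : (stG a b T G x).Adj u v ↔ G.Adj u v := by
  rw [stG_adj, if_neg, if_neg]
  · exact ⟨fun h => h.2, fun h => ⟨h.ne, h⟩⟩
  · rintro (⟨h, h'⟩ | ⟨h, h'⟩)
    · exact h1 ⟨Or.inr h, h'⟩
    · exact h2 ⟨Or.inr h, h'⟩
  · rintro (⟨h, h'⟩ | ⟨h, h'⟩)
    · exact h1 ⟨Or.inl h, h'⟩
    · exact h2 ⟨Or.inl h, h'⟩

/-- off `T`, adjacency with `a`, `b` is unchanged -/
private theorem stG_off {T x : Finset V} (ha : a ∉ T) (hb : b ∉ T) {u v : V} (hu : u ∉ T)
    (hv : v ∉ T) : (stG a b T G x).Adj u v ↔ G.Adj u v := by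
  apply stG_other
  · rintro ⟨_, h⟩; exact hv h
  · rintro ⟨_, h⟩; exact hu h

private theorem st_deg_split (K : SimpleGraph V) (T : Finset V) (v : V) : deg K v =
    (T.filter (fun w => K.Adj v w)).card + (Finset.univ.filter (fun w => K.Adj v w ∧ w ∉ T)).card := by
  unfold deg
  rw [← Finset.card_filter_add_card_filter_not (s := Finset.univ.filter (fun w => K.Adj v w))
      (fun w => w ∈ T), Finset.filter_filter, Finset.filter_filter]
  congr 2
  ext w
  rw [Finset.mem_filter, Finset.mem_filter]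
  exact ⟨fun h => ⟨h.2.2, h.2.1⟩, fun h => ⟨Finset.mem_univ _, h.2, h.1⟩⟩

include hab in
private theorem stG_rel {x : Finset V}
    (hx : x ∈ (stT a b G).powersetCard (stX a (stT a b G) G).card) :
    pairRel a b G (stG a b (stT a b G) G x) := by
  rw [Finset.mem_powersetCard] at hx
  obtain ⟨hxT, hxc⟩ := hx
  set T := stT a b G with hT
  have haT : a ∉ T := a_notMem
  have hbT : b ∉ T := b_notMem
  constructor
  · intro u v huv
    symm
    apply stG_other
    · rintro ⟨h1, h2⟩
      rcases huv.1 h1 with h | h <;> subst h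
      · exact haT h2
      · exact hbT h2
    · rintro ⟨h1, h2⟩
      rcases huv.2 h1 with h | h <;> subst h
      · exact haT h2
      · exact hbT h2
  · intro v
    by_cases hva : v = a
    · subst hva
      rw [st_deg_split G T v, st_deg_split (stG v b T G x) T v]
      congr 1
      · have : T.filter (fun w => (stG v b T G x).Adj v w) = x := by
          ext w
          rw [Finset.mem_filter]
          constructor
          · rintro ⟨h1, h2⟩
            exact (stG_a hxT h1).1 h2
          · intro h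
            exact ⟨hxT h, (stG_a hxT (hxT h)).2 h⟩
        rw [this, hxc]
        rfl
      · congr 1
        ext w
        rw [Finset.mem_filter, Finset.mem_filter]
        constructor
        · rintro ⟨_, h1, h2⟩
          exact ⟨Finset.mem_univ _, (stG_off haT hbT haT h2).2 h1, h2⟩
        · rintro ⟨_, h1, h2⟩
          exact ⟨Finset.mem_univ _, (stG_off haT hbT haT h2).1 h1, h2⟩
    by_cases hvb : v = b
    · subst hvb
      rw [st_deg_split G T v, st_deg_split (stG a v T G x) T v]
      congr 1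
      · have h1 : T.filter (fun w => (stG a v T G x).Adj v w) = T \ x := by
          ext w
          rw [Finset.mem_filter, Finset.mem_sdiff]
          constructor
          · rintro ⟨h1, h2⟩
            exact ⟨h1, (stG_b hab hxT h1).1 h2⟩
          · rintro ⟨h1, h2⟩
            exact ⟨h1, (stG_b hab hxT h1).2 h2⟩
        have h2 : T.filter (fun w => G.Adj v w) = T \ stX a T G := by
          ext w
          rw [Finset.mem_filter, Finset.mem_sdiff]
          unfold stX
          rw [Finset.mem_filter]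
          constructor
          · rintro ⟨h1, h2⟩
            refine ⟨h1, fun h3 => ?_⟩
            exact (mem_stT.1 h1).2.2 ⟨fun _ => h2, fun _ => h3.2⟩
          · rintro ⟨h1, h2⟩
            refine ⟨h1, ?_⟩
            by_contra h3
            have h4 : ¬ G.Adj a w := fun h => h2 ⟨h1, h⟩
            exact (mem_stT.1 h1).2.2 ⟨fun h => absurd h h4, fun h => absurd h h3⟩
        have h3 : stX a T G ⊆ T := Finset.filter_subset _ _
        rw [h1, h2, Finset.card_sdiff_of_subset hxT, Finset.card_sdiff_of_subset h3, hxc]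
      · congr 1
        ext w
        rw [Finset.mem_filter, Finset.mem_filter]
        constructor
        · rintro ⟨_, h1, h2⟩
          exact ⟨Finset.mem_univ _, (stG_off haT hbT hbT h2).2 h1, h2⟩
        · rintro ⟨_, h1, h2⟩
          exact ⟨Finset.mem_univ _, (stG_off haT hbT hbT h2).1 h1, h2⟩
    by_cases hvT : v ∈ T
    · have key : ∃ σ : Equiv.Perm V, ∀ w, (stG a b T G x).Adj v w ↔ G.Adj v (σ w) := by
        have e1 : (stG a b T G x).Adj v a ↔ v ∈ x := by
          rw [SimpleGraph.adj_comm]; exact stG_a hxT hvT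
        have e2 : (stG a b T G x).Adj v b ↔ v ∉ x := by
          rw [SimpleGraph.adj_comm]; exact stG_b hab hxT hvT
        have e3 := (mem_stT.1 hvT).2.2
        rw [G.adj_comm a v, G.adj_comm b v] at e3
        have e4 : ∀ w, w ≠ a → w ≠ b → ((stG a b T G x).Adj v w ↔ G.Adj v w) := by
          intro w h1 h2
          apply stG_other
          · rintro ⟨h | h, _⟩
            · exact hva h
            · exact hvb h
          · rintro ⟨h | h, _⟩
            · exact h1 h
            · exact h2 h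
        by_cases hc : (v ∈ x ↔ G.Adj v a)
        · refine ⟨Equiv.refl V, fun w => ?_⟩
          rw [Equiv.refl_apply]
          by_cases h1 : w = a
          · subst h1; rw [e1]; exact hc
          by_cases h2 : w = b
          · subst h2; rw [e2]; tauto
          exact e4 w h1 h2
        · refine ⟨Equiv.swap a b, fun w => ?_⟩
          by_cases h1 : w = a
          · subst h1; rw [e1, Equiv.swap_apply_left]; tauto
          by_cases h2 : w = b
          · subst h2; rw [e2, Equiv.swap_apply_right]; tauto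
          rw [Equiv.swap_apply_of_ne_of_ne h1 h2]
          exact e4 w h1 h2
      obtain ⟨σ, hσ⟩ := key
      rw [deg_eq_sum, deg_eq_sum]
      simp only [hσ]
      exact (Equiv.sum_comp σ (fun w => if G.Adj v w then 1 else 0)).symm
    · unfold deg
      congr 1
      ext w
      rw [Finset.mem_filter, Finset.mem_filter, stG_other]
      · rintro ⟨h | h, _⟩
        · exact hva h
        · exact hvb h
      · rintro ⟨_, h⟩
        exact hvT h

include hab in
private theorem rel_mem {H : SimpleGraph V} (h : pairRel a b G H) {w : V}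
    (hw : w ∈ stT a b G) : ¬ (H.Adj a w ↔ H.Adj b w) := by
  obtain ⟨h1, h2, h3⟩ := mem_stT.1 hw
  have h4 := pairRel_sum hab h h1 h2
  rw [G.adj_comm a w, G.adj_comm b w] at h3
  rw [H.adj_comm a w, H.adj_comm b w]
  by_cases x1 : G.Adj w a <;> by_cases x2 : G.Adj w b <;> by_cases x3 : H.Adj w a <;>
    by_cases x4 : H.Adj w b <;> simp [x1, x2, x3, x4] at h3 h4 ⊢

include hab in
private theorem rel_notMem {H : SimpleGraph V} (h : pairRel a b G H) {w : V}
    (hwa : w ≠ a) (hwb : w ≠ b) (hw : w ∉ stT a b G) :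
    (H.Adj a w ↔ G.Adj a w) ∧ (H.Adj b w ↔ G.Adj b w) := by
  have h3 : G.Adj a w ↔ G.Adj b w := by
    by_contra h3
    exact hw (mem_stT.2 ⟨hwa, hwb, h3⟩)
  have h4 := pairRel_sum hab h hwa hwb
  rw [G.adj_comm a w, G.adj_comm b w] at h3
  rw [H.adj_comm a w, H.adj_comm b w, G.adj_comm a w, G.adj_comm b w]
  by_cases x1 : G.Adj w a <;> by_cases x2 : G.Adj w b <;> by_cases x3 : H.Adj w a <;>
    by_cases x4 : H.Adj w b <;> simp [x1, x2, x3, x4] at h3 h4 ⊢

include hab in
private theorem stX_mem {H : SimpleGraph V} (h : pairRel a b G H) :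
    stX a (stT a b G) H ∈ (stT a b G).powersetCard (stX a (stT a b G) G).card := by
  rw [Finset.mem_powersetCard]
  refine ⟨Finset.filter_subset _ _, ?_⟩
  have h1 := h.2 a
  rw [st_deg_split G (stT a b G) a, st_deg_split H (stT a b G) a] at h1
  have h2 : Finset.univ.filter (fun w => G.Adj a w ∧ w ∉ stT a b G) =
      Finset.univ.filter (fun w => H.Adj a w ∧ w ∉ stT a b G) := by
    ext w
    rw [Finset.mem_filter, Finset.mem_filter]
    have key : w ∉ stT a b G → (G.Adj a w ↔ H.Adj a w) := by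
      intro hw
      by_cases hwa : w = a
      · subst hwa
        exact ⟨fun h => absurd h (G.loopless.irrefl _), fun h => absurd h (H.loopless.irrefl _)⟩
      by_cases hwb : w = b
      · subst hwb
        exact h.1 a w ⟨fun _ => Or.inr rfl, fun _ => Or.inl rfl⟩
      exact (rel_notMem hab h hwa hwb hw).1.symm
    constructor
    · rintro ⟨h3, h4, h5⟩
      exact ⟨h3, (key h5).1 h4, h5⟩
    · rintro ⟨h3, h4, h5⟩
      exact ⟨h3, (key h5).2 h4, h5⟩
  rw [h2] at h1
  unfold stX
  omega

include hab in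
private theorem stG_stX {H : SimpleGraph V} (h : pairRel a b G H) :
    stG a b (stT a b G) G (stX a (stT a b G) H) = H := by
  have hsub : stX a (stT a b G) H ⊆ stT a b G := Finset.filter_subset _ _
  have ha : ∀ w, w ∈ stT a b G →
      ((stG a b (stT a b G) G (stX a (stT a b G) H)).Adj a w ↔ H.Adj a w) := by
    intro w hw
    rw [stG_a hsub hw]
    unfold stX
    rw [Finset.mem_filter]
    exact ⟨fun h => h.2, fun h => ⟨hw, h⟩⟩
  have hb : ∀ w, w ∈ stT a b G →
      ((stG a b (stT a b G) G (stX a (stT a b G) H)).Adj b w ↔ H.Adj b w) := by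
    intro w hw
    rw [stG_b hab hsub hw]
    unfold stX
    rw [Finset.mem_filter]
    have h1 := rel_mem hab h hw
    tauto
  ext u v
  by_cases h1 : (u = a ∨ u = b) ∧ v ∈ stT a b G
  · obtain ⟨h | h, h2⟩ := h1
    · subst h; exact ha v h2
    · subst h; exact hb v h2
  by_cases h2 : (v = a ∨ v = b) ∧ u ∈ stT a b G
  · rw [SimpleGraph.adj_comm, H.adj_comm]
    obtain ⟨h | h, h3⟩ := h2
    · subst h; exact ha u h3
    · subst h; exact hb u h3
  rw [stG_other h1 h2]
  by_cases h3 : ((u = a ∨ u = b) ↔ (v = a ∨ v = b))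
  · exact h.1 u v h3
  by_cases h4 : u = a ∨ u = b
  · have h5 : ¬ (v = a ∨ v = b) := fun h5 => h3 ⟨fun _ => h5, fun _ => h4⟩
    rw [not_or] at h5
    have h6 : v ∉ stT a b G := fun h6 => h1 ⟨h4, h6⟩
    have h7 := rel_notMem hab h h5.1 h5.2 h6
    rcases h4 with h4 | h4
    · subst h4; exact h7.1.symm
    · subst h4; exact h7.2.symm
  · have h5 : v = a ∨ v = b := by
      by_contra h5
      exact h3 ⟨fun h => absurd h h4, fun h => absurd h h5⟩
    rw [not_or] at h4
    have h6 : u ∉ stT a b G := fun h6 => h2 ⟨h5, h6⟩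
    have h7 := rel_notMem hab h h4.1 h4.2 h6
    rw [G.adj_comm, H.adj_comm]
    rcases h5 with h5 | h5
    · subst h5; exact h7.1.symm
    · subst h5; exact h7.2.symm

private theorem stX_stG {x : Finset V} (hx : x ⊆ stT a b G) :
    stX a (stT a b G) (stG a b (stT a b G) G x) = x := by
  ext w
  unfold stX
  rw [Finset.mem_filter]
  constructor
  · rintro ⟨h1, h2⟩
    exact (stG_a hx h1).1 h2
  · intro h
    exact ⟨hx h, (stG_a hx (hx h)).2 h⟩

include hab in
private theorem st_sum (φ : SimpleGraph V → ℝ) : ∑ H ∈ cls (pairRel a b) G, φ H =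
    ∑ x ∈ (stT a b G).powersetCard (stX a (stT a b G) G).card, φ (stG a b (stT a b G) G x) := by
  refine Finset.sum_nbij' (fun H => stX a (stT a b G) H) (fun x => stG a b (stT a b G) G x)
    ?_ ?_ ?_ ?_ ?_
  · intro H hH
    exact stX_mem hab (mem_cls.1 hH)
  · intro x hx
    exact mem_cls.2 (stG_rel hab hx)
  · intro H hH
    exact stG_stX hab (mem_cls.1 hH)
  · intro x hx
    exact stX_stG (Finset.mem_powersetCard.1 hx).1
  · intro H hH
    rw [stG_stX hab (mem_cls.1 hH)]

include hab in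
private theorem st_card : ((cls (pairRel a b) G).card : ℝ) =
    ((stT a b G).powersetCard (stX a (stT a b G) G).card).card := by
  have h := st_sum hab (G := G) (fun _ => (1 : ℝ))
  simpa using h

include hab in
private theorem st_Z {c d : V} {x : Finset V} (hx : x ⊆ stT a b G) (hc : c ∈ stT a b G)
    (hd : d ∈ stT a b G) : Z a b c d (stG a b (stT a b G) G x) ↔ sep c d x := by
  unfold Z sep
  rw [stG_a hx hc, stG_a hx hd, stG_b hab hx hc, stG_b hab hx hd]
  tauto

private theorem Z_mem {H : SimpleGraph V} (hab : a ≠ b) (h : pairRel a b G H) {c d : V}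
    (hac : a ≠ c) (had : a ≠ d) (hbc : b ≠ c) (hbd : b ≠ d) (hZ : Z a b c d H) :
    c ∈ stT a b G ∧ d ∈ stT a b G := by
  constructor
  · by_contra hc
    have h1 := rel_notMem hab h hac.symm hbc.symm hc
    have h2 : G.Adj a c ↔ G.Adj b c := by
      by_contra h2
      exact hc (mem_stT.2 ⟨hac.symm, hbc.symm, h2⟩)
    unfold Z at hZ
    tauto
  · by_contra hd
    have h1 := rel_notMem hab h had.symm hbd.symm hd
    have h2 : G.Adj a d ↔ G.Adj b d := by
      by_contra h2
      exact hd (mem_stT.2 ⟨had.symm, hbd.symm, h2⟩)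
    unfold Z at hZ
    tauto

private theorem swp_mem {c d : V} {x : Finset V} {w : V} :
    w ∈ swp c d x ↔ Equiv.swap c d w ∈ x := by
  unfold swp
  rw [Finset.mem_map_equiv, Equiv.symm_swap]

include hab in
private theorem st_sw {c d : V} {x : Finset V}
    (hx : x ∈ (stT a b G).powersetCard (stX a (stT a b G) G).card) (hc : c ∈ stT a b G)
    (hd : d ∈ stT a b G) (hcd : c ≠ d) (hs : sep c d x) :
    sw a b c d (stG a b (stT a b G) G x) = stG a b (stT a b G) G (swp c d x) := by
  have hxT := (Finset.mem_powersetCard.1 hx).1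
  obtain ⟨hca, hcb, _⟩ := mem_stT.1 hc
  obtain ⟨hda, hdb, _⟩ := mem_stT.1 hd
  have hrel := stG_rel hab hx
  have hrel2 : pairRel a b G (sw a b c d (stG a b (stT a b G) G x)) :=
    (pairRel a b).trans hrel (pairRel_sw hca.symm hda.symm hcb.symm hdb.symm _)
  rw [← stG_stX hab hrel2]
  congr 1
  have hZ : Z a b c d (stG a b (stT a b G) G x) := (st_Z hab hxT hc hd).2 hs
  have hsw : sw a b c d (stG a b (stT a b G) G x) = flip4 a b c d (stG a b (stT a b G) G x) := by
    unfold sw; rw [if_pos hZ]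
  rw [hsw]
  ext w
  unfold stX
  rw [Finset.mem_filter, swp_mem]
  have hwT : Equiv.swap c d w ∈ x → w ∈ stT a b G := by
    intro h
    by_cases h1 : w = c
    · rw [h1]; exact hc
    by_cases h2 : w = d
    · rw [h2]; exact hd
    rw [Equiv.swap_apply_of_ne_of_ne h1 h2] at h
    exact hxT h
  have key : w ∈ stT a b G → ((flip4 a b c d (stG a b (stT a b G) G x)).Adj a w ↔
      Equiv.swap c d w ∈ x) := by
    intro hw
    have hwa : a ≠ w := (mem_stT.1 hw).1.symm
    by_cases h1 : w = c
    · rw [h1, Equiv.swap_apply_left, flip4_adj_of_slot hca.symm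
        (Or.inl ⟨Or.inl rfl, Or.inl rfl⟩), stG_a hxT hc]
      rcases hs with ⟨k1, k2⟩ | ⟨k1, k2⟩
      · exact ⟨fun h => absurd k1 h, fun h => absurd h k2⟩
      · exact ⟨fun _ => k2, fun _ => k1⟩
    by_cases h2 : w = d
    · rw [h2, Equiv.swap_apply_right, flip4_adj_of_slot hda.symm
        (Or.inl ⟨Or.inl rfl, Or.inr rfl⟩), stG_a hxT hd]
      rcases hs with ⟨k1, k2⟩ | ⟨k1, k2⟩
      · exact ⟨fun _ => k1, fun _ => k2⟩
      · exact ⟨fun h => absurd k2 h, fun h => absurd h k1⟩
    rw [Equiv.swap_apply_of_ne_of_ne h1 h2, flip4_adj_of_not_slot, stG_a hxT hw]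
    rintro (⟨_, h | h⟩ | ⟨h | h, _⟩)
    · exact h1 h
    · exact h2 h
    · exact hca h.symm
    · exact hda h.symm
  constructor
  · rintro ⟨h1, h2⟩
    exact (key h1).1 h2
  · intro h
    exact ⟨hwT h, (key (hwT h)).2 h⟩

include hab in
/-- `E_ab f` on the class -/
private theorem st_E (f : SimpleGraph V → ℝ) {x : Finset V}
    (hx : x ∈ (stT a b G).powersetCard (stX a (stT a b G) G).card) :
    E a b f (stG a b (stT a b G) G x) =
      mean ((stT a b G).powersetCard (stX a (stT a b G) G).card)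
        (fun y => f (stG a b (stT a b G) G y)) := by
  unfold E
  rw [← avg_eq_of_rel (pairRel a b) f (stG_rel hab hx), avg_def, st_sum hab, st_card hab]
  rfl

include hab in
/-- `E'_ab f` on the class -/
private theorem st_E' (f : SimpleGraph V → ℝ) {c d : V} {x : Finset V}
    (hx : x ∈ (stT a b G).powersetCard (stX a (stT a b G) G).card) (hc : c ∈ stT a b G)
    (hd : d ∈ stT a b G) (hs : sep c d x) :
    E' a b c d f (stG a b (stT a b G) G x) =
      mean (((stT a b G).powersetCard (stX a (stT a b G) G).card).filter (sep c d))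
        (fun y => f (stG a b (stT a b G) G y)) := by
  have hxT := (Finset.mem_powersetCard.1 hx).1
  have hZ : Z a b c d (stG a b (stT a b G) G x) := (st_Z hab hxT hc hd).2 hs
  have hcls : cls (pairRelZ a b c d) (stG a b (stT a b G) G x) =
      (cls (pairRel a b) G).filter (fun H => Z a b c d H) := by
    ext H
    rw [mem_cls, Finset.mem_filter, mem_cls]
    constructor
    · rintro ⟨h1, h2⟩
      exact ⟨(pairRel a b).trans (stG_rel hab hx) h1, h2.1 hZ⟩
    · rintro ⟨h1, h2⟩
      exact ⟨(pairRel a b).trans ((pairRel a b).symm (stG_rel hab hx)) h1,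
        ⟨fun _ => h2, fun _ => hZ⟩⟩
  have hsum : ∀ φ : SimpleGraph V → ℝ,
      ∑ H ∈ (cls (pairRel a b) G).filter (fun H => Z a b c d H), φ H =
      ∑ y ∈ ((stT a b G).powersetCard (stX a (stT a b G) G).card).filter (sep c d),
        φ (stG a b (stT a b G) G y) := by
    intro φ
    rw [Finset.sum_filter, st_sum hab, Finset.sum_filter]
    refine Finset.sum_congr rfl fun y hy => ?_
    exact if_congr (st_Z hab (Finset.mem_powersetCard.1 hy).1 hc hd) rfl rfl
  have hcard : ((((cls (pairRel a b) G).filter (fun H => Z a b c d H)).card : ℕ) : ℝ) =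
      ((((stT a b G).powersetCard (stX a (stT a b G) G).card).filter (sep c d)).card : ℝ) := by
    have h := hsum (fun _ => (1 : ℝ))
    simpa using h
  unfold E'
  rw [avg_def, hcls, hsum f, hcard]
  rfl

/-- the pointwise term of the right-hand side -/
private noncomputable def stF (a b : V) (f : SimpleGraph V → ℝ) (c d : V) (H : SimpleGraph V) :
    ℝ := Anti a b c d f H ^ 2 - (if Z a b c d H then (E' a b c d f H - E a b f H) ^ 2 else 0)

include hab in
private theorem st_local (f : SimpleGraph V → ℝ) (G : SimpleGraph V) :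
    2 * ∑ H ∈ cls (pairRel a b) G, D a b f H ^ 2 ≤
      ∑ H ∈ cls (pairRel a b) G, ∑ c : V, ∑ d : V,
        if c ≠ d ∧ a ≠ c ∧ a ≠ d ∧ b ≠ c ∧ b ≠ d then stF a b f c d H else 0 := by
  set T := stT a b G with hT
  set α := (stX a T G).card with hα
  set g : Finset V → ℝ := fun y => f (stG a b T G y) with hg
  have h1 : ∑ H ∈ cls (pairRel a b) G, D a b f H ^ 2 =
      ∑ x ∈ T.powersetCard α, (g x - mean (T.powersetCard α) g) ^ 2 := by
    rw [st_sum hab]
    refine Finset.sum_congr rfl fun x hx => ?_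
    unfold D
    rw [st_E hab f hx]
  rw [h1]
  refine (slice_ineq T α g).trans (le_of_eq ?_)
  -- exchange the order of summation
  have h2 : ∑ H ∈ cls (pairRel a b) G, ∑ c : V, ∑ d : V,
        (if c ≠ d ∧ a ≠ c ∧ a ≠ d ∧ b ≠ c ∧ b ≠ d then stF a b f c d H else 0) =
      ∑ c : V, ∑ d : V, ∑ H ∈ cls (pairRel a b) G,
        (if c ≠ d ∧ a ≠ c ∧ a ≠ d ∧ b ≠ c ∧ b ≠ d then stF a b f c d H else 0) := by
    rw [Finset.sum_comm]
    exact Finset.sum_congr rfl fun c _ => Finset.sum_comm
  rw [h2]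
  -- the term of a pair
  have h3 : ∀ c d : V, ∑ H ∈ cls (pairRel a b) G,
        (if c ≠ d ∧ a ≠ c ∧ a ≠ d ∧ b ≠ c ∧ b ≠ d then stF a b f c d H else 0) =
      if c ∈ T ∧ d ∈ T.erase c then
        ((∑ x ∈ (T.powersetCard α).filter (sep c d), ((g x - g (swp c d x)) / 2) ^ 2) -
          ∑ x ∈ (T.powersetCard α).filter (sep c d),
            (mean ((T.powersetCard α).filter (sep c d)) g - mean (T.powersetCard α) g) ^ 2)
      else 0 := by
    intro c d
    by_cases hcd : c ∈ T ∧ d ∈ T.erase c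
    · rw [if_pos hcd]
      obtain ⟨hc, hd'⟩ := hcd
      rw [Finset.mem_erase] at hd'
      obtain ⟨hdc, hd⟩ := hd'
      obtain ⟨hca, hcb, _⟩ := mem_stT.1 hc
      obtain ⟨hda, hdb, _⟩ := mem_stT.1 hd
      rw [← Finset.sum_sub_distrib, Finset.sum_filter, st_sum hab]
      refine Finset.sum_congr rfl fun x hx => ?_
      rw [if_pos ⟨hdc.symm, hca.symm, hda.symm, hcb.symm, hdb.symm⟩]
      unfold stF Anti
      have hxT := (Finset.mem_powersetCard.1 hx).1
      by_cases hs : sep c d x
      · have hZ := (st_Z hab hxT hc hd).2 hs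
        rw [if_pos hZ, if_pos hZ, if_pos hs, st_sw hab hx hc hd hdc.symm hs,
          st_E hab f hx, st_E' hab f hx hc hd hs]
      · have hZ : ¬ Z a b c d (stG a b T G x) := fun h => hs ((st_Z hab hxT hc hd).1 h)
        rw [if_neg hZ, if_neg hZ, if_neg hs]
        norm_num
    · rw [if_neg hcd]
      refine Finset.sum_eq_zero fun H hH => ?_
      by_cases hcond : c ≠ d ∧ a ≠ c ∧ a ≠ d ∧ b ≠ c ∧ b ≠ d
      · rw [if_pos hcond]
        obtain ⟨k1, k2, k3, k4, k5⟩ := hcond
        have hZ : ¬ Z a b c d H := by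
          intro hZ
          have h := Z_mem hab (mem_cls.1 hH) k2 k3 k4 k5 hZ
          exact hcd ⟨h.1, Finset.mem_erase.2 ⟨k1.symm, h.2⟩⟩
        unfold stF Anti
        rw [if_neg hZ, if_neg hZ]
        norm_num
      · rw [if_neg hcond]
  simp only [h3]
  -- sums over T
  have h4 : ∀ (c : V) (ψ : V → ℝ), ∑ d : V, (if c ∈ T ∧ d ∈ T.erase c then ψ d else 0) =
      if c ∈ T then ∑ d ∈ T.erase c, ψ d else 0 := by
    intro c ψ
    by_cases hc : c ∈ T
    · rw [if_pos hc]
      have : ∀ d : V, (if c ∈ T ∧ d ∈ T.erase c then ψ d else 0) =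
          if d ∈ T.erase c then ψ d else 0 := by
        intro d
        exact if_congr ⟨fun h => h.2, fun h => ⟨hc, h⟩⟩ rfl rfl
      rw [Finset.sum_congr rfl fun d _ => this d, Finset.sum_ite_mem, Finset.univ_inter]
    · rw [if_neg hc]
      exact Finset.sum_eq_zero fun d _ => if_neg fun h => hc h.1
  simp only [h4]
  rw [Finset.sum_ite_mem, Finset.univ_inter]

end

theorem slice_graph (a b : V) (hab : a ≠ b) (f : SimpleGraph V → ℝ) :
    2 * ip (D a b f) (D a b f) ≤
      ∑ c : V, ∑ d : V, if c ≠ d ∧ a ≠ c ∧ a ≠ d ∧ b ≠ c ∧ b ≠ d then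
        ip (Anti a b c d f) (Anti a b c d f) - B a b c d f else 0 := by
  -- averaging over the classes preserves the total sum
  have hsum : ∀ φ : SimpleGraph V → ℝ, ∑ G, avg (pairRel a b) φ G = ∑ G, φ G := by
    intro φ
    have h := avg_symm (pairRel a b) φ (fun _ => (1 : ℝ))
    have h1 : avg (pairRel a b) (fun _ : SimpleGraph V => (1 : ℝ)) = fun _ => 1 :=
      avg_of_inv _ _ (fun _ _ _ => rfl)
    rw [h1] at h
    unfold ip at h
    simpa using h
  set φ₁ : SimpleGraph V → ℝ := fun H => D a b f H ^ 2 with hφ₁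
  set φ₂ : SimpleGraph V → ℝ := fun H => ∑ c : V, ∑ d : V,
    if c ≠ d ∧ a ≠ c ∧ a ≠ d ∧ b ≠ c ∧ b ≠ d then stF a b f c d H else 0 with hφ₂
  have hkey : 2 * ∑ G, φ₁ G ≤ ∑ G, φ₂ G := by
    rw [← hsum φ₁, ← hsum φ₂, Finset.mul_sum]
    refine Finset.sum_le_sum fun G _ => ?_
    rw [avg_def, avg_def, ← mul_div_assoc]
    exact div_le_div_of_nonneg_right (st_local hab f G) (cls_card_pos _ _).le
  have h1 : ip (D a b f) (D a b f) = ∑ G, φ₁ G := by
    unfold ip
    exact Finset.sum_congr rfl fun G _ => by rw [hφ₁]; ring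
  have h2 : ∑ G, φ₂ G = ∑ c : V, ∑ d : V, if c ≠ d ∧ a ≠ c ∧ a ≠ d ∧ b ≠ c ∧ b ≠ d then
        ip (Anti a b c d f) (Anti a b c d f) - B a b c d f else 0 := by
    rw [hφ₂, Finset.sum_comm]
    refine Finset.sum_congr rfl fun c _ => ?_
    rw [Finset.sum_comm]
    refine Finset.sum_congr rfl fun d _ => ?_
    by_cases hcond : c ≠ d ∧ a ≠ c ∧ a ≠ d ∧ b ≠ c ∧ b ≠ d
    · simp only [if_pos hcond]
      unfold stF ip B
      rw [Finset.sum_sub_distrib]
      congr 1
      exact Finset.sum_congr rfl fun G _ => by ring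
    · simp only [if_neg hcond]
      exact Finset.sum_const_zero
  rw [h1, ← h2]
  exact hkey

end Vale.Agent.P335
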