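import Vale.Agent.P335.Transfer
import Vale.Agent.P335.Disjoint
import Vale.Agent.P335.SliceTransfer
import Vale.Agent.P335.Connect
import Vale.Agent.P335.LinAlg
import Vale.Agent.P335.PairBasic

/-! # The spectral gap -/

open scoped Classical

namespace Vale.Agent.P335

variable {V : Type*} [Fintype V]

/-! ### elementary properties of `D` -/

theorem pairRel_comm (a b : V) : pairRel a b = pairRel b a := by
  ext G H
  constructor
  · rintro ⟨h1, h2⟩
    exact ⟨fun u v huv => h1 u v (by rw [or_comm, huv, or_comm]), h2⟩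
  · rintro ⟨h1, h2⟩
    exact ⟨fun u v huv => h1 u v (by rw [or_comm, huv, or_comm]), h2⟩

theorem D_comm (a b : V) (f : SimpleGraph V → ℝ) : D a b f = D b a f := by
  funext G; unfold D E; rw [pairRel_comm]

theorem D_eq (a b : V) (f : SimpleGraph V → ℝ) : D a b f = f - avg (pairRel a b) f := rfl

theorem D_self (a : V) (f : SimpleGraph V → ℝ) : D a a f = 0 := by
  rw [D_eq, avg_of_inv, sub_self]
  intro G H h
  congr 1
  have key : ∀ v, v ≠ a → (G.Adj v a ↔ H.Adj v a) := by
    intro v hv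
    have hd := h.2 v
    rw [deg_eq_sum, deg_eq_sum, ← Finset.sum_erase_add Finset.univ _ (Finset.mem_univ a),
      ← Finset.sum_erase_add Finset.univ (fun w => if H.Adj v w then 1 else 0)
        (Finset.mem_univ a)] at hd
    have hrest : (∑ w ∈ Finset.univ.erase a, if G.Adj v w then 1 else 0) =
        ∑ w ∈ Finset.univ.erase a, if H.Adj v w then 1 else 0 := by
      refine Finset.sum_congr rfl (fun w hw => ?_)
      have : G.Adj v w ↔ H.Adj v w := h.1 v w (by
        have := (Finset.mem_erase.1 hw).1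
        tauto)
      simp only [this]
    rw [hrest] at hd
    by_cases x : G.Adj v a <;> by_cases y : H.Adj v a <;> simp [x, y] at hd ⊢
  ext u v
  by_cases hu : u = a
  · by_cases hv : v = a
    · rw [hu, hv]; simp
    · rw [hu, G.adj_comm, H.adj_comm]; exact key v hv
  · by_cases hv : v = a
    · rw [hv]; exact key u hu
    · exact h.1 u v (by tauto)

theorem D_symm (a b : V) (f g : SimpleGraph V → ℝ) : ip (D a b f) g = ip f (D a b g) := by
  rw [D_eq, D_eq, ip_sub_left, ip_sub_right, avg_symm]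

theorem ip_D (a b : V) (f : SimpleGraph V → ℝ) : ip f (D a b f) = ip (D a b f) (D a b f) := by
  simp only [D_eq, ip_sub_left, ip_sub_right, avg_symm, avg_idem, ip_comm (avg (pairRel a b) f) f]
  ring

theorem L_eq (f : SimpleGraph V → ℝ) : L f = ∑ a : V, ∑ b : V, D a b f := by
  funext G
  unfold L
  simp only [Finset.sum_apply]

theorem ip_sum_left' {X ι : Type*} [Fintype X] (s : Finset ι) (g : ι → X → ℝ) (f : X → ℝ) :
    ip (∑ j ∈ s, g j) f = ∑ j ∈ s, ip (g j) f := by
  unfold ip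
  rw [Finset.sum_comm]
  exact Finset.sum_congr rfl (fun X _ => by rw [Finset.sum_apply, Finset.sum_mul])

theorem ip_sum_right' {X ι : Type*} [Fintype X] (s : Finset ι) (g : ι → X → ℝ) (f : X → ℝ) :
    ip f (∑ j ∈ s, g j) = ∑ j ∈ s, ip f (g j) := by
  rw [ip_comm, ip_sum_left']; exact Finset.sum_congr rfl (fun _ _ => ip_comm _ _)

theorem ip_L (f : SimpleGraph V → ℝ) :
    ip f (L f) = ∑ a : V, ∑ b : V, ip (D a b f) (D a b f) := by
  rw [L_eq]
  simp only [ip_sum_right', ip_D]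

theorem ip_L_L (f : SimpleGraph V → ℝ) :
    ip (L f) (L f) = ∑ a : V, ∑ b : V, ∑ c : V, ∑ d : V, ip (D a b f) (D c d f) := by
  have h1 : ∀ g : SimpleGraph V → ℝ, ip g (L f) = ∑ c : V, ∑ d : V, ip g (D c d f) := by
    intro g
    rw [L_eq, ip_sum_right']
    exact Finset.sum_congr rfl (fun c _ => ip_sum_right' _ _ _)
  have h2 : ip (L f) (L f) = ∑ a : V, ∑ b : V, ip (D a b f) (L f) := by
    conv_lhs => rw [ip_comm]
    rw [h1]
    exact Finset.sum_congr rfl (fun a _ => Finset.sum_congr rfl (fun b _ => ip_comm _ _))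
  rw [h2]
  exact Finset.sum_congr rfl (fun a _ => Finset.sum_congr rfl (fun b _ => h1 _))

/-! ### combinatorial bookkeeping -/

/-- splitting a double sum over ordered pairs according to the intersection with `{a,b}` -/
theorem sum_split {a b : V} (hab : a ≠ b) (y : V → V → ℝ) (hdiag : ∀ c, y c c = 0)
    (hsym : ∀ c d, y c d = y d c) :
    ∑ c, ∑ d, y c d = 2 * y a b +
      2 * (∑ d, if a ≠ d ∧ b ≠ d then y a d + y b d else 0) +
      ∑ c, ∑ d, if c ≠ d ∧ a ≠ c ∧ a ≠ d ∧ b ≠ c ∧ b ≠ d then y c d else 0 := by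
  set S := (Finset.univ.erase a).erase b with hS
  have hmem : ∀ c, c ∈ S ↔ a ≠ c ∧ b ≠ c := by
    intro c; rw [hS, Finset.mem_erase, Finset.mem_erase]
    simp only [Finset.mem_univ, and_true]
    constructor
    · rintro ⟨h1, h2⟩; exact ⟨h2.symm, h1.symm⟩
    · rintro ⟨h1, h2⟩; exact ⟨h2.symm, h1.symm⟩
  have hsplit : ∀ F : V → ℝ, ∑ c, F c = F a + F b + ∑ c ∈ S, F c := by
    intro F
    rw [← Finset.sum_erase_add Finset.univ _ (Finset.mem_univ a),
      ← Finset.sum_erase_add (Finset.univ.erase a) _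
        (Finset.mem_erase.2 ⟨hab.symm, Finset.mem_univ b⟩)]
    ring
  have h1 : ∀ F : V → ℝ, (∑ d, if a ≠ d ∧ b ≠ d then F d else 0) = ∑ d ∈ S, F d := by
    intro F
    rw [← Finset.sum_filter]
    refine Finset.sum_congr ?_ (fun _ _ => rfl)
    ext c; rw [Finset.mem_filter, hmem]; simp
  have h2 : (∑ c, ∑ d, if c ≠ d ∧ a ≠ c ∧ a ≠ d ∧ b ≠ c ∧ b ≠ d then y c d else 0) =
      ∑ c ∈ S, ∑ d ∈ S, y c d := by
    rw [← h1]
    refine Finset.sum_congr rfl (fun c _ => ?_)
    by_cases hc : a ≠ c ∧ b ≠ c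
    · rw [if_pos hc, ← h1]
      refine Finset.sum_congr rfl (fun d _ => ?_)
      by_cases hcd : c = d
      · subst hcd
        rw [if_neg (fun h => h.1 rfl), hdiag, ite_self]
      · by_cases hd : a ≠ d ∧ b ≠ d
        · rw [if_pos ⟨hcd, hc.1, hd.1, hc.2, hd.2⟩, if_pos hd]
        · rw [if_neg (fun h => hd ⟨h.2.2.1, h.2.2.2.2⟩), if_neg hd]
    · rw [if_neg hc]
      exact Finset.sum_eq_zero (fun d _ => if_neg (fun h => hc ⟨h.2.1, h.2.2.2.1⟩))
  rw [h1, h2, hsplit (fun c => ∑ d, y c d), hsplit (fun d => y a d), hsplit (fun d => y b d),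
    Finset.sum_congr rfl (fun c (_ : c ∈ S) => hsplit (fun d => y c d)),
    Finset.sum_add_distrib, Finset.sum_add_distrib, Finset.sum_add_distrib, hdiag, hdiag,
    hsym b a, Finset.sum_congr rfl (fun c (_ : c ∈ S) => hsym c a),
    Finset.sum_congr rfl (fun c (_ : c ∈ S) => hsym c b)]
  ring

/-- the sum over ordered distinct triples of `⟨D_ab f, D_ad f⟩` -/
noncomputable def Tsum (f : SimpleGraph V → ℝ) : ℝ :=
  ∑ a : V, ∑ b : V, ∑ d : V, if a ≠ b ∧ a ≠ d ∧ b ≠ d then ip (D a b f) (D a d f) else 0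

theorem sum3_rev (G : V → V → V → ℝ) : ∑ a, ∑ b, ∑ d, G a b d = ∑ d, ∑ b, ∑ a, G a b d := by
  calc ∑ a, ∑ b, ∑ d, G a b d = ∑ a, ∑ d, ∑ b, G a b d :=
        Finset.sum_congr rfl (fun a _ => Finset.sum_comm)
    _ = ∑ d, ∑ a, ∑ b, G a b d := Finset.sum_comm
    _ = ∑ d, ∑ b, ∑ a, G a b d := Finset.sum_congr rfl (fun a _ => Finset.sum_comm)

theorem Tsum_nonneg (f : SimpleGraph V → ℝ) : 0 ≤ Tsum f := by
  have h3 : 3 * Tsum f = ∑ a : V, ∑ b : V, ∑ d : V, if a ≠ b ∧ a ≠ d ∧ b ≠ d then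
      ip (D a b f) (D b d f) + ip (D b d f) (D a d f) + ip (D a b f) (D a d f) else 0 := by
    have e1 : Tsum f = ∑ a : V, ∑ b : V, ∑ d : V,
        if a ≠ b ∧ a ≠ d ∧ b ≠ d then ip (D a b f) (D b d f) else 0 := by
      unfold Tsum
      rw [Finset.sum_comm]
      refine Finset.sum_congr rfl (fun b _ => Finset.sum_congr rfl (fun a _ =>
        Finset.sum_congr rfl (fun d _ => ?_)))
      by_cases h : b ≠ a ∧ b ≠ d ∧ a ≠ d
      · rw [if_pos h, if_pos ⟨h.1.symm, h.2.2, h.2.1⟩, D_comm a b]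
      · rw [if_neg h, if_neg (fun h' => h ⟨h'.1.symm, h'.2.2, h'.2.1⟩)]
    have e2 : Tsum f = ∑ a : V, ∑ b : V, ∑ d : V,
        if a ≠ b ∧ a ≠ d ∧ b ≠ d then ip (D b d f) (D a d f) else 0 := by
      unfold Tsum
      rw [sum3_rev]
      refine Finset.sum_congr rfl (fun a _ => Finset.sum_congr rfl (fun b _ =>
        Finset.sum_congr rfl (fun d _ => ?_)))
      by_cases h : a ≠ b ∧ a ≠ d ∧ b ≠ d
      · rw [if_pos h, if_pos ⟨h.2.2.symm, h.2.1.symm, h.1.symm⟩, D_comm d b, D_comm d a]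
      · rw [if_neg h, if_neg (fun h' => h ⟨h'.2.2.symm, h'.2.1.symm, h'.1.symm⟩)]
    have e3 : 3 * Tsum f = Tsum f + Tsum f + Tsum f := by ring
    rw [e3]
    conv_lhs => rw [e1]
    conv_lhs =>
      arg 1
      arg 2
      rw [← e1, e2]
    conv_lhs =>
      arg 2
      rw [← e1]
    unfold Tsum
    rw [← Finset.sum_add_distrib, ← Finset.sum_add_distrib]
    refine Finset.sum_congr rfl (fun a _ => ?_)
    rw [← Finset.sum_add_distrib, ← Finset.sum_add_distrib]
    refine Finset.sum_congr rfl (fun b _ => ?_)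
    rw [← Finset.sum_add_distrib, ← Finset.sum_add_distrib]
    refine Finset.sum_congr rfl (fun d _ => ?_)
    by_cases h : a ≠ b ∧ a ≠ d ∧ b ≠ d
    · rw [if_pos h, if_pos h, if_pos h, if_pos h]
    · rw [if_neg h, if_neg h, if_neg h, if_neg h]; ring
  have h4 : 0 ≤ 3 * Tsum f := by
    rw [h3]
    refine Finset.sum_nonneg (fun a _ => Finset.sum_nonneg (fun b _ => Finset.sum_nonneg
      (fun d _ => ?_)))
    by_cases h : a ≠ b ∧ a ≠ d ∧ b ≠ d
    · rw [if_pos h]; exact triple_nonneg a b d h.1 h.2.2 h.2.1 f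
    · rw [if_neg h]
  linarith

/-- the condition that `a,b,c,d` are distinct -/
def dist4 (a b c d : V) : Prop := a ≠ b ∧ a ≠ c ∧ a ≠ d ∧ b ≠ c ∧ b ≠ d ∧ c ≠ d

/-- the sum over ordered distinct quadruples -/
noncomputable def Qsum (f : SimpleGraph V → ℝ) : ℝ :=
  ∑ a : V, ∑ b : V, ∑ c : V, ∑ d : V, if dist4 a b c d then ip (D a b f) (D c d f) else 0

theorem ip_L_L_split (f : SimpleGraph V → ℝ) :
    ip (L f) (L f) = 2 * ip f (L f) + 4 * Tsum f + Qsum f := by
  rw [ip_L_L, ip_L]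
  have h1 : ∀ a b : V, ∑ c : V, ∑ d : V, ip (D a b f) (D c d f) =
      2 * ip (D a b f) (D a b f) +
      2 * (∑ d, if a ≠ b ∧ a ≠ d ∧ b ≠ d then ip (D a b f) (D a d f) + ip (D a b f) (D b d f)
        else 0) +
      ∑ c, ∑ d, if dist4 a b c d then ip (D a b f) (D c d f) else 0 := by
    intro a b
    by_cases hab : a = b
    · subst hab
      have h0 : ∀ g : SimpleGraph V → ℝ, ip (D a a f) g = 0 := by
        intro g; rw [D_self]; unfold ip; simp
      simp [h0]
    · rw [sum_split hab (fun c d => ip (D a b f) (D c d f))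
        (fun c => by rw [D_self]; unfold ip; simp)
        (fun c d => by rw [D_comm c d])]
      congr 1
      · congr 2
        refine Finset.sum_congr rfl (fun d _ => ?_)
        by_cases h : a ≠ d ∧ b ≠ d
        · rw [if_pos h, if_pos ⟨hab, h.1, h.2⟩]
        · rw [if_neg h, if_neg (fun h' => h h'.2)]
      · refine Finset.sum_congr rfl (fun c _ => Finset.sum_congr rfl (fun d _ => ?_))
        by_cases h : c ≠ d ∧ a ≠ c ∧ a ≠ d ∧ b ≠ c ∧ b ≠ d
        · rw [if_pos h, if_pos ⟨hab, h.2.1, h.2.2.1, h.2.2.2.1, h.2.2.2.2, h.1⟩]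
        · rw [if_neg h, if_neg (fun h' => h ⟨h'.2.2.2.2.2, h'.2.1, h'.2.2.1, h'.2.2.2.1,
            h'.2.2.2.2.1⟩)]
  simp only [h1, Finset.sum_add_distrib, ← Finset.mul_sum]
  have h2 : (∑ a : V, ∑ b : V, ∑ d : V, if a ≠ b ∧ a ≠ d ∧ b ≠ d then
      ip (D a b f) (D a d f) + ip (D a b f) (D b d f) else 0) = 2 * Tsum f := by
    have e1 : Tsum f = ∑ a : V, ∑ b : V, ∑ d : V,
        if a ≠ b ∧ a ≠ d ∧ b ≠ d then ip (D a b f) (D b d f) else 0 := by
      unfold Tsum
      rw [Finset.sum_comm]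
      refine Finset.sum_congr rfl (fun b _ => Finset.sum_congr rfl (fun a _ =>
        Finset.sum_congr rfl (fun d _ => ?_)))
      by_cases h : b ≠ a ∧ b ≠ d ∧ a ≠ d
      · rw [if_pos h, if_pos ⟨h.1.symm, h.2.2, h.2.1⟩, D_comm a b]
      · rw [if_neg h, if_neg (fun h' => h ⟨h'.1.symm, h'.2.2, h'.2.1⟩)]
    have e3 : 2 * Tsum f = Tsum f + Tsum f := by ring
    rw [e3]
    conv_rhs =>
      arg 2
      rw [e1]
    unfold Tsum
    rw [← Finset.sum_add_distrib]
    refine Finset.sum_congr rfl (fun a _ => ?_)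
    rw [← Finset.sum_add_distrib]
    refine Finset.sum_congr rfl (fun b _ => ?_)
    rw [← Finset.sum_add_distrib]
    refine Finset.sum_congr rfl (fun d _ => ?_)
    by_cases h : a ≠ b ∧ a ≠ d ∧ b ≠ d
    · rw [if_pos h, if_pos h, if_pos h]
    · rw [if_neg h, if_neg h, if_neg h]; ring
  rw [h2]
  unfold Qsum
  ring

theorem sum4_swap (G : V → V → V → V → ℝ) :
    ∑ a, ∑ b, ∑ c, ∑ d, G a b c d = ∑ a, ∑ b, ∑ c, ∑ d, G c d a b := by
  calc ∑ a, ∑ b, ∑ c, ∑ d, G a b c d = ∑ a, ∑ c, ∑ b, ∑ d, G a b c d :=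
        Finset.sum_congr rfl (fun a _ => Finset.sum_comm)
    _ = ∑ c, ∑ a, ∑ b, ∑ d, G a b c d := Finset.sum_comm
    _ = ∑ c, ∑ a, ∑ d, ∑ b, G a b c d :=
        Finset.sum_congr rfl (fun c _ => Finset.sum_congr rfl (fun a _ => Finset.sum_comm))
    _ = ∑ c, ∑ d, ∑ a, ∑ b, G a b c d := Finset.sum_congr rfl (fun c _ => Finset.sum_comm)

theorem B_nonneg (a b c d : V) (f : SimpleGraph V → ℝ) : 0 ≤ B a b c d f := by
  unfold B
  refine Finset.sum_nonneg (fun G _ => ?_)
  by_cases h : Z a b c d G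
  · rw [if_pos h]; exact sq_nonneg _
  · rw [if_neg h]

theorem slice_graph_sum (f : SimpleGraph V → ℝ) :
    2 * ip f (L f) ≤ ∑ a : V, ∑ b : V, ∑ c : V, ∑ d : V,
      if dist4 a b c d then ip (Anti a b c d f) (Anti a b c d f) - B a b c d f else 0 := by
  rw [ip_L, Finset.mul_sum]
  refine Finset.sum_le_sum (fun a _ => ?_)
  rw [Finset.mul_sum]
  refine Finset.sum_le_sum (fun b _ => ?_)
  by_cases hab : a = b
  · subst hab
    have h0 : ip (D a a f) (D a a f) = 0 := by rw [D_self]; unfold ip; simp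
    rw [h0, mul_zero]
    refine Finset.sum_nonneg (fun c _ => Finset.sum_nonneg (fun d _ => ?_))
    rw [if_neg (fun h => h.1 rfl)]
  · refine (slice_graph a b hab f).trans (le_of_eq ?_)
    refine Finset.sum_congr rfl (fun c _ => Finset.sum_congr rfl (fun d _ => ?_))
    by_cases h : c ≠ d ∧ a ≠ c ∧ a ≠ d ∧ b ≠ c ∧ b ≠ d
    · rw [if_pos h, if_pos ⟨hab, h.2.1, h.2.2.1, h.2.2.2.1, h.2.2.2.2, h.1⟩]
    · rw [if_neg h, if_neg (fun h' => h ⟨h'.2.2.2.2.2, h'.2.1, h'.2.2.1, h'.2.2.2.1,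
        h'.2.2.2.2.1⟩)]

omit [Fintype V] in
theorem dist4_swap {a b c d : V} : dist4 a b c d ↔ dist4 c d a b := by
  unfold dist4
  constructor
  · rintro ⟨h1, h2, h3, h4, h5, h6⟩; exact ⟨h6, h2.symm, h4.symm, h3.symm, h5.symm, h1⟩
  · rintro ⟨h1, h2, h3, h4, h5, h6⟩; exact ⟨h6, h2.symm, h4.symm, h3.symm, h5.symm, h1⟩

theorem Qsum_ge (f : SimpleGraph V → ℝ) : 2 * ip f (L f) ≤ Qsum f := by
  refine (slice_graph_sum f).trans ?_
  have h1 : (∑ a : V, ∑ b : V, ∑ c : V, ∑ d : V, if dist4 a b c d then B a b c d f else 0) =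
      ∑ a : V, ∑ b : V, ∑ c : V, ∑ d : V, if dist4 a b c d then B c d a b f else 0 := by
    rw [sum4_swap]
    refine Finset.sum_congr rfl (fun a _ => Finset.sum_congr rfl (fun b _ =>
      Finset.sum_congr rfl (fun c _ => Finset.sum_congr rfl (fun d _ => ?_))))
    by_cases h : dist4 a b c d
    · rw [if_pos h, if_pos (dist4_swap.1 h)]
    · rw [if_neg h, if_neg (fun h' => h (dist4_swap.2 h'))]
  have h2 : (∑ a : V, ∑ b : V, ∑ c : V, ∑ d : V,
      if dist4 a b c d then ip (Anti a b c d f) (Anti a b c d f) - B a b c d f else 0) =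
      ∑ a : V, ∑ b : V, ∑ c : V, ∑ d : V,
      if dist4 a b c d then ip (Anti a b c d f) (Anti a b c d f) -
        (B a b c d f + B c d a b f) / 2 else 0 := by
    have h3 : ∀ (u v : V → V → V → V → ℝ), (∑ a : V, ∑ b : V, ∑ c : V, ∑ d : V,
        if dist4 a b c d then u a b c d - v a b c d else 0) =
        (∑ a : V, ∑ b : V, ∑ c : V, ∑ d : V, if dist4 a b c d then u a b c d else 0) -
        ∑ a : V, ∑ b : V, ∑ c : V, ∑ d : V, if dist4 a b c d then v a b c d else 0 := by
      intro u v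
      simp only [← Finset.sum_sub_distrib]
      refine Finset.sum_congr rfl (fun a _ => Finset.sum_congr rfl (fun b _ =>
        Finset.sum_congr rfl (fun c _ => Finset.sum_congr rfl (fun d _ => ?_))))
      by_cases h : dist4 a b c d
      · rw [if_pos h, if_pos h, if_pos h]
      · rw [if_neg h, if_neg h, if_neg h]; ring
    have h4 : (∑ a : V, ∑ b : V, ∑ c : V, ∑ d : V,
        if dist4 a b c d then (B a b c d f + B c d a b f) / 2 else 0) =
        ((∑ a : V, ∑ b : V, ∑ c : V, ∑ d : V, if dist4 a b c d then B a b c d f else 0) +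
        ∑ a : V, ∑ b : V, ∑ c : V, ∑ d : V, if dist4 a b c d then B c d a b f else 0) / 2 := by
      simp only [← Finset.sum_add_distrib, Finset.sum_div]
      refine Finset.sum_congr rfl (fun a _ => Finset.sum_congr rfl (fun b _ =>
        Finset.sum_congr rfl (fun c _ => Finset.sum_congr rfl (fun d _ => ?_))))
      by_cases h : dist4 a b c d
      · rw [if_pos h, if_pos h, if_pos h]
      · rw [if_neg h, if_neg h, if_neg h]; ring
    rw [h3 (fun a b c d => ip (Anti a b c d f) (Anti a b c d f)) (fun a b c d => B a b c d f),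
      h3 (fun a b c d => ip (Anti a b c d f) (Anti a b c d f))
        (fun a b c d => (B a b c d f + B c d a b f) / 2), h4, ← h1]
    ring
  rw [h2]
  unfold Qsum
  refine Finset.sum_le_sum (fun a _ => Finset.sum_le_sum (fun b _ =>
      Finset.sum_le_sum (fun c _ => Finset.sum_le_sum (fun d _ => ?_))))
  by_cases h : dist4 a b c d
  · rw [if_pos h, if_pos h]
    exact disjoint_ineq a b c d h.1 h.2.1 h.2.2.1 h.2.2.2.1 h.2.2.2.2.1 h.2.2.2.2.2 f
  · rw [if_neg h, if_neg h]

/-- `L² ≥ 4 L` (ordered-pair normalisation) -/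
theorem L_sq (f : SimpleGraph V → ℝ) : 4 * ip f (L f) ≤ ip (L f) (L f) := by
  rw [ip_L_L_split]
  have h1 := Tsum_nonneg f
  have h2 := Qsum_ge f
  linarith

/-- `D` as a linear map -/
noncomputable def DL (a b : V) : (SimpleGraph V → ℝ) →ₗ[ℝ] (SimpleGraph V → ℝ) :=
  coL (pairRel a b)

/-- `L` as a linear map -/
noncomputable def LL : (SimpleGraph V → ℝ) →ₗ[ℝ] (SimpleGraph V → ℝ) :=
  ∑ a : V, ∑ b : V, DL a b

theorem LL_apply (f : SimpleGraph V → ℝ) : LL f = L f := by
  rw [L_eq]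
  unfold LL
  simp only [LinearMap.sum_apply]
  rfl

theorem L_symm (f g : SimpleGraph V → ℝ) : ip (L f) g = ip f (L g) := by
  rw [L_eq, L_eq, ip_sum_left', ip_sum_right']
  refine Finset.sum_congr rfl (fun a _ => ?_)
  rw [ip_sum_left', ip_sum_right']
  exact Finset.sum_congr rfl (fun b _ => D_symm a b f g)

theorem ip_L_nonneg (f : SimpleGraph V → ℝ) : 0 ≤ ip f (L f) := by
  rw [ip_L]
  exact Finset.sum_nonneg (fun a _ => Finset.sum_nonneg (fun b _ => ip_self_nonneg _))

theorem eq_zero_of_ip_self {X : Type*} [Fintype X] {g : X → ℝ} (h : ip g g = 0) : g = 0 := by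
  unfold ip at h
  rw [Finset.sum_eq_zero_iff_of_nonneg (fun x _ => mul_self_nonneg _)] at h
  funext x
  exact mul_self_eq_zero.1 (h x (Finset.mem_univ x))

/-- functions in the kernel of `L` are constant on degree classes -/
theorem ker_L {g : SimpleGraph V → ℝ} (hg : L g = 0) (G H : SimpleGraph V)
    (hd : ∀ v, deg G v = deg H v) : g G = g H := by
  refine connected g (fun a b _ G H hGH => ?_) G H hd
  have h1 : ip g (L g) = 0 := by rw [hg]; unfold ip; simp
  rw [ip_L, Finset.sum_eq_zero_iff_of_nonneg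
    (fun a _ => Finset.sum_nonneg (fun b _ => ip_self_nonneg _))] at h1
  have h2 := h1 a (Finset.mem_univ a)
  rw [Finset.sum_eq_zero_iff_of_nonneg (fun b _ => ip_self_nonneg _)] at h2
  have h3 := eq_zero_of_ip_self (h2 b (Finset.mem_univ b))
  rw [D_eq, sub_eq_zero] at h3
  rw [h3]
  exact avg_eq_of_rel (pairRel a b) g hGH

/-- Poincaré inequality on each degree class -/
theorem L_gap (f : SimpleGraph V → ℝ)
    (hf : ∀ G : SimpleGraph V, ∑ H ∈ Finset.univ.filter (fun H => ∀ v, deg G v = deg H v), f H = 0) :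
    4 * ip f f ≤ ip f (L f) := by
  have h := poincare_of_sq (LL (V := V)) (fun f g => by rw [LL_apply, LL_apply]; exact L_symm f g)
    (fun f => by rw [LL_apply]; exact ip_L_nonneg f) 4 (by norm_num)
    (fun f => by rw [LL_apply]; exact L_sq f) f ?_
  · rw [LL_apply] at h; exact h
  · intro g hg
    rw [LL_apply] at hg
    let r : Setoid (SimpleGraph V) :=
      { r := fun G H => ∀ v, deg G v = deg H v
        iseqv := ⟨fun _ _ => rfl, fun h v => (h v).symm, fun h k v => (h v).trans (k v)⟩ }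
    have h1 : avg r g = g := avg_of_inv r g (fun G H h => ker_L hg G H h)
    have h2 : avg r f = 0 := by
      funext G
      have : (∑ H ∈ cls r G, f H) = 0 := by
        rw [← hf G]
        refine Finset.sum_congr ?_ (fun _ _ => rfl)
        ext H
        rw [mem_cls, Finset.mem_filter]
        exact ⟨fun h => ⟨Finset.mem_univ H, h⟩, fun h => h.2⟩
      rw [avg_def, this, zero_div]; rfl
    rw [← h1, ← avg_symm, h2]
    unfold ip; simp

/-- the switch form of the gap -/
theorem sw_gap (f : SimpleGraph V → ℝ)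
    (hf : ∀ G : SimpleGraph V, ∑ H ∈ Finset.univ.filter (fun H => ∀ v, deg G v = deg H v), f H = 0) :
    8 * ip f f ≤ ∑ a : V, ∑ b : V, ∑ c : V, ∑ e : V,
      if dist4 a b c e then ip (Anti a b c e f) (Anti a b c e f) else 0 := by
  have h1 := L_gap f hf
  have h2 := slice_graph_sum f
  have h3 : (∑ a : V, ∑ b : V, ∑ c : V, ∑ d : V,
      if dist4 a b c d then ip (Anti a b c d f) (Anti a b c d f) - B a b c d f else 0) ≤
      ∑ a : V, ∑ b : V, ∑ c : V, ∑ e : V,
      if dist4 a b c e then ip (Anti a b c e f) (Anti a b c e f) else 0 := by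
    refine Finset.sum_le_sum (fun a _ => Finset.sum_le_sum (fun b _ =>
      Finset.sum_le_sum (fun c _ => Finset.sum_le_sum (fun d _ => ?_))))
    by_cases h : dist4 a b c d
    · rw [if_pos h, if_pos h]
      have := B_nonneg a b c d f
      linarith
    · rw [if_neg h, if_neg h]
  linarith

/-- `sw_gap` for an arbitrary `Fintype` instance on the graphs, with `dist4` -/
theorem sw_gap_inst (i : Fintype (SimpleGraph V)) (f : SimpleGraph V → ℝ)
    (hf : ∀ G : SimpleGraph V, ∑ H ∈ (@Finset.univ (SimpleGraph V) i).filter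
      (fun H => ∀ v, deg G v = deg H v), f H = 0) :
    8 * @ip _ i f f ≤ ∑ a : V, ∑ b : V, ∑ c : V, ∑ e : V,
      if dist4 a b c e then @ip _ i (Anti a b c e f) (Anti a b c e f) else 0 := by
  have hi : i = instFintypeSimpleGraphOfDecidableEq := Subsingleton.elim _ _
  subst hi
  exact sw_gap f hf

end Vale.Agent.P335
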