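import Vale.Agent.P335.P3b
import Vale.Agent.P335.LinAlg

/-! # The three-column theorem `L₃ ≤ L₃²` -/

open scoped Classical

namespace Vale.Agent.P335

variable {ι : Type*} [Fintype ι]

/-- `L₃` as a linear map -/
noncomputable def L3L : (Mat ι → ℝ) →ₗ[ℝ] (Mat ι → ℝ) :=
  ∑ j : Fin 3, (LinearMap.id - avgL (colRel j))

theorem L3L_apply (f : Mat ι → ℝ) : L3L f = L3 f := by
  funext X
  unfold L3L L3
  simp only [LinearMap.sum_apply, Finset.sum_apply, LinearMap.sub_apply, LinearMap.id_apply,
    Pi.sub_apply]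
  rfl

theorem L3_eq (f : Mat ι → ℝ) (X : Mat ι) : L3 f X = 3 * f X - ∑ j, avg (colRel j) f X := by
  unfold L3
  rw [Finset.sum_sub_distrib]; simp

theorem L3_eq' (f : Mat ι → ℝ) : L3 f = (3 : ℝ) • f - ∑ j, avg (colRel j) f := by
  funext X; rw [L3_eq]; simp

theorem ip_sum_right (s : Finset (Fin 3)) (f : Mat ι → ℝ) (g : Fin 3 → Mat ι → ℝ) :
    ip f (∑ j ∈ s, g j) = ∑ j ∈ s, ip f (g j) := by
  unfold ip
  rw [Finset.sum_comm]
  exact Finset.sum_congr rfl (fun X _ => by rw [Finset.sum_apply, Finset.mul_sum])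

theorem L3_symm (f g : Mat ι → ℝ) : ip (L3 f) g = ip f (L3 g) := by
  rw [L3_eq', L3_eq', ip_sub_left, ip_sub_right, ip_smul_left, ip_smul_right]
  congr 1
  rw [ip_comm, ip_sum_right, ip_sum_right]
  exact Finset.sum_congr rfl (fun j _ => by rw [ip_comm, avg_symm])

theorem L3_sq (f : Mat ι → ℝ) : ip f (L3 f) ≤ ip (L3 f) (L3 f) := by
  have h := sq_ge_of_eig (L3L (ι := ι)) (fun f g => by rw [L3L_apply, L3L_apply]; exact L3_symm f g)
    (fun μ f hf0 hf => by
      rw [L3L_apply] at hf
      by_contra hμ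
      push Not at hμ
      have hμ0 : 0 < μ := by nlinarith [sq_nonneg μ]
      have hμ1 : μ < 1 := by nlinarith
      have heig : ∀ X, ∑ j, avg (colRel j) f X = (3 - μ) * f X := by
        intro X
        have h1 := congrFun hf X
        rw [L3_eq] at h1
        simp only [Pi.smul_apply, smul_eq_mul] at h1
        linarith
      have hl : (2 : ℝ) < 3 - μ := by linarith
      have hinv := eig_rowSwap (3 - μ) hl f heig
      have hc := eig_const (3 - μ) hl f heig hinv
      have havg : ∀ j, avg (colRel j) f = f := fun j =>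
        avg_of_inv (colRel j) f (fun X Y h => hc X Y h.2.1 h.2.2)
      apply hf0
      funext X
      have h1 := heig X
      simp only [havg] at h1
      simp only [Finset.sum_const, Finset.card_univ, Fintype.card_fin, nsmul_eq_mul] at h1
      have h2 : μ * f X = 0 := by push_cast at h1; linarith
      rcases mul_eq_zero.1 h2 with h3 | h3
      · exact absurd h3 hμ0.ne'
      · exact h3) f
  rw [L3L_apply] at h
  exact h

end Vale.Agent.P335
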