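import Vale.Agent.P335.AvgBasic

/-! # Three columns, step (a): eigenfunctions with eigenvalue > 2 are invariant under row swaps -/

open scoped Classical

namespace Vale.Agent.P335

variable {ι : Type*} [Fintype ι]

/-- swap rows `u` and `v` if they have the same row sum -/
noncomputable def rowSwap (u v : ι) (X : Mat ι) : Mat ι :=
  if ∑ k, (X u k).toNat = ∑ k, (X v k).toNat then fun i => X (Equiv.swap u v i) else X

omit [Fintype ι] in
theorem rowSwap_pos {u v : ι} {X : Mat ι} (h : ∑ k, (X u k).toNat = ∑ k, (X v k).toNat) :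
    rowSwap u v X = fun i => X (Equiv.swap u v i) := by
  unfold rowSwap; rw [if_pos h]

omit [Fintype ι] in
theorem rowSwap_neg {u v : ι} {X : Mat ι} (h : ¬ ∑ k, (X u k).toNat = ∑ k, (X v k).toNat) :
    rowSwap u v X = X := by
  unfold rowSwap; rw [if_neg h]

omit [Fintype ι] in
theorem rowSwap_invol (u v : ι) (X : Mat ι) : rowSwap u v (rowSwap u v X) = X := by
  by_cases h : ∑ k, (X u k).toNat = ∑ k, (X v k).toNat
  · rw [rowSwap_pos h]
    have h' : ∑ k, ((fun i => X (Equiv.swap u v i)) u k).toNat =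
        ∑ k, ((fun i => X (Equiv.swap u v i)) v k).toNat := by
      simp only [Equiv.swap_apply_left, Equiv.swap_apply_right]; exact h.symm
    have h2 := rowSwap_pos (u := u) (v := v) (X := fun i => X (Equiv.swap u v i)) h'
    rw [h2]
    funext i
    simp
  · rw [rowSwap_neg h, rowSwap_neg h]

/-- `rowSwap` as an equivalence -/
noncomputable def rowSwapEquiv (u v : ι) : Mat ι ≃ Mat ι where
  toFun := rowSwap u v
  invFun := rowSwap u v
  left_inv := rowSwap_invol u v
  right_inv := rowSwap_invol u v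

theorem rowSwap_rel {j : Fin 3} (u v : ι) {X Y : Mat ι} (h : colRel j X Y) :
    colRel j (rowSwap u v X) (rowSwap u v Y) := by
  obtain ⟨h1, h2, h3⟩ := h
  by_cases hX : ∑ k, (X u k).toNat = ∑ k, (X v k).toNat
  · have hY : ∑ k, (Y u k).toNat = ∑ k, (Y v k).toNat := by rw [← h2, ← h2, hX]
    rw [rowSwap_pos hX, rowSwap_pos hY]
    refine ⟨fun i => h1 _, fun i => h2 _, fun k => ?_⟩
    rw [Equiv.sum_comp (Equiv.swap u v) (fun i => (X i k).toNat),
      Equiv.sum_comp (Equiv.swap u v) (fun i => (Y i k).toNat)]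
    exact h3 k
  · have hY : ¬ ∑ k, (Y u k).toNat = ∑ k, (Y v k).toNat := by rw [← h2, ← h2]; exact hX
    rw [rowSwap_neg hX, rowSwap_neg hY]
    exact ⟨h1, h2, h3⟩

theorem rowSwap_rel_iff {j : Fin 3} (u v : ι) (X Y : Mat ι) :
    colRel j X Y ↔ colRel j (rowSwapEquiv u v X) (rowSwapEquiv u v Y) := by
  constructor
  · exact rowSwap_rel u v
  · intro h
    have := rowSwap_rel u v h
    simpa only [rowSwapEquiv, Equiv.coe_fn_mk, rowSwap_invol] using this

theorem avg_rowSwap (j : Fin 3) (u v : ι) (f : Mat ι → ℝ) (X : Mat ι) :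
    avg (colRel j) (fun Y => f (rowSwap u v Y)) X = avg (colRel j) f (rowSwap u v X) :=
  avg_comp_equiv (colRel j) (rowSwapEquiv u v) (rowSwap_rel_iff u v) f X

theorem exists_common_col : ∀ p q : Fin 3 → Bool,
    ∑ k, (p k).toNat = ∑ k, (q k).toNat → ∃ j, p j = q j := by
  decide

/-- there is a column `j` in which `X` and `rowSwap u v X` are related -/
theorem exists_rel_rowSwap (u v : ι) (X : Mat ι) : ∃ j, colRel j X (rowSwap u v X) := by
  by_cases hX : ∑ k, (X u k).toNat = ∑ k, (X v k).toNat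
  · obtain ⟨j, hj⟩ := exists_common_col (X u) (X v) hX
    refine ⟨j, ?_⟩
    rw [rowSwap_pos hX]
    refine ⟨fun i => ?_, fun i => ?_, fun k => ?_⟩
    · change X i j = X (Equiv.swap u v i) j
      by_cases hu : i = u
      · subst hu; rw [Equiv.swap_apply_left]; exact hj
      · by_cases hv : i = v
        · subst hv; rw [Equiv.swap_apply_right]; exact hj.symm
        · rw [Equiv.swap_apply_of_ne_of_ne hu hv]
    · change ∑ k, (X i k).toNat = ∑ k, (X (Equiv.swap u v i) k).toNat
      by_cases hu : i = u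
      · subst hu; rw [Equiv.swap_apply_left]; exact hX
      · by_cases hv : i = v
        · subst hv; rw [Equiv.swap_apply_right]; exact hX.symm
        · rw [Equiv.swap_apply_of_ne_of_ne hu hv]
    · exact (Equiv.sum_comp (Equiv.swap u v) (fun i => (X i k).toNat)).symm
  · exact ⟨0, by rw [rowSwap_neg hX]⟩

theorem eig_rowSwap (lam : ℝ) (hl : 2 < lam) (f : Mat ι → ℝ)
    (hf : ∀ X, ∑ j, avg (colRel j) f X = lam * f X) (u v : ι) (X : Mat ι) :
    f (rowSwap u v X) = f X := by
  set g : Mat ι → ℝ := fun Y => f Y - f (rowSwap u v Y) with hg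
  have hgf : g = f - (fun Y => f (rowSwap u v Y)) := rfl
  have havg : ∀ j Y, avg (colRel j) g Y = avg (colRel j) f Y - avg (colRel j) f (rowSwap u v Y) := by
    intro j Y
    rw [hgf, avg_sub, Pi.sub_apply, avg_rowSwap]
  have heig : ∀ Y, ∑ j, avg (colRel j) g Y = lam * g Y := by
    intro Y
    simp only [havg]
    rw [Finset.sum_sub_distrib, hf, hf, hg]; ring
  have hpt : ∀ Y, (lam * g Y) ^ 2 ≤ 2 * ∑ j, (avg (colRel j) g Y) ^ 2 := by
    intro Y
    rw [← heig Y]
    obtain ⟨j, hj⟩ := exists_rel_rowSwap u v Y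
    have h0 : avg (colRel j) g Y = 0 := by
      rw [havg, avg_eq_of_rel (colRel j) f hj, sub_self]
    rw [Fin.sum_univ_three, Fin.sum_univ_three]
    fin_cases j
    · simp only [Fin.zero_eta] at h0
      rw [h0]
      nlinarith [sq_nonneg (avg (colRel 1) g Y - avg (colRel 2) g Y)]
    · simp only [Fin.mk_one] at h0
      rw [h0]
      nlinarith [sq_nonneg (avg (colRel 0) g Y - avg (colRel 2) g Y)]
    · simp only [Fin.reduceFinMk] at h0
      rw [h0]
      nlinarith [sq_nonneg (avg (colRel 0) g Y - avg (colRel 1) g Y)]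
  have hsum : lam ^ 2 * ip g g ≤ 2 * (lam * ip g g) := by
    have h1 : lam ^ 2 * ip g g = ∑ Y, (lam * g Y) ^ 2 := by
      unfold ip; rw [Finset.mul_sum]; exact Finset.sum_congr rfl (fun Y _ => by ring)
    have h2 : ∑ Y, (2 * ∑ j, (avg (colRel j) g Y) ^ 2) = 2 * (lam * ip g g) := by
      rw [← Finset.mul_sum, Finset.sum_comm]
      congr 1
      have h3 : ∀ j : Fin 3, ∑ Y, (avg (colRel j) g Y) ^ 2 = ip g (avg (colRel j) g) := by
        intro j
        rw [ip_avg_self]; unfold ip
        exact Finset.sum_congr rfl (fun Y _ => by ring)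
      rw [Finset.sum_congr rfl (fun j _ => h3 j)]
      unfold ip
      rw [Finset.sum_comm, Finset.mul_sum]
      refine Finset.sum_congr rfl (fun Y _ => ?_)
      rw [← Finset.mul_sum, heig]; ring
    rw [h1, ← h2]
    exact Finset.sum_le_sum (fun Y _ => hpt Y)
  have hnn := ip_self_nonneg g
  have hz : ip g g = 0 := by
    by_contra hne
    have hpos : 0 < ip g g := lt_of_le_of_ne hnn (Ne.symm hne)
    have h1 : 0 < lam * (lam - 2) := mul_pos (by linarith) (by linarith)
    have h2 := mul_pos h1 hpos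
    nlinarith
  have hz' : ∀ Y, g Y = 0 := by
    unfold ip at hz
    rw [Finset.sum_eq_zero_iff_of_nonneg (fun x _ => mul_self_nonneg _)] at hz
    intro Y
    exact mul_self_eq_zero.1 (hz Y (Finset.mem_univ Y))
  have := hz' X
  rw [hg] at this
  simp only at this
  linarith

end Vale.Agent.P335
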