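import Mathlib

/-! # A coupling of `α`-subsets of `T` with `(α+1)`-subsets of `T ∪ {u,v}` -/

open scoped Classical

namespace Vale.Agent.P335

variable {ι : Type*}

/-- double counting of flags -/
theorem P3c_flag (T : Finset ι) (a : ℕ) (Φ : Finset ι → ι → ℝ) :
    ∑ S ∈ T.powersetCard (a + 1), ∑ w ∈ S, Φ (S.erase w) w =
      ∑ S ∈ T.powersetCard a, ∑ w ∈ T \ S, Φ S w := by
  rw [Finset.sum_sigma', Finset.sum_sigma']
  refine Finset.sum_bij' (fun p _ => ⟨p.1.erase p.2, p.2⟩) (fun p _ => ⟨insert p.2 p.1, p.2⟩)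
    ?_ ?_ ?_ ?_ ?_
  · rintro ⟨S, w⟩ h
    simp only [Finset.mem_sigma, Finset.mem_powersetCard, Finset.mem_sdiff] at h ⊢
    obtain ⟨⟨h1, h2⟩, h3⟩ := h
    refine ⟨⟨(Finset.erase_subset _ _).trans h1, ?_⟩, h1 h3, Finset.notMem_erase _ _⟩
    rw [Finset.card_erase_of_mem h3, h2]
    rfl
  · rintro ⟨S, w⟩ h
    simp only [Finset.mem_sigma, Finset.mem_powersetCard, Finset.mem_sdiff] at h ⊢
    obtain ⟨⟨h1, h2⟩, h3, h4⟩ := h
    refine ⟨⟨Finset.insert_subset h3 h1, ?_⟩, Finset.mem_insert_self _ _⟩
    rw [Finset.card_insert_of_notMem h4, h2]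
  · rintro ⟨S, w⟩ h
    simp only [Finset.mem_sigma, Finset.mem_powersetCard] at h
    simp only [Finset.insert_erase h.2]
  · rintro ⟨S, w⟩ h
    simp only [Finset.mem_sigma, Finset.mem_powersetCard, Finset.mem_sdiff] at h
    simp only [Finset.erase_insert h.2.2]
  · rintro ⟨S, w⟩ h
    rfl

/-- the local sum of a function around an `α`-subset -/
noncomputable def P3cBr (T : Finset ι) (u v : ι) (α : ℕ) (F : Finset ι → ℝ) (S : Finset ι) : ℝ :=
  F (insert u S) + F (insert v S) + (1 / ((α : ℝ) + 1)) * ∑ w ∈ T \ S, F (insert w S) +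
    (1 / ((T.card : ℝ) - α + 1)) * ∑ w ∈ S, F (insert u (insert v (S.erase w)))

theorem P3c_sum (T : Finset ι) (u v : ι) (hu : u ∉ T) (hv : v ∉ T) (huv : u ≠ v) (α : ℕ)
    (hα : α ≤ T.card) (F : Finset ι → ℝ) :
    ∑ S ∈ (insert u (insert v T)).powersetCard (α + 1), F S =
      ∑ S ∈ T.powersetCard α, P3cBr T u v α F S := by
  have huv' : u ∉ insert v T := by
    rw [Finset.mem_insert]; tauto
  have hins : ∀ (x : ι) (U : Finset ι), x ∉ U → ∀ (a : ℕ) (F : Finset ι → ℝ),
      ∑ S ∈ (insert x U).powersetCard (a + 1), F S =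
        ∑ S ∈ U.powersetCard (a + 1), F S + ∑ S ∈ U.powersetCard a, F (insert x S) := by
    intro x U hx a F
    rw [Finset.powersetCard_succ_insert hx, Finset.sum_union]
    · congr 1
      rw [Finset.sum_image]
      intro A hA B hB hAB
      have hA' := (Finset.mem_powersetCard.1 hA).1
      have hB' := (Finset.mem_powersetCard.1 hB).1
      rw [← Finset.erase_insert (fun h => hx (hA' h)), hAB,
        Finset.erase_insert (fun h => hx (hB' h))]
    · rw [Finset.disjoint_left]
      intro A hA hB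
      rw [Finset.mem_image] at hB
      obtain ⟨B, _, rfl⟩ := hB
      exact hx ((Finset.mem_powersetCard.1 hA).1 (Finset.mem_insert_self _ _))
  rw [hins u _ huv', hins v _ hv]
  -- the (α+1)-subsets of T
  have h1 : ∑ S ∈ T.powersetCard (α + 1), F S =
      ∑ S ∈ T.powersetCard α, (1 / ((α : ℝ) + 1)) * ∑ w ∈ T \ S, F (insert w S) := by
    rw [← Finset.mul_sum, ← P3c_flag T α (fun S w => F (insert w S))]
    have h2 : ∀ S ∈ T.powersetCard (α + 1), ∑ w ∈ S, F (insert w (S.erase w)) =
        ((α : ℝ) + 1) * F S := by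
      intro S hS
      rw [Finset.sum_congr rfl (g := fun _ => F S) (fun w hw => by rw [Finset.insert_erase hw]),
        Finset.sum_const, (Finset.mem_powersetCard.1 hS).2, nsmul_eq_mul]
      push_cast
      ring
    rw [Finset.sum_congr rfl h2, ← Finset.mul_sum]
    have : (α : ℝ) + 1 ≠ 0 := by positivity
    field_simp
  -- the α-subsets of insert v T
  have h3 : ∑ S ∈ (insert v T).powersetCard α, F (insert u S) =
      ∑ S ∈ T.powersetCard α, F (insert u S) +
      ∑ S ∈ T.powersetCard α, (1 / ((T.card : ℝ) - α + 1)) *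
        ∑ w ∈ S, F (insert u (insert v (S.erase w))) := by
    rcases Nat.eq_zero_or_pos α with rfl | hpos
    · simp
    · obtain ⟨a, rfl⟩ : ∃ a, α = a + 1 := ⟨α - 1, by omega⟩
      rw [hins v T hv a (fun S => F (insert u S))]
      congr 1
      rw [← Finset.mul_sum, P3c_flag T a (fun S _ => F (insert u (insert v S)))]
      have h4 : ∀ S ∈ T.powersetCard a, ∑ w ∈ T \ S, F (insert u (insert v S)) =
          ((T.card : ℝ) - a) * F (insert u (insert v S)) := by
        intro S hS
        have hS' := Finset.mem_powersetCard.1 hS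
        rw [Finset.sum_const, nsmul_eq_mul, Finset.card_sdiff_of_subset hS'.1, hS'.2,
          Nat.cast_sub (by omega)]
      rw [Finset.sum_congr rfl h4, ← Finset.mul_sum]
      have h5 : ((T.card : ℝ) - a) ≠ 0 := by
        have : (a : ℝ) + 1 ≤ T.card := by exact_mod_cast hα
        intro h
        linarith
      push_cast
      have h6 : (T.card : ℝ) - (a + 1) + 1 = T.card - a := by ring
      rw [h6]
      field_simp
  rw [h1, h3, ← Finset.sum_add_distrib, ← Finset.sum_add_distrib, ← Finset.sum_add_distrib]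
  refine Finset.sum_congr rfl fun S _ => ?_
  unfold P3cBr
  ring

theorem P3c_coupling (T : Finset ι) (u v : ι) (hu : u ∉ T) (hv : v ∉ T) (huv : u ≠ v) (α : ℕ)
    (hα : α ≤ T.card) (R : Finset ι) (huR : u ∈ R) (hvR : v ∉ R) (φ φ' : Finset ι → ℝ) (δ : ℝ)
    (h : ∀ S ∈ T.powersetCard α, ∀ S' ∈ (insert u (insert v T)).powersetCard (α + 1),
      ((S' ∩ R).card = (S ∩ R).card ∨ (S' ∩ R).card = (S ∩ R).card + 1) → |φ' S' - φ S| ≤ δ) :
    |(∑ S' ∈ (insert u (insert v T)).powersetCard (α + 1), φ' S') /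
        (((insert u (insert v T)).powersetCard (α + 1)).card : ℝ) -
      (∑ S ∈ T.powersetCard α, φ S) / ((T.powersetCard α).card : ℝ)| ≤ δ := by
  set κ : ℝ := 2 + (1 / ((α : ℝ) + 1)) * ((T.card : ℝ) - α) +
    (1 / ((T.card : ℝ) - α + 1)) * α with hκ
  have hαT : (α : ℝ) ≤ T.card := by exact_mod_cast hα
  have hκpos : 0 < κ := by
    have : 0 ≤ (1 / ((α : ℝ) + 1)) * ((T.card : ℝ) - α) :=
      mul_nonneg (by positivity) (by linarith)
    have : 0 ≤ (1 / ((T.card : ℝ) - α + 1)) * α :=
      mul_nonneg (div_nonneg (by norm_num) (by linarith)) (by positivity)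
    linarith
  have hN : 0 < ((T.powersetCard α).card : ℝ) := by
    rw [Finset.card_powersetCard]
    exact_mod_cast Nat.choose_pos hα
  have hN' : (((insert u (insert v T)).powersetCard (α + 1)).card : ℝ) =
      κ * ((T.powersetCard α).card : ℝ) := by
    have h1 := P3c_sum T u v hu hv huv α hα (fun _ => 1)
    simp only [Finset.sum_const, nsmul_eq_mul, mul_one] at h1
    rw [h1]
    have h2 : ∀ S ∈ T.powersetCard α, P3cBr T u v α (fun _ => (1 : ℝ)) S = κ := by
      intro S hS
      have hS' := Finset.mem_powersetCard.1 hS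
      unfold P3cBr
      simp only [Finset.sum_const, nsmul_eq_mul, mul_one]
      rw [Finset.card_sdiff_of_subset hS'.1, hS'.2, Nat.cast_sub hα, hκ]
      ring
    rw [Finset.sum_congr rfl h2, Finset.sum_const, nsmul_eq_mul]
    ring
  have key : ∀ S ∈ T.powersetCard α, |P3cBr T u v α φ' S - κ * φ S| ≤ κ * δ := by
    intro S hS
    have hS' := Finset.mem_powersetCard.1 hS
    have huS : u ∉ S := fun hh => hu (hS'.1 hh)
    have hvS : v ∉ S := fun hh => hv (hS'.1 hh)
    have b1 : |φ' (insert u S) - φ S| ≤ δ := by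
      refine h S hS _ ?_ ?_
      · rw [Finset.mem_powersetCard]
        refine ⟨Finset.insert_subset_insert _ (hS'.1.trans (Finset.subset_insert _ _)), ?_⟩
        rw [Finset.card_insert_of_notMem huS, hS'.2]
      · right
        rw [Finset.insert_inter_of_mem huR, Finset.card_insert_of_notMem]
        exact fun hh => huS (Finset.mem_inter.1 hh).1
    have b2 : |φ' (insert v S) - φ S| ≤ δ := by
      refine h S hS _ ?_ ?_
      · rw [Finset.mem_powersetCard]
        refine ⟨(Finset.insert_subset_insert _ hS'.1).trans (Finset.subset_insert _ _), ?_⟩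
        rw [Finset.card_insert_of_notMem hvS, hS'.2]
      · left
        rw [Finset.insert_inter_of_notMem hvR]
    have b3 : ∀ w ∈ T \ S, |φ' (insert w S) - φ S| ≤ δ := by
      intro w hw
      rw [Finset.mem_sdiff] at hw
      refine h S hS _ ?_ ?_
      · rw [Finset.mem_powersetCard]
        refine ⟨(Finset.insert_subset hw.1 hS'.1).trans
          ((Finset.subset_insert _ _).trans (Finset.subset_insert _ _)), ?_⟩
        rw [Finset.card_insert_of_notMem hw.2, hS'.2]
      · by_cases hwR : w ∈ R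
        · right
          rw [Finset.insert_inter_of_mem hwR, Finset.card_insert_of_notMem]
          exact fun hh => hw.2 (Finset.mem_inter.1 hh).1
        · left
          rw [Finset.insert_inter_of_notMem hwR]
    have b4 : ∀ w ∈ S, |φ' (insert u (insert v (S.erase w))) - φ S| ≤ δ := by
      intro w hw
      have hve : v ∉ S.erase w := fun hh => hvS (Finset.mem_of_mem_erase hh)
      have hue : u ∉ insert v (S.erase w) := by
        rw [Finset.mem_insert]
        rintro (hh | hh)
        · exact huv hh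
        · exact huS (Finset.mem_of_mem_erase hh)
      refine h S hS _ ?_ ?_
      · rw [Finset.mem_powersetCard]
        refine ⟨Finset.insert_subset_insert _ (Finset.insert_subset_insert _
          ((Finset.erase_subset _ _).trans hS'.1)), ?_⟩
        rw [Finset.card_insert_of_notMem hue, Finset.card_insert_of_notMem hve,
          Finset.card_erase_of_mem hw, hS'.2]
        have : 0 < S.card := Finset.card_pos.2 ⟨w, hw⟩
        omega
      · rw [Finset.insert_inter_of_mem huR, Finset.insert_inter_of_notMem hvR,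
          Finset.card_insert_of_notMem (fun hh => huS (Finset.mem_of_mem_erase
            (Finset.mem_inter.1 hh).1))]
        by_cases hwR : w ∈ R
        · left
          rw [Finset.erase_inter, Finset.card_erase_of_mem (Finset.mem_inter.2 ⟨hw, hwR⟩)]
          have : 0 < (S ∩ R).card := Finset.card_pos.2 ⟨w, Finset.mem_inter.2 ⟨hw, hwR⟩⟩
          omega
        · right
          rw [Finset.erase_inter, Finset.erase_eq_of_notMem
            (fun hh => hwR (Finset.mem_inter.1 hh).2)]
    have e1 : P3cBr T u v α φ' S - κ * φ S =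
        (φ' (insert u S) - φ S) + (φ' (insert v S) - φ S) +
        (1 / ((α : ℝ) + 1)) * ∑ w ∈ T \ S, (φ' (insert w S) - φ S) +
        (1 / ((T.card : ℝ) - α + 1)) * ∑ w ∈ S, (φ' (insert u (insert v (S.erase w))) - φ S) := by
      unfold P3cBr
      rw [Finset.sum_sub_distrib, Finset.sum_sub_distrib, Finset.sum_const, Finset.sum_const,
        nsmul_eq_mul, nsmul_eq_mul, Finset.card_sdiff_of_subset hS'.1, hS'.2, Nat.cast_sub hα, hκ]
      ring
    have c3 : |(1 / ((α : ℝ) + 1)) * ∑ w ∈ T \ S, (φ' (insert w S) - φ S)| ≤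
        (1 / ((α : ℝ) + 1)) * (((T.card : ℝ) - α) * δ) := by
      rw [abs_mul, abs_of_nonneg (by positivity : (0 : ℝ) ≤ 1 / ((α : ℝ) + 1))]
      refine mul_le_mul_of_nonneg_left ?_ (by positivity)
      refine (Finset.abs_sum_le_sum_abs _ _).trans ((Finset.sum_le_sum b3).trans (le_of_eq ?_))
      rw [Finset.sum_const, nsmul_eq_mul, Finset.card_sdiff_of_subset hS'.1, hS'.2,
        Nat.cast_sub hα]
    have hp : (0 : ℝ) ≤ 1 / ((T.card : ℝ) - α + 1) := div_nonneg (by norm_num) (by linarith)
    have c4 : |(1 / ((T.card : ℝ) - α + 1)) *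
        ∑ w ∈ S, (φ' (insert u (insert v (S.erase w))) - φ S)| ≤
        (1 / ((T.card : ℝ) - α + 1)) * (α * δ) := by
      rw [abs_mul, abs_of_nonneg hp]
      refine mul_le_mul_of_nonneg_left ?_ hp
      refine (Finset.abs_sum_le_sum_abs _ _).trans ((Finset.sum_le_sum b4).trans (le_of_eq ?_))
      rw [Finset.sum_const, nsmul_eq_mul, hS'.2]
    rw [e1]
    refine (abs_add_le _ _).trans ?_
    refine (add_le_add ((abs_add_le _ _).trans (add_le_add (abs_add_le _ _) le_rfl)) le_rfl).trans ?_
    rw [hκ]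
    nlinarith [b1, b2, c3, c4]
  have hNn := hN.ne'
  rw [hN', P3c_sum T u v hu hv huv α hα φ']
  have e2 : (∑ S ∈ T.powersetCard α, P3cBr T u v α φ' S) / (κ * ((T.powersetCard α).card : ℝ)) -
      (∑ S ∈ T.powersetCard α, φ S) / ((T.powersetCard α).card : ℝ) =
      (∑ S ∈ T.powersetCard α, (P3cBr T u v α φ' S - κ * φ S)) /
        (κ * ((T.powersetCard α).card : ℝ)) := by
    rw [Finset.sum_sub_distrib, ← Finset.mul_sum]
    field_simp
  rw [e2, abs_div, abs_of_pos (mul_pos hκpos hN), div_le_iff₀ (mul_pos hκpos hN)]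
  refine (Finset.abs_sum_le_sum_abs _ _).trans ((Finset.sum_le_sum key).trans (le_of_eq ?_))
  rw [Finset.sum_const, nsmul_eq_mul]
  ring

end Vale.Agent.P335
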