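import Vale.Agent.P335.P3a
import Vale.Agent.P335.P3c

/-! # Three columns, step (b): swap-invariant eigenfunctions with eigenvalue > 2 are constant on
the sets of matrices with given margins -/

open scoped Classical

namespace Vale.Agent.P335

variable {ι : Type*} [Fintype ι]

/-- row sum -/
def P3b_rs (X : Mat ι) (i : ι) : ℕ := ∑ k, (X i k).toNat

/-- same margins -/
def P3b_same (X Y : Mat ι) : Prop :=
  (∀ i, P3b_rs X i = P3b_rs Y i) ∧ ∀ k, ∑ i, (X i k).toNat = ∑ i, (Y i k).toNat

theorem P3b_same.symm {X Y : Mat ι} (h : P3b_same X Y) : P3b_same Y X :=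
  ⟨fun i => (h.1 i).symm, fun k => (h.2 k).symm⟩

theorem P3b_same.trans {X Y Z : Mat ι} (h : P3b_same X Y) (h' : P3b_same Y Z) : P3b_same X Z :=
  ⟨fun i => (h.1 i).trans (h'.1 i), fun k => (h.2 k).trans (h'.2 k)⟩

/-- rows of sum `ρ` with a one in column `j` -/
noncomputable def P3b_A (ρ : ℕ) (j : Fin 3) (X : Mat ι) : Finset ι :=
  Finset.univ.filter (fun i => P3b_rs X i = ρ ∧ X i j = true)

/-- number of rows of sum one with a one in column `j` -/
noncomputable def P3b_kk (j : Fin 3) (X : Mat ι) : ℕ := (P3b_A 1 j X).card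

theorem P3b_univ {j a b : Fin 3} (hja : j ≠ a) (hjb : j ≠ b) (hab : a ≠ b) :
    (Finset.univ : Finset (Fin 3)) = {j, a, b} := by
  revert j a b; decide

theorem P3b_sum3 {M : Type*} [AddCommMonoid M] {j a b : Fin 3} (hja : j ≠ a) (hjb : j ≠ b)
    (hab : a ≠ b) (F : Fin 3 → M) : ∑ k, F k = F j + (F a + F b) := by
  rw [P3b_univ hja hjb hab, Finset.sum_insert (by simp [hja, hjb]), Finset.sum_pair hab]

omit [Fintype ι] in
theorem P3b_rs_eq {j a b : Fin 3} (hja : j ≠ a) (hjb : j ≠ b) (hab : a ≠ b) (X : Mat ι) (i : ι) :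
    P3b_rs X i = (X i j).toNat + ((X i a).toNat + (X i b).toNat) :=
  P3b_sum3 hja hjb hab _

/-- two other columns -/
theorem P3b_others (j : Fin 3) : ∃ a b : Fin 3, j ≠ a ∧ j ≠ b ∧ a ≠ b := by
  revert j; decide

theorem P3b_col (j : Fin 3) (X : Mat ι) :
    ∑ i, (X i j).toNat = (P3b_A 1 j X).card + (P3b_A 2 j X).card + (P3b_A 3 j X).card := by
  obtain ⟨a, b, hja, hjb, hab⟩ := P3b_others j
  unfold P3b_A
  rw [Finset.card_filter, Finset.card_filter, Finset.card_filter, ← Finset.sum_add_distrib,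
    ← Finset.sum_add_distrib]
  refine Finset.sum_congr rfl fun i _ => ?_
  rw [P3b_rs_eq hja hjb hab]
  cases X i j <;> cases X i a <;> cases X i b <;> simp

theorem P3b_A3 (j : Fin 3) {X Y : Mat ι} (h : P3b_same X Y) : P3b_A 3 j X = P3b_A 3 j Y := by
  obtain ⟨a, b, hja, hjb, hab⟩ := P3b_others j
  have key : ∀ (Z : Mat ι) (i : ι), (P3b_rs Z i = 3 ∧ Z i j = true) ↔ P3b_rs Z i = 3 := by
    intro Z i
    rw [P3b_rs_eq hja hjb hab]
    cases Z i j <;> cases Z i a <;> cases Z i b <;> simp
  unfold P3b_A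
  ext i
  simp only [Finset.mem_filter, Finset.mem_univ, true_and]
  rw [key, key, h.1]

theorem P3b_A2 (j : Fin 3) {X Y : Mat ι} (h : P3b_same X Y) :
    (P3b_A 1 j X).card + (P3b_A 2 j X).card = (P3b_A 1 j Y).card + (P3b_A 2 j Y).card := by
  have h1 := P3b_col j X
  have h2 := P3b_col j Y
  have h3 := h.2 j
  rw [P3b_A3 j h] at h1
  omega

omit [Fintype ι] in
theorem P3b_exch {A B : Finset ι} (h : A.card = B.card) {i : ι} (hA : i ∈ A) (hB : i ∉ B) :
    ∃ i' ∈ B, i' ∉ A := by
  by_contra hcon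
  push Not at hcon
  have := Finset.eq_of_subset_of_card_le hcon h.le
  rw [this] at hB
  exact hB hA

theorem P3b_perm_kk (σ : Equiv.Perm ι) (j : Fin 3) (X : Mat ι) :
    P3b_kk j (fun i => X (σ i)) = P3b_kk j X := by
  unfold P3b_kk P3b_A
  rw [Finset.card_filter, Finset.card_filter]
  exact Equiv.sum_comp σ (fun i => if P3b_rs X i = 1 ∧ X i j = true then 1 else 0)

theorem P3b_perm_same (σ : Equiv.Perm ι) (X : Mat ι) (h : ∀ i, P3b_rs X (σ i) = P3b_rs X i) :
    P3b_same (fun i => X (σ i)) X :=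
  ⟨h, fun k => Equiv.sum_comp σ (fun i => (X i k).toNat)⟩

/-- a function of column `j` invariant under row swaps is a function of `kk j` -/
theorem P3b_claimA (g : Mat ι → ℝ) (j : Fin 3) (hinv : ∀ u v X, g (rowSwap u v X) = g X)
    (hg : ∀ X Y, colRel j X Y → g X = g Y) :
    ∀ (n : ℕ) (X Y : Mat ι), (Finset.univ.filter (fun i => X i j ≠ Y i j)).card = n →
      P3b_same X Y → P3b_kk j X = P3b_kk j Y → g X = g Y := by
  intro n
  induction n using Nat.strong_induction_on with
  | _ n ih =>
  intro X Y hn hs hk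
  by_cases hd : ∀ i, X i j = Y i j
  · exact hg X Y ⟨hd, hs.1, hs.2⟩
  push Not at hd
  obtain ⟨i, hi⟩ := hd
  obtain ⟨a, b, hja, hjb, hab⟩ := P3b_others j
  have hrho : P3b_rs X i = 1 ∨ P3b_rs X i = 2 := by
    have h1 := hs.1 i
    have h2 := P3b_rs_eq hja hjb hab X i
    have h3 := P3b_rs_eq hja hjb hab Y i
    revert hi h1 h2 h3
    generalize P3b_rs X i = p
    generalize P3b_rs Y i = q
    cases X i j <;> cases X i a <;> cases X i b <;> cases Y i j <;> cases Y i a <;>
      cases Y i b <;> simp <;> omega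
  have hcard : (P3b_A (P3b_rs X i) j X).card = (P3b_A (P3b_rs X i) j Y).card := by
    have h2 := P3b_A2 j hs
    unfold P3b_kk at hk
    rcases hrho with h | h <;> rw [h] <;> omega
  -- the partner row
  obtain ⟨i', hr', hX', hY'⟩ : ∃ i', P3b_rs X i' = P3b_rs X i ∧ X i' j = Y i j ∧ Y i' j = X i j := by
    rcases Bool.eq_false_or_eq_true (X i j) with hX | hX
    · have hY : Y i j = false := by
        rcases Bool.eq_false_or_eq_true (Y i j) with h | h
        · exact absurd (hX.trans h.symm) hi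
        · exact h
      have m1 : i ∈ P3b_A (P3b_rs X i) j X := by
        unfold P3b_A; simp [hX]
      have m2 : i ∉ P3b_A (P3b_rs X i) j Y := by
        unfold P3b_A; simp [hY]
      obtain ⟨i', h1, h2⟩ := P3b_exch hcard m1 m2
      unfold P3b_A at h1 h2
      simp only [Finset.mem_filter, Finset.mem_univ, true_and, not_and] at h1 h2
      refine ⟨i', (hs.1 i').trans h1.1, ?_, h1.2.trans hX.symm⟩
      have := h2 ((hs.1 i').trans h1.1)
      rw [hY]
      simpa using this
    · have hY : Y i j = true := by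
        rcases Bool.eq_false_or_eq_true (Y i j) with h | h
        · exact h
        · exact absurd (hX.trans h.symm) hi
      have m1 : i ∉ P3b_A (P3b_rs X i) j X := by
        unfold P3b_A; simp [hX]
      have m2 : i ∈ P3b_A (P3b_rs X i) j Y := by
        unfold P3b_A; simp [hY, hs.1 i]
      obtain ⟨i', h1, h2⟩ := P3b_exch hcard.symm m2 m1
      unfold P3b_A at h1 h2
      simp only [Finset.mem_filter, Finset.mem_univ, true_and, not_and] at h1 h2
      refine ⟨i', h1.1, h1.2.trans hY.symm, ?_⟩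
      have := h2 ((hs.1 i').symm.trans h1.1)
      rw [hX]
      simpa using this
  have hrow : ∀ t, P3b_rs X (Equiv.swap i i' t) = P3b_rs X t := by
    intro t
    by_cases h1 : t = i
    · subst h1; rw [Equiv.swap_apply_left]; exact hr'
    by_cases h2 : t = i'
    · subst h2; rw [Equiv.swap_apply_right]; exact hr'.symm
    rw [Equiv.swap_apply_of_ne_of_ne h1 h2]
  have hswap : rowSwap i i' X = fun t => X (Equiv.swap i i' t) := by
    unfold rowSwap
    rw [if_pos]
    exact hr'.symm
  have hs1 : P3b_same (fun t => X (Equiv.swap i i' t)) Y :=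
    (P3b_perm_same (Equiv.swap i i') X hrow).trans hs
  have hk1 : P3b_kk j (fun t => X (Equiv.swap i i' t)) = P3b_kk j Y :=
    (P3b_perm_kk _ j X).trans hk
  have hlt : (Finset.univ.filter (fun t => X (Equiv.swap i i' t) j ≠ Y t j)).card < n := by
    rw [← hn]
    refine Finset.card_lt_card ⟨?_, ?_⟩
    · intro t ht
      simp only [Finset.mem_filter, Finset.mem_univ, true_and] at ht ⊢
      by_cases h1 : t = i
      · subst h1; exact hi
      by_cases h2 : t = i'
      · subst h2
        rw [hX', hY']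
        exact fun h => hi h.symm
      rwa [Equiv.swap_apply_of_ne_of_ne h1 h2] at ht
    · intro hsub
      have h1 : i ∈ Finset.univ.filter (fun t => X t j ≠ Y t j) := by
        simp only [Finset.mem_filter, Finset.mem_univ, true_and]; exact hi
      have h2 := hsub h1
      simp only [Finset.mem_filter, Finset.mem_univ, true_and, Equiv.swap_apply_left] at h2
      exact h2 hX'
  have := ih _ hlt (fun t => X (Equiv.swap i i' t)) Y rfl hs1 hk1
  rw [← this, ← hswap, hinv]

/-! ### the averages are invariant under row swaps -/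

omit [Fintype ι] in
theorem P3b_rowSwap_invol (u v : ι) (X : Mat ι) : rowSwap u v (rowSwap u v X) = X := by
  unfold rowSwap
  by_cases h : ∑ k, (X u k).toNat = ∑ k, (X v k).toNat
  · rw [if_pos h, if_pos]
    · funext i
      rw [Equiv.swap_apply_self]
    · rw [Equiv.swap_apply_left, Equiv.swap_apply_right]
      exact h.symm
  · rw [if_neg h, if_neg h]

theorem P3b_rowSwap_rel (u v : ι) (j : Fin 3) (X Y : Mat ι) (h : colRel j X Y) :
    colRel j (rowSwap u v X) (rowSwap u v Y) := by
  obtain ⟨h1, h2, h3⟩ := h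
  unfold rowSwap
  by_cases hc : ∑ k, (X u k).toNat = ∑ k, (X v k).toNat
  · rw [if_pos hc, if_pos (by rw [← h2 u, ← h2 v]; exact hc)]
    refine ⟨fun i => h1 _, fun i => h2 _, fun k => ?_⟩
    rw [Equiv.sum_comp (Equiv.swap u v) (fun i => (X i k).toNat),
      Equiv.sum_comp (Equiv.swap u v) (fun i => (Y i k).toNat)]
    exact h3 k
  · rw [if_neg hc, if_neg (by rw [← h2 u, ← h2 v]; exact hc)]
    exact ⟨h1, h2, h3⟩

theorem P3b_avg_inv (f : Mat ι → ℝ) (hinv : ∀ u v X, f (rowSwap u v X) = f X) (j : Fin 3)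
    (u v : ι) (X : Mat ι) : avg (colRel j) f (rowSwap u v X) = avg (colRel j) f X := by
  let σ : Mat ι ≃ Mat ι := ⟨rowSwap u v, rowSwap u v, P3b_rowSwap_invol u v, P3b_rowSwap_invol u v⟩
  have h := avg_comp_equiv (colRel j) σ (fun x y => ⟨P3b_rowSwap_rel u v j x y, fun hh => by
    have := P3b_rowSwap_rel u v j _ _ hh
    simp only [σ, Equiv.coe_fn_mk] at this
    rwa [P3b_rowSwap_invol, P3b_rowSwap_invol] at this⟩) f X
  have h2 : (fun y => f (σ y)) = f := by
    funext y
    exact hinv u v y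
  rw [h2] at h
  exact h.symm

/-! ### parametrization of a class by subsets -/

/-- rows on which the columns `a`, `b` differ -/
noncomputable def P3b_T (a b : Fin 3) (X : Mat ι) : Finset ι :=
  Finset.univ.filter (fun i => X i a ≠ X i b)

/-- the matrix of the class with column `a` equal to `S` on `T` -/
noncomputable def P3b_mk (j a : Fin 3) (X : Mat ι) (T S : Finset ι) : Mat ι :=
  fun i k => if i ∈ T ∧ k ≠ j then (if k = a then decide (i ∈ S) else decide (i ∉ S)) else X i k

section param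

variable {j a b : Fin 3} (hja : j ≠ a) (hjb : j ≠ b) (hab : a ≠ b)

omit [Fintype ι] in
theorem P3b_mk_j (X : Mat ι) (T S : Finset ι) (i : ι) : P3b_mk j a X T S i j = X i j := by
  unfold P3b_mk; simp

include hja in
omit [Fintype ι] in
theorem P3b_mk_a (X : Mat ι) (T S : Finset ι) {i : ι} (hi : i ∈ T) :
    P3b_mk j a X T S i a = decide (i ∈ S) := by
  unfold P3b_mk; rw [if_pos ⟨hi, hja.symm⟩, if_pos rfl]

include hjb hab in
omit [Fintype ι] in
theorem P3b_mk_b (X : Mat ι) (T S : Finset ι) {i : ι} (hi : i ∈ T) :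
    P3b_mk j a X T S i b = decide (i ∉ S) := by
  unfold P3b_mk; rw [if_pos ⟨hi, hjb.symm⟩, if_neg hab.symm]

omit [Fintype ι] in
theorem P3b_mk_out (X : Mat ι) (T S : Finset ι) {i : ι} (hi : i ∉ T) (k : Fin 3) :
    P3b_mk j a X T S i k = X i k := by
  unfold P3b_mk; rw [if_neg (fun h => hi h.1)]

include hja hjb hab in
theorem P3b_mk_rs (X : Mat ι) (S : Finset ι) (i : ι) :
    P3b_rs (P3b_mk j a X (P3b_T a b X) S) i = P3b_rs X i := by
  rw [P3b_rs_eq hja hjb hab, P3b_rs_eq hja hjb hab]
  by_cases hi : i ∈ P3b_T a b X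
  · rw [P3b_mk_j, P3b_mk_a hja X _ S hi, P3b_mk_b hjb hab X _ S hi]
    unfold P3b_T at hi
    simp only [Finset.mem_filter, Finset.mem_univ, true_and] at hi
    by_cases hS : i ∈ S
    · revert hi
      cases X i a <;> cases X i b <;> simp [hS]
    · revert hi
      cases X i a <;> cases X i b <;> simp [hS]
  · rw [P3b_mk_out X _ S hi, P3b_mk_out X _ S hi, P3b_mk_out X _ S hi]

/-- size of the parameter sets -/
noncomputable def P3b_al (a b : Fin 3) (X : Mat ι) : ℕ :=
  ((P3b_T a b X).filter (fun i => X i a = true)).card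

include hja in
theorem P3b_mk_cola (X : Mat ι) (S : Finset ι) (hS : S ⊆ P3b_T a b X) :
    ∑ i, (P3b_mk j a X (P3b_T a b X) S i a).toNat + P3b_al a b X =
      ∑ i, (X i a).toNat + S.card := by
  have h1 : ∀ i, (P3b_mk j a X (P3b_T a b X) S i a).toNat +
      (if i ∈ (P3b_T a b X).filter (fun i => X i a = true) then 1 else 0) =
      (X i a).toNat + (if i ∈ S then 1 else 0) := by
    intro i
    by_cases hi : i ∈ P3b_T a b X
    · rw [P3b_mk_a hja X _ S hi]
      rcases Bool.eq_false_or_eq_true (X i a) with hX | hX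
      · rw [if_pos (Finset.mem_filter.2 ⟨hi, hX⟩), hX]
        by_cases hiS : i ∈ S <;> simp [hiS]
      · rw [if_neg (fun h => by simpa [hX] using (Finset.mem_filter.1 h).2), hX]
        by_cases hiS : i ∈ S <;> simp [hiS]
    · rw [P3b_mk_out X _ S hi, if_neg (fun h => hi (Finset.mem_filter.1 h).1),
        if_neg (fun h => hi (hS h))]
  have h2 := Finset.sum_congr (rfl : (Finset.univ : Finset ι) = Finset.univ) (fun i _ => h1 i)
  rw [Finset.sum_add_distrib, Finset.sum_add_distrib] at h2
  simp only [Finset.sum_ite_mem, Finset.univ_inter, Finset.sum_const, smul_eq_mul, mul_one] at h2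
  exact h2

include hja hjb hab in
theorem P3b_tot (X : Mat ι) : ∑ i, P3b_rs X i =
    ∑ i, (X i j).toNat + (∑ i, (X i a).toNat + ∑ i, (X i b).toNat) := by
  rw [← Finset.sum_add_distrib, ← Finset.sum_add_distrib]
  exact Finset.sum_congr rfl fun i _ => P3b_rs_eq hja hjb hab X i

include hja hjb hab in
theorem P3b_mk_same (X : Mat ι) (S : Finset ι)
    (hS : S ∈ (P3b_T a b X).powersetCard (P3b_al a b X)) :
    P3b_same X (P3b_mk j a X (P3b_T a b X) S) := by
  obtain ⟨h1, h2⟩ := Finset.mem_powersetCard.1 hS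
  refine ⟨fun i => (P3b_mk_rs hja hjb hab X S i).symm, ?_⟩
  have hj : ∑ i, (X i j).toNat = ∑ i, (P3b_mk j a X (P3b_T a b X) S i j).toNat :=
    Finset.sum_congr rfl fun i _ => by rw [P3b_mk_j]
  have ha : ∑ i, (X i a).toNat = ∑ i, (P3b_mk j a X (P3b_T a b X) S i a).toNat := by
    have := P3b_mk_cola hja X S h1
    omega
  have hb : ∑ i, (X i b).toNat = ∑ i, (P3b_mk j a X (P3b_T a b X) S i b).toNat := by
    have t1 := P3b_tot hja hjb hab X
    have t2 := P3b_tot hja hjb hab (P3b_mk j a X (P3b_T a b X) S)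
    have t3 : ∑ i, P3b_rs (P3b_mk j a X (P3b_T a b X) S) i = ∑ i, P3b_rs X i :=
      Finset.sum_congr rfl (fun i _ => P3b_mk_rs hja hjb hab X S i)
    have t4 := t1.symm.trans (t3.symm.trans t2)
    rw [hj, ha] at t4
    omega
  intro k
  have hk : k ∈ (Finset.univ : Finset (Fin 3)) := Finset.mem_univ k
  rw [P3b_univ hja hjb hab] at hk
  simp only [Finset.mem_insert, Finset.mem_singleton] at hk
  rcases hk with rfl | rfl | rfl
  · exact hj
  · exact ha
  · exact hb

include hja hjb hab in
theorem P3b_cls (X : Mat ι) :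
    cls (colRel j) X = ((P3b_T a b X).powersetCard (P3b_al a b X)).image
      (P3b_mk j a X (P3b_T a b X)) := by
  ext Y
  rw [mem_cls, Finset.mem_image]
  constructor
  · rintro ⟨h1, h2, h3⟩
    have h2' : ∀ i, P3b_rs X i = P3b_rs Y i := h2
    set S := (P3b_T a b X).filter (fun i => Y i a = true) with hSdef
    have hSsub : S ⊆ P3b_T a b X := Finset.filter_subset _ _
    have hY : P3b_mk j a X (P3b_T a b X) S = Y := by
      funext i k
      have hk : k ∈ (Finset.univ : Finset (Fin 3)) := Finset.mem_univ k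
      rw [P3b_univ hja hjb hab] at hk
      simp only [Finset.mem_insert, Finset.mem_singleton] at hk
      have hr := h2' i
      rw [P3b_rs_eq hja hjb hab, P3b_rs_eq hja hjb hab, h1 i] at hr
      by_cases hi : i ∈ P3b_T a b X
      · have hiS : i ∈ S ↔ Y i a = true := by
          rw [hSdef, Finset.mem_filter]; exact ⟨fun h => h.2, fun h => ⟨hi, h⟩⟩
        have hi' := hi
        unfold P3b_T at hi'
        simp only [Finset.mem_filter, Finset.mem_univ, true_and] at hi'
        have hYb : Y i b = !(Y i a) := by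
          revert hr hi'
          generalize Y i a = y1
          generalize Y i b = y2
          generalize X i a = x1
          generalize X i b = x2
          cases x1 <;> cases x2 <;> cases y1 <;> cases y2 <;> simp
        rcases hk with rfl | rfl | rfl
        · rw [P3b_mk_j, h1]
        · rw [P3b_mk_a hja X _ S hi]
          rcases Bool.eq_false_or_eq_true (Y i k) with hc | hc
          · simp [hiS.2 hc, hc]
          · have : i ∉ S := fun hh => by
              have := hiS.1 hh
              rw [hc] at this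
              exact Bool.false_ne_true this
            simp [this, hc]
        · rw [P3b_mk_b hjb hab X _ S hi, hYb]
          rcases Bool.eq_false_or_eq_true (Y i a) with hc | hc
          · simp [hiS.2 hc, hc]
          · have : i ∉ S := fun hh => by
              have := hiS.1 hh
              rw [hc] at this
              exact Bool.false_ne_true this
            simp [this, hc]
      · rw [P3b_mk_out X _ S hi]
        have hi' := hi
        unfold P3b_T at hi'
        simp only [Finset.mem_filter, Finset.mem_univ, true_and, not_not] at hi'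
        rcases hk with rfl | rfl | rfl
        · exact h1 i
        · revert hr hi'
          cases X i k <;> cases X i b <;> cases Y i k <;> cases Y i b <;> simp
        · revert hr hi'
          cases X i a <;> cases X i k <;> cases Y i a <;> cases Y i k <;> simp
    refine ⟨S, ?_, hY⟩
    rw [Finset.mem_powersetCard]
    refine ⟨hSsub, ?_⟩
    have h4 := P3b_mk_cola hja X S hSsub
    rw [hY, ← h3 a] at h4
    omega
  · rintro ⟨S, hS, rfl⟩
    have := P3b_mk_same hja hjb hab X S hS
    exact ⟨fun i => (P3b_mk_j X _ S i).symm, this.1, this.2⟩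

include hja in
omit [Fintype ι] in
theorem P3b_mk_inj (X : Mat ι) (T : Finset ι) (n : ℕ) :
    Set.InjOn (P3b_mk j a X T) (T.powersetCard n : Set (Finset ι)) := by
  intro S hS S' hS' h
  have hS1 := (Finset.mem_powersetCard.1 (Finset.mem_coe.1 hS)).1
  have hS2 := (Finset.mem_powersetCard.1 (Finset.mem_coe.1 hS')).1
  ext i
  by_cases hi : i ∈ T
  · have h1 := congrFun (congrFun h i) a
    rw [P3b_mk_a hja X T S hi, P3b_mk_a hja X T S' hi] at h1
    simpa using h1
  · exact ⟨fun hh => absurd (hS1 hh) hi, fun hh => absurd (hS2 hh) hi⟩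

include hja hjb hab in
theorem P3b_avg (H : Mat ι → ℝ) (X : Mat ι) : avg (colRel j) H X =
    (∑ S ∈ (P3b_T a b X).powersetCard (P3b_al a b X), H (P3b_mk j a X (P3b_T a b X) S)) /
      (((P3b_T a b X).powersetCard (P3b_al a b X)).card : ℝ) := by
  rw [avg_def, P3b_cls hja hjb hab X, Finset.sum_image (P3b_mk_inj hja X _ _),
    Finset.card_image_of_injOn (P3b_mk_inj hja X _ _)]

include hja hjb hab in
theorem P3b_kk_a (X : Mat ι) (S : Finset ι) (hS : S ⊆ P3b_T a b X) :
    P3b_kk a (P3b_mk j a X (P3b_T a b X) S) =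
      (S ∩ Finset.univ.filter (fun i => P3b_rs X i = 1)).card := by
  unfold P3b_kk P3b_A
  congr 1
  ext i
  simp only [Finset.mem_filter, Finset.mem_univ, true_and, Finset.mem_inter]
  rw [P3b_mk_rs hja hjb hab]
  by_cases hi : i ∈ P3b_T a b X
  · rw [P3b_mk_a hja X _ S hi]
    simp only [decide_eq_true_eq]
    tauto
  · rw [P3b_mk_out X _ S hi]
    have hiS : i ∉ S := fun h => hi (hS h)
    have hi' := hi
    unfold P3b_T at hi'
    simp only [Finset.mem_filter, Finset.mem_univ, true_and, not_not] at hi'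
    rw [P3b_rs_eq hja hjb hab]
    revert hi'
    cases X i a <;> cases X i b <;> simp [hiS]

include hja hjb hab in
theorem P3b_kk_b (X : Mat ι) (S : Finset ι) (hS : S ⊆ P3b_T a b X) :
    P3b_kk b (P3b_mk j a X (P3b_T a b X) S) +
      (S ∩ Finset.univ.filter (fun i => P3b_rs X i = 1)).card =
      (P3b_T a b X ∩ Finset.univ.filter (fun i => P3b_rs X i = 1)).card := by
  have h1 : P3b_kk b (P3b_mk j a X (P3b_T a b X) S) =
      ((P3b_T a b X ∩ Finset.univ.filter (fun i => P3b_rs X i = 1)) \
        (S ∩ Finset.univ.filter (fun i => P3b_rs X i = 1))).card := by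
    unfold P3b_kk P3b_A
    congr 1
    ext i
    simp only [Finset.mem_filter, Finset.mem_univ, true_and, Finset.mem_inter, Finset.mem_sdiff]
    rw [P3b_mk_rs hja hjb hab]
    by_cases hi : i ∈ P3b_T a b X
    · rw [P3b_mk_b hjb hab X _ S hi]
      simp only [decide_eq_true_eq]
      tauto
    · rw [P3b_mk_out X _ S hi]
      have hiS : i ∉ S := fun h => hi (hS h)
      have hi' := hi
      unfold P3b_T at hi'
      simp only [Finset.mem_filter, Finset.mem_univ, true_and, not_not] at hi'
      rw [P3b_rs_eq hja hjb hab]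
      revert hi'
      cases X i a <;> cases X i b <;> simp [hi]
  rw [h1]
  exact Finset.card_sdiff_add_card_eq_card (Finset.inter_subset_inter hS (Finset.Subset.refl _))

end param

/-! ### the shifted matrix -/

/-- columns `j`, `a` exchanged on the rows `u`, `v` -/
noncomputable def P3b_sh (j a : Fin 3) (u v : ι) (X : Mat ι) : Mat ι :=
  fun i k => if i = u ∨ i = v then X i (Equiv.swap j a k) else X i k

theorem P3b_sum_two (F F' : ι → ℕ) {u v : ι} (huv : u ≠ v)
    (h : ∀ i, i ≠ u → i ≠ v → F' i = F i) (h2 : F' u + F' v = F u + F v) :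
    ∑ i, F' i = ∑ i, F i := by
  have hv : v ∈ (Finset.univ : Finset ι).erase u := Finset.mem_erase.2 ⟨huv.symm, Finset.mem_univ v⟩
  rw [← Finset.add_sum_erase _ _ (Finset.mem_univ u), ← Finset.add_sum_erase _ F' hv,
    ← Finset.add_sum_erase _ F (Finset.mem_univ u), ← Finset.add_sum_erase _ F hv, ← add_assoc,
    ← add_assoc, h2]
  congr 1
  refine Finset.sum_congr rfl fun i hi => ?_
  rw [Finset.mem_erase, Finset.mem_erase] at hi
  exact h i hi.2.1 hi.1

section shift

variable {j a b : Fin 3} (hja : j ≠ a) (hjb : j ≠ b) (hab : a ≠ b) {u v : ι} {X : Mat ι}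
  (hu : P3b_rs X u = 1) (huj : X u j = true) (hv : P3b_rs X v = 2) (hvj : X v j = false)

include hu hv in
omit [Fintype ι] in
theorem P3b_uv : u ≠ v := by
  rintro rfl; omega

include hja hjb hab hu huj in
omit [Fintype ι] in
theorem P3b_u : X u a = false ∧ X u b = false := by
  rw [P3b_rs_eq hja hjb hab, huj] at hu
  revert hu
  cases X u a <;> cases X u b <;> simp

include hja hjb hab hv hvj in
omit [Fintype ι] in
theorem P3b_v : X v a = true ∧ X v b = true := by
  rw [P3b_rs_eq hja hjb hab, hvj] at hv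
  revert hv
  cases X v a <;> cases X v b <;> simp

omit [Fintype ι] in
theorem P3b_sh_rs (j a : Fin 3) (u v : ι) (X : Mat ι) (i : ι) :
    P3b_rs (P3b_sh j a u v X) i = P3b_rs X i := by
  unfold P3b_rs P3b_sh
  by_cases hi : i = u ∨ i = v
  · simp only [if_pos hi]
    exact Equiv.sum_comp (Equiv.swap j a) (fun k => (X i k).toNat)
  · simp only [if_neg hi]

include hja hjb hab hu huj hv hvj in
theorem P3b_sh_same : P3b_same (P3b_sh j a u v X) X := by
  obtain ⟨ua, ub⟩ := P3b_u hja hjb hab hu huj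
  obtain ⟨va, vb⟩ := P3b_v hja hjb hab hv hvj
  have huv := P3b_uv hu hv
  refine ⟨P3b_sh_rs j a u v X, fun k => ?_⟩
  refine P3b_sum_two _ _ huv ?_ ?_
  · intro i h1 h2
    unfold P3b_sh
    rw [if_neg (by tauto)]
  · unfold P3b_sh
    rw [if_pos (Or.inl rfl), if_pos (Or.inr rfl)]
    have hk : k ∈ (Finset.univ : Finset (Fin 3)) := Finset.mem_univ k
    rw [P3b_univ hja hjb hab] at hk
    simp only [Finset.mem_insert, Finset.mem_singleton] at hk
    rcases hk with rfl | rfl | rfl
    · rw [Equiv.swap_apply_left, ua, va, huj, hvj]; rfl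
    · rw [Equiv.swap_apply_right, ua, va, huj, hvj]; rfl
    · rw [Equiv.swap_apply_of_ne_of_ne hjb.symm hab.symm]

include hja hjb hab hu huj hv hvj in
theorem P3b_sh_T : P3b_T a b (P3b_sh j a u v X) = insert u (insert v (P3b_T a b X)) := by
  obtain ⟨ua, ub⟩ := P3b_u hja hjb hab hu huj
  obtain ⟨va, vb⟩ := P3b_v hja hjb hab hv hvj
  ext i
  unfold P3b_T P3b_sh
  simp only [Finset.mem_filter, Finset.mem_univ, true_and, Finset.mem_insert]
  by_cases h1 : i = u
  · subst h1
    simp [Equiv.swap_apply_of_ne_of_ne hjb.symm hab.symm, huj, ub]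
  by_cases h2 : i = v
  · subst h2
    simp [Equiv.swap_apply_of_ne_of_ne hjb.symm hab.symm, hvj, vb]
  simp [h1, h2]

include hja hjb hab hu huj hv hvj in
theorem P3b_sh_al : P3b_al a b (P3b_sh j a u v X) = P3b_al a b X + 1 := by
  obtain ⟨ua, ub⟩ := P3b_u hja hjb hab hu huj
  obtain ⟨va, vb⟩ := P3b_v hja hjb hab hv hvj
  have h : (P3b_T a b (P3b_sh j a u v X)).filter (fun i => P3b_sh j a u v X i a = true) =
      insert u ((P3b_T a b X).filter (fun i => X i a = true)) := by
    rw [P3b_sh_T hja hjb hab hu huj hv hvj]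
    ext i
    unfold P3b_sh
    simp only [Finset.mem_filter, Finset.mem_insert]
    by_cases h1 : i = u
    · subst h1
      simp [huj]
    by_cases h2 : i = v
    · subst h2
      simp [hvj, h1]
      intro h3
      unfold P3b_T at h3
      simp [va, vb] at h3
    simp [h1, h2]
  unfold P3b_al
  rw [h, Finset.card_insert_of_notMem]
  intro hh
  rw [Finset.mem_filter, ua] at hh
  exact Bool.false_ne_true hh.2

include hja hjb hab hu huj hv hvj in
theorem P3b_sh_kk : P3b_kk j (P3b_sh j a u v X) + 1 = P3b_kk j X := by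
  obtain ⟨ua, ub⟩ := P3b_u hja hjb hab hu huj
  have hmem : u ∈ P3b_A 1 j X := by unfold P3b_A; simp [hu, huj]
  have h : P3b_A 1 j (P3b_sh j a u v X) = (P3b_A 1 j X).erase u := by
    ext i
    unfold P3b_A
    simp only [Finset.mem_filter, Finset.mem_univ, true_and, Finset.mem_erase]
    rw [P3b_sh_rs]
    unfold P3b_sh
    by_cases h1 : i = u
    · subst h1
      simp [ua]
    by_cases h2 : i = v
    · subst h2
      simp [hv]
    simp [h1, h2]
  unfold P3b_kk
  rw [h, Finset.card_erase_of_mem hmem]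
  have : 0 < (P3b_A 1 j X).card := Finset.card_pos.2 ⟨u, hmem⟩
  omega

include hja hjb hab hu huj hv hvj in
theorem P3b_contr (h : Fin 3 → Mat ι → ℝ)
    (hA : ∀ i X Y, P3b_same X Y → P3b_kk i X = P3b_kk i Y → h i X = h i Y) (δ : ℝ)
    (hδ : ∀ i X Y, P3b_same X Y → P3b_kk i X = P3b_kk i Y + 1 → |h i X - h i Y| ≤ δ) :
    |avg (colRel j) (fun Z => h a Z + h b Z) (P3b_sh j a u v X) -
      avg (colRel j) (fun Z => h a Z + h b Z) X| ≤ δ := by
  obtain ⟨ua, ub⟩ := P3b_u hja hjb hab hu huj
  obtain ⟨va, vb⟩ := P3b_v hja hjb hab hv hvj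
  have huv := P3b_uv hu hv
  have hT := P3b_sh_T hja hjb hab hu huj hv hvj
  have hal := P3b_sh_al hja hjb hab hu huj hv hvj
  have hsame := P3b_sh_same hja hjb hab hu huj hv hvj
  have huT : u ∉ P3b_T a b X := by unfold P3b_T; simp [ua, ub]
  have hvT : v ∉ P3b_T a b X := by unfold P3b_T; simp [va, vb]
  have hα : P3b_al a b X ≤ (P3b_T a b X).card := Finset.card_filter_le _ _
  set R := Finset.univ.filter (fun i => P3b_rs X i = 1) with hR
  have huR : u ∈ R := by rw [hR]; simp [hu]
  have hvR : v ∉ R := by rw [hR]; simp [hv]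
  have hR' : Finset.univ.filter (fun i => P3b_rs (P3b_sh j a u v X) i = 1) = R := by
    rw [hR]; ext i; simp only [Finset.mem_filter, P3b_sh_rs]
  rw [P3b_avg hja hjb hab, P3b_avg hja hjb hab, hal]
  have key := P3c_coupling (P3b_T a b X) u v huT hvT huv (P3b_al a b X) hα R huR hvR
    (fun S => h a (P3b_mk j a X (P3b_T a b X) S) + h b (P3b_mk j a X (P3b_T a b X) S))
    (fun S => h a (P3b_mk j a (P3b_sh j a u v X) (P3b_T a b (P3b_sh j a u v X)) S) +
      h b (P3b_mk j a (P3b_sh j a u v X) (P3b_T a b (P3b_sh j a u v X)) S)) δ ?_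
  · rw [← hT] at key
    exact key
  intro S hS S' hS' hc
  rw [← hT, ← hal] at hS'
  have s1 := P3b_mk_same hja hjb hab X S hS
  have s2 := P3b_mk_same hja hjb hab (P3b_sh j a u v X) S' hS'
  have s3 := s2.symm.trans (hsame.trans s1)
  have k1 := P3b_kk_a hja hjb hab X S (Finset.mem_powersetCard.1 hS).1
  have k2 := P3b_kk_b hja hjb hab X S (Finset.mem_powersetCard.1 hS).1
  have k3 := P3b_kk_a hja hjb hab (P3b_sh j a u v X) S' (Finset.mem_powersetCard.1 hS').1
  have k4 := P3b_kk_b hja hjb hab (P3b_sh j a u v X) S' (Finset.mem_powersetCard.1 hS').1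
  rw [hR'] at k3 k4
  rw [← hR] at k1 k2
  have hTR : (P3b_T a b (P3b_sh j a u v X) ∩ R).card = (P3b_T a b X ∩ R).card + 1 := by
    rw [hT, Finset.insert_inter_of_mem huR, Finset.insert_inter_of_notMem hvR,
      Finset.card_insert_of_notMem (fun hh => huT (Finset.mem_inter.1 hh).1)]
  rw [hTR] at k4
  rcases hc with hc | hc
  · have e1 := hA a _ _ s3 (by omega)
    have e2 := hδ b _ _ s3 (by omega)
    rw [e1, show ∀ p q r : ℝ, p + q - (p + r) = q - r from fun p q r => by ring]
    exact e2
  · have e1 := hA b _ _ s3 (by omega)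
    have e2 := hδ a _ _ s3 (by omega)
    rw [e1, show ∀ p q r : ℝ, q + p - (r + p) = q - r from fun p q r => by ring]
    exact e2

end shift

theorem P3b_exists (j : Fin 3) {X Y : Mat ι} (hs : P3b_same X Y) (hk : P3b_kk j Y < P3b_kk j X) :
    ∃ u v, P3b_rs X u = 1 ∧ X u j = true ∧ P3b_rs X v = 2 ∧ X v j = false := by
  have h1 : 0 < (P3b_A 1 j X).card := by unfold P3b_kk at hk; omega
  obtain ⟨u, hu⟩ := Finset.card_pos.1 h1
  unfold P3b_A at hu
  simp only [Finset.mem_filter, Finset.mem_univ, true_and] at hu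
  have h2 : ∃ v, P3b_rs X v = 2 ∧ X v j = false := by
    by_contra hcon
    push Not at hcon
    have h3 : P3b_A 2 j Y ⊆ P3b_A 2 j X := by
      intro i hi
      unfold P3b_A at hi ⊢
      simp only [Finset.mem_filter, Finset.mem_univ, true_and] at hi ⊢
      refine ⟨(hs.1 i).trans hi.1, ?_⟩
      have := hcon i ((hs.1 i).trans hi.1)
      simpa using this
    have h4 := Finset.card_le_card h3
    have h5 := P3b_A2 j hs
    unfold P3b_kk at hk
    omega
  obtain ⟨v, hv⟩ := h2
  exact ⟨u, v, hu.1, hu.2, hv.1, hv.2⟩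

theorem eig_const (lam : ℝ) (hl : 2 < lam) (f : Mat ι → ℝ)
    (hf : ∀ X, ∑ j, avg (colRel j) f X = lam * f X)
    (hinv : ∀ u v X, f (rowSwap u v X) = f X) (X Y : Mat ι)
    (hrow : ∀ i, ∑ k, (X i k).toNat = ∑ k, (Y i k).toNat)
    (hcol : ∀ k, ∑ i, (X i k).toNat = ∑ i, (Y i k).toNat) : f X = f Y := by
  set h : Fin 3 → Mat ι → ℝ := fun j => avg (colRel j) f with hh
  have hA : ∀ i X Y, P3b_same X Y → P3b_kk i X = P3b_kk i Y → h i X = h i Y := by
    intro i X Y hs hk
    exact P3b_claimA (h i) i (fun u v X => P3b_avg_inv f hinv i u v X)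
      (fun X Y hr => avg_eq_of_rel _ f hr) _ X Y rfl hs hk
  -- the recursion
  have hrec : ∀ (j a b : Fin 3), j ≠ a → j ≠ b → a ≠ b → ∀ X,
      (lam - 1) * h j X = avg (colRel j) (fun Z => h a Z + h b Z) X := by
    intro j a b hja hjb hab X
    have h1 : lam • f = h j + fun Z => h a Z + h b Z := by
      funext Z
      have := hf Z
      rw [P3b_sum3 hja hjb hab] at this
      simp only [Pi.smul_apply, smul_eq_mul, Pi.add_apply, hh]
      exact this.symm
    have h2 := congrArg (fun g => avg (colRel j) g X) h1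
    simp only [avg_smul, avg_add, Pi.smul_apply, Pi.add_apply, smul_eq_mul] at h2
    have h3 : avg (colRel j) (h j) X = h j X := by
      rw [hh]
      simp only
      rw [avg_idem]
    rw [h3] at h2
    have h4 : avg (colRel j) f X = h j X := rfl
    rw [h4] at h2
    linarith
  -- the Lipschitz constant
  obtain ⟨δ, hδ0, hδ, hδmax⟩ : ∃ δ : ℝ, 0 ≤ δ ∧
      (∀ i X Y, P3b_same X Y → P3b_kk i X = P3b_kk i Y + 1 → |h i X - h i Y| ≤ δ) ∧
      (δ = 0 ∨ ∃ i X Y, P3b_same X Y ∧ P3b_kk i X = P3b_kk i Y + 1 ∧ |h i X - h i Y| = δ) := by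
    set P : Finset (Fin 3 × Mat ι × Mat ι) := Finset.univ.filter (fun p =>
      P3b_same p.2.1 p.2.2 ∧ P3b_kk p.1 p.2.1 = P3b_kk p.1 p.2.2 + 1) with hP
    rcases P.eq_empty_or_nonempty with hE | hN
    · refine ⟨0, le_rfl, ?_, Or.inl rfl⟩
      intro i X Y hs hk
      have : (i, X, Y) ∈ P := by rw [hP]; simp [hs, hk]
      rw [hE] at this
      exact absurd this (Finset.notMem_empty _)
    · obtain ⟨p, hp, hmax⟩ := Finset.exists_max_image P (fun p => |h p.1 p.2.1 - h p.1 p.2.2|) hN
      refine ⟨|h p.1 p.2.1 - h p.1 p.2.2|, abs_nonneg _, ?_, Or.inr ?_⟩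
      · intro i X Y hs hk
        exact hmax (i, X, Y) (by rw [hP]; simp [hs, hk])
      · rw [hP, Finset.mem_filter] at hp
        exact ⟨p.1, p.2.1, p.2.2, hp.2.1, hp.2.2, rfl⟩
  have hδ' : δ = 0 := by
    rcases hδmax with h0 | ⟨j, X, Y, hs, hk, hd⟩
    · exact h0
    obtain ⟨a, b, hja, hjb, hab⟩ := P3b_others j
    obtain ⟨u, v, hu, huj, hv, hvj⟩ := P3b_exists j hs (by omega)
    have hc := P3b_contr hja hjb hab hu huj hv hvj h hA δ hδ
    have hs' := P3b_sh_same hja hjb hab hu huj hv hvj
    have hk' := P3b_sh_kk hja hjb hab hu huj hv hvj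
    rw [← hrec j a b hja hjb hab, ← hrec j a b hja hjb hab, ← mul_sub, abs_mul,
      abs_of_pos (by linarith : 0 < lam - 1), hA j _ Y (hs'.trans hs) (by omega), abs_sub_comm,
      hd] at hc
    nlinarith
  have hconst : ∀ (j : Fin 3) (n : ℕ) (X Y : Mat ι), P3b_kk j X = P3b_kk j Y + n →
      P3b_same X Y → h j X = h j Y := by
    intro j n
    induction n with
    | zero => exact fun X Y hk hs => hA j X Y hs (by omega)
    | succ n ih =>
      intro X Y hk hs
      obtain ⟨a, b, hja, hjb, hab⟩ := P3b_others j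
      obtain ⟨u, v, hu, huj, hv, hvj⟩ := P3b_exists j hs (by omega)
      have hs' := P3b_sh_same hja hjb hab hu huj hv hvj
      have hk' := P3b_sh_kk hja hjb hab hu huj hv hvj
      have e1 := ih (P3b_sh j a u v X) Y (by omega) (hs'.trans hs)
      have e2 := hδ j X (P3b_sh j a u v X) hs'.symm (by omega)
      rw [hδ'] at e2
      have e3 := abs_nonpos_iff.1 e2
      linarith
  have hs : P3b_same X Y := ⟨hrow, hcol⟩
  have hall : ∀ j, h j X = h j Y := by
    intro j
    rcases le_total (P3b_kk j Y) (P3b_kk j X) with hle | hle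
    · exact hconst j (P3b_kk j X - P3b_kk j Y) X Y (by omega) hs
    · exact (hconst j (P3b_kk j Y - P3b_kk j X) Y X (by omega) hs.symm).symm
  have h1 := hf X
  have h2 := hf Y
  have h3 : ∑ j, avg (colRel j) f X = ∑ j, avg (colRel j) f Y :=
    Finset.sum_congr rfl fun j _ => hall j
  have h4 : lam * f X = lam * f Y := by rw [← h1, ← h2, h3]
  exact mul_left_cancel₀ (by linarith) h4

end Vale.Agent.P335
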