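import Mathlib

/-!
# P335: the switch chain on simple graphs with given degrees (definitions of the statement)
-/

open scoped Classical

namespace Vale.Agent.P335

/-- `Ω_d`: the simple graphs on `Fin n` with degree `d v` at every vertex `v` -/
abbrev Omega (n : ℕ) (d : Fin n → ℕ) : Type :=
  {G : SimpleGraph (Fin n) // ∀ v, G.degree v = d v}

/-- `F` is (the edge set of) a perfect matching of the complete graph on the vertex set `S` -/
def IsPM {n : ℕ} (S : Finset (Fin n)) (F : Finset (Sym2 (Fin n))) : Prop :=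
  (∀ e ∈ F, ¬ e.IsDiag ∧ ∀ v ∈ e, v ∈ S) ∧ ∀ v ∈ S, ∃! e, e ∈ F ∧ v ∈ e

/-- the ordered pairs `(F, F')` of distinct perfect matchings of the complete graph on `S` -/
noncomputable def pairs {n : ℕ} (S : Finset (Fin n)) :
    Finset (Finset (Sym2 (Fin n)) × Finset (Sym2 (Fin n))) :=
  Finset.univ.filter fun p => IsPM S p.1 ∧ IsPM S p.2 ∧ p.1 ≠ p.2

/-- replace `F` by `F'` if all edges of `F` are present in `G` and all edges of `F'` are absent;
otherwise stay put -/
noncomputable def attempt {n : ℕ} (G : SimpleGraph (Fin n)) (F F' : Finset (Sym2 (Fin n))) :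
    SimpleGraph (Fin n) :=
  if (∀ e ∈ F, e ∈ G.edgeSet) ∧ (∀ e ∈ F', e ∉ G.edgeSet) then
    SimpleGraph.fromEdgeSet ((G.edgeSet \ ↑F) ∪ ↑F') else G

/-- transition matrix `P_d` of the switch chain: with probability `1/2` stay put; otherwise choose a
`4`-element set `S` uniformly, then one of the ordered pairs `(F, F')` of distinct perfect matchings
of the complete graph on `S` uniformly, and attempt to replace `F` by `F'` -/
noncomputable def P {n : ℕ} (d : Fin n → ℕ) : Matrix (Omega n d) (Omega n d) ℝ := fun G H =>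
  (1 / 2) * (if H = G then 1 else 0) +
  (1 / 2) * ∑ S ∈ (Finset.univ : Finset (Fin n)).powersetCard 4, (1 / (n.choose 4 : ℝ)) *
    ∑ p ∈ pairs S, (1 / ((pairs S).card : ℝ)) * (if H.1 = attempt G.1 p.1 p.2 then 1 else 0)

/-- total variation distance of two functions on a finite set -/
noncomputable def tv {Ω : Type*} [Fintype Ω] (μ ν : Ω → ℝ) : ℝ := (1 / 2) * ∑ x, |μ x - ν x|

/-- the uniform distribution on `Ω_d` -/
noncomputable def unif {n : ℕ} (d : Fin n → ℕ) : Omega n d → ℝ := fun _ =>
  1 / (Fintype.card (Omega n d) : ℝ)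

/-- the times `t` at which the chain is within `1/4` of uniform from every starting graph -/
def mixedTimes {n : ℕ} (d : Fin n → ℕ) : Set ℕ :=
  {t | ∀ G : Omega n d, tv (fun H => (P d ^ t) G H) (unif d) ≤ 1 / 4}

/-- the mixing time -/
noncomputable def tmix {n : ℕ} (d : Fin n → ℕ) : ℕ := sInf (mixedTimes d)

end Vale.Agent.P335
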