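import Vale.Agent.P335.P3

/-! # From the three-column theorem to triples of vertices -/

open scoped Classical

namespace Vale.Agent.P335

namespace Tr

/-! ### averaging on a product -/

section prod

variable {X Y O : Type*} [Fintype X] [Fintype Y] [Fintype O]

theorem avg_prod (Φ : X ≃ Y × O) (r : Setoid X) (s : Setoid Y)
    (h : ∀ x x', r x x' ↔ (Φ x).2 = (Φ x').2 ∧ s (Φ x).1 (Φ x').1) (f : X → ℝ) (y : Y) (o : O) :
    avg r f (Φ.symm (y, o)) = avg s (fun y' => f (Φ.symm (y', o))) y := by
  have hinj : Function.Injective (fun y' : Y => Φ.symm (y', o)) := by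
    intro y1 y2 h12
    have := Φ.symm.injective h12
    exact (Prod.mk.inj this).1
  have hc : cls r (Φ.symm (y, o)) = (cls s y).map ⟨fun y' => Φ.symm (y', o), hinj⟩ := by
    ext z
    simp only [mem_cls, Finset.mem_map, Function.Embedding.coeFn_mk]
    rw [h]
    simp only [Equiv.apply_symm_apply]
    constructor
    · rintro ⟨h1, h2⟩
      refine ⟨(Φ z).1, h2, ?_⟩
      rw [h1]
      simp
    · rintro ⟨y', hy', rfl⟩
      simp only [Equiv.apply_symm_apply]
      exact ⟨trivial, hy'⟩
  rw [avg_def, avg_def, hc, Finset.sum_map, Finset.card_map]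
  rfl

theorem ip_prod (Φ : X ≃ Y × O) (f g : X → ℝ) :
    ip f g = ∑ o : O, ip (fun y => f (Φ.symm (y, o))) (fun y => g (Φ.symm (y, o))) := by
  unfold ip
  rw [← Equiv.sum_comp Φ.symm (fun x => f x * g x), Fintype.sum_prod_type_right]

end prod

/-- the abstract transfer -/
theorem transfer {X ι O : Type*} [Fintype X] [Fintype ι] [Fintype O] (Φ : X ≃ Mat ι × O)
    (r : Fin 3 → Setoid X)
    (h : ∀ k x x', r k x x' ↔ (Φ x).2 = (Φ x').2 ∧ colRel k (Φ x).1 (Φ x').1) (f : X → ℝ) :
    ip f (fun x => ∑ k, (f x - avg (r k) f x)) ≤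
      ip (fun x => ∑ k, (f x - avg (r k) f x)) (fun x => ∑ k, (f x - avg (r k) f x)) := by
  have a := ip_prod Φ f (fun x => ∑ k, (f x - avg (r k) f x))
  have b := ip_prod Φ (fun x => ∑ k, (f x - avg (r k) f x)) (fun x => ∑ k, (f x - avg (r k) f x))
  rw [a, b]
  refine Finset.sum_le_sum fun o _ => ?_
  have h1 : (fun y => ∑ k, (f (Φ.symm (y, o)) - avg (r k) f (Φ.symm (y, o)))) =
      L3 (fun y => f (Φ.symm (y, o))) := by
    funext y
    unfold L3
    refine Finset.sum_congr rfl fun k _ => ?_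
    rw [avg_prod Φ (r k) (colRel k) (h k)]
  have h2 := L3_sq (fun y => f (Φ.symm (y, o)))
  rw [← h1] at h2
  exact h2

/-! ### three bits -/

theorem f1 : ∀ j : Fin 3, j + 2 + 1 = j := by decide
theorem f2 : ∀ j : Fin 3, j + 2 + 2 = j + 1 := by decide
theorem f3 : ∀ j : Fin 3, j + 1 + 1 = j + 2 := by decide
theorem f4 : ∀ j : Fin 3, j + 1 + 2 = j := by decide
theorem f5 : ∀ k : Fin 3, k ≠ k + 1 := by decide
theorem f6 : ∀ k : Fin 3, k ≠ k + 2 := by decide
theorem f7 : ∀ j k : Fin 3, j = k ∨ j = k + 1 ∨ j = k + 2 := by decide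
theorem f8 : ∀ k : Fin 3, k + 1 ≠ k + 2 := by decide
theorem f9 : ∀ k k' : Fin 3, k + 1 = k' + 1 → k' = k := by decide
theorem f10 : ∀ k k' : Fin 3, k + 1 = k' + 2 → k + 2 = k' + 1 → False := by decide
theorem f11 : ∀ i j : Fin 3, i = j ∨ (∃ k, i = k + 1 ∧ j = k + 2) ∨ ∃ k, i = k + 2 ∧ j = k + 1 := by
  decide

/-- `T` -/
def T (x : Fin 3 → Bool) : Fin 3 → Bool :=
  fun j => if x 0 = x 1 ∧ x 1 = x 2 then x j else !x j

theorem T_T (x : Fin 3 → Bool) : T (T x) = x := by
  revert x; decide

theorem T_deg : ∀ (x : Fin 3 → Bool) (j : Fin 3), (x (j + 1)).toNat + (x (j + 2)).toNat =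
    (T x j).toNat + (∑ k, (T x k).toNat) % 2 := by
  decide

theorem T_fwd : ∀ (x y : Fin 3 → Bool) (k : Fin 3), T x k = T y k →
    (∑ k, (T x k).toNat) = ∑ k, (T y k).toNat → x k = y k := by
  decide

theorem T_bwd : ∀ (x y : Fin 3 → Bool) (k : Fin 3), x k = y k →
    (x (k + 1)).toNat + (x (k + 2)).toNat = (y (k + 1)).toNat + (y (k + 2)).toNat →
    T x k = T y k ∧ (∑ k, (T x k).toNat) = ∑ k, (T y k).toNat := by
  decide

/-! ### vertices -/

section vert

variable {V : Type*} [Fintype V] (t : Fin 3 → V)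

/-- outer vertices -/
abbrev W : Type _ := {v : V // ∀ j, v ≠ t j}

/-- inner edges, indexed by the opposite vertex -/
noncomputable def inner (G : SimpleGraph V) (k : Fin 3) : Bool := decide (G.Adj (t (k + 1)) (t (k + 2)))

/-- the matrix -/
noncomputable def M (G : SimpleGraph V) : Mat (Option (W t)) := fun r j =>
  match r with
  | none => T (inner t G) j
  | some w => decide (G.Adj w.1 (t j))

/-- the outer graph -/
def Out (G : SimpleGraph V) : SimpleGraph (W t) := G.comap Subtype.val

theorem sumV (ht : Function.Injective t) (f : V → ℕ) :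
    ∑ v, f v = ∑ j, f (t j) + ∑ w : W t, f w.1 := by
  have h1 := Fintype.sum_subtype_add_sum_subtype (fun v : V => ∀ j, v ≠ t j) f
  rw [← h1, add_comm]
  congr 1
  have h2 : ∑ v : {v : V // ¬ ∀ j, v ≠ t j}, f v.1 = ∑ v ∈ Finset.univ.image t, f v := by
    rw [← Finset.sum_subtype (Finset.univ.image t)]
    intro v
    simp only [Finset.mem_image, Finset.mem_univ, true_and, not_forall, not_not]
    constructor
    · rintro ⟨j, hj⟩; exact ⟨j, hj.symm⟩
    · rintro ⟨j, hj⟩; exact ⟨j, hj.symm⟩
  rw [h2, Finset.sum_image (fun x _ y _ h => ht h)]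

theorem deg_eq (G : SimpleGraph V) (v : V) : deg G v = ∑ u, (decide (G.Adj v u)).toNat := by
  unfold deg
  rw [Finset.card_filter]
  refine Finset.sum_congr rfl fun u _ => ?_
  by_cases h : G.Adj v u <;> simp [h]

theorem deg_outer (ht : Function.Injective t) (G : SimpleGraph V) (w : W t) :
    deg G w.1 = ∑ j, (M t G (some w) j).toNat + deg (Out t G) w := by
  rw [deg_eq, sumV t ht, deg_eq]
  rfl

theorem adj_dec_comm (G : SimpleGraph V) (u v : V) : decide (G.Adj u v) = decide (G.Adj v u) := by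
  simp [G.adj_comm]

theorem sum_fin3 (f : Fin 3 → ℕ) (j : Fin 3) : ∑ i, f i = f j + f (j + 1) + f (j + 2) := by
  rw [Fin.sum_univ_three]
  fin_cases j
  · rfl
  · show f 0 + f 1 + f 2 = f 1 + f 2 + f 0
    ring
  · show f 0 + f 1 + f 2 = f 2 + f 0 + f 1
    ring

theorem deg_inner (ht : Function.Injective t) (G : SimpleGraph V) (j : Fin 3) :
    deg G (t j) = (inner t G (j + 1)).toNat + (inner t G (j + 2)).toNat +
      ∑ w : W t, (M t G (some w) j).toNat := by
  rw [deg_eq, sumV t ht]
  congr 1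
  · rw [sum_fin3 _ j]
    have h0 : (decide (G.Adj (t j) (t j))).toNat = 0 := by simp
    have h1 : decide (G.Adj (t j) (t (j + 1))) = inner t G (j + 2) := by
      unfold inner
      rw [f1, f2]
    have h2 : decide (G.Adj (t j) (t (j + 2))) = inner t G (j + 1) := by
      unfold inner
      rw [f3, f4, adj_dec_comm]
    rw [h0, h1, h2, zero_add, add_comm]
  · refine Finset.sum_congr rfl fun w _ => ?_
    rw [adj_dec_comm]
    rfl

theorem deg_inner' (ht : Function.Injective t) (G : SimpleGraph V) (j : Fin 3) :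
    deg G (t j) = ∑ r, (M t G r j).toNat + (∑ k, (M t G none k).toNat) % 2 := by
  rw [deg_inner t ht, T_deg, Fintype.sum_option]
  show _ = (T (inner t G) j).toNat + _ + (∑ k, (T (inner t G) k).toNat) % 2
  ring

theorem out_adj (G : SimpleGraph V) (w w' : W t) : (Out t G).Adj w w' ↔ G.Adj w.1 w'.1 := Iff.rfl

theorem inner_iff (G : SimpleGraph V) (k : Fin 3) :
    inner t G k = true ↔ G.Adj (t (k + 1)) (t (k + 2)) := by
  unfold inner; simp

theorem M_some_iff (G : SimpleGraph V) (w : W t) (j : Fin 3) :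
    M t G (some w) j = true ↔ G.Adj w.1 (t j) := by
  show decide (G.Adj w.1 (t j)) = true ↔ _
  simp

theorem bool_eq_iff {a b : Bool} : a = b ↔ (a = true ↔ b = true) := by
  cases a <;> cases b <;> simp

theorem rel_iff (ht : Function.Injective t) (k : Fin 3) (G H : SimpleGraph V) :
    pairRel (t (k + 1)) (t (k + 2)) G H ↔ Out t G = Out t H ∧ colRel k (M t G) (M t H) := by
  have hk1 : t k ≠ t (k + 1) := fun h => f5 k (ht h)
  have hk2 : t k ≠ t (k + 2) := fun h => f6 k (ht h)
  constructor
  · rintro ⟨hadj, hdeg⟩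
    have hO : Out t G = Out t H := by
      ext w w'
      rw [out_adj, out_adj]
      refine hadj _ _ ?_
      have a1 := w.2 (k + 1)
      have a2 := w.2 (k + 2)
      have a3 := w'.2 (k + 1)
      have a4 := w'.2 (k + 2)
      tauto
    have hcol : ∀ w : W t, M t G (some w) k = M t H (some w) k := by
      intro w
      rw [bool_eq_iff, M_some_iff, M_some_iff]
      refine hadj _ _ ?_
      have a1 := w.2 (k + 1)
      have a2 := w.2 (k + 2)
      tauto
    have hin : inner t G k = inner t H k := by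
      rw [bool_eq_iff, inner_iff, inner_iff]
      refine hadj _ _ ?_
      tauto
    have hdk := hdeg (t k)
    rw [deg_inner t ht, deg_inner t ht, Finset.sum_congr rfl (fun w _ => by rw [hcol w])] at hdk
    have hdk' := Nat.add_right_cancel hdk
    obtain ⟨h1, h2⟩ := T_bwd _ _ k hin hdk'
    refine ⟨hO, ?_, ?_, ?_⟩
    · intro r
      cases r with
      | none => exact h1
      | some w => exact hcol w
    · intro r
      cases r with
      | none => exact h2
      | some w =>
        have := hdeg w.1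
        rw [deg_outer t ht, deg_outer t ht, hO] at this
        exact Nat.add_right_cancel this
    · intro j
      have := hdeg (t j)
      rw [deg_inner' t ht, deg_inner' t ht] at this
      have h3 : (∑ k, (M t G none k).toNat) = ∑ k, (M t H none k).toNat := h2
      rw [h3] at this
      exact Nat.add_right_cancel this
  · rintro ⟨hO, hcol, hrow, hsum⟩
    have hin : inner t G k = inner t H k := T_fwd _ _ k (hcol none) (hrow none)
    refine ⟨?_, ?_⟩
    · intro u v huv
      by_cases hu : u = t (k + 1) ∨ u = t (k + 2)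
      · have hv := huv.1 hu
        have hin' : G.Adj (t (k + 1)) (t (k + 2)) ↔ H.Adj (t (k + 1)) (t (k + 2)) := by
          rw [← inner_iff, ← inner_iff, hin]
        rcases hu with rfl | rfl <;> rcases hv with rfl | rfl
        · simp
        · exact hin'
        · rw [G.adj_comm, H.adj_comm]; exact hin'
        · simp
      · have hv : ¬ (v = t (k + 1) ∨ v = t (k + 2)) := fun h => hu (huv.2 h)
        have hcase : ∀ x : V, ¬ (x = t (k + 1) ∨ x = t (k + 2)) → x = t k ∨ ∀ j, x ≠ t j := by
          intro x hx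
          by_cases hxk : x = t k
          · exact Or.inl hxk
          · right
            intro j hj
            have hj3 := f7 j k
            rcases hj3 with rfl | rfl | rfl
            · exact hxk hj
            · exact hx (Or.inl hj)
            · exact hx (Or.inr hj)
        have hc : ∀ w : W t, G.Adj w.1 (t k) ↔ H.Adj w.1 (t k) := by
          intro w
          rw [← M_some_iff, ← M_some_iff, hcol (some w)]
        rcases hcase u hu with rfl | hu' <;> rcases hcase v hv with rfl | hv'
        · simp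
        · rw [G.adj_comm, H.adj_comm]; exact hc ⟨v, hv'⟩
        · exact hc ⟨u, hu'⟩
        · have := out_adj t G ⟨u, hu'⟩ ⟨v, hv'⟩
          rw [hO, out_adj] at this
          exact this.symm
    · intro v
      by_cases hv : ∀ j, v ≠ t j
      · have h1 := deg_outer t ht G ⟨v, hv⟩
        have h2 := deg_outer t ht H ⟨v, hv⟩
        rw [hO, hrow (some ⟨v, hv⟩)] at h1
        exact h1.trans h2.symm
      · push Not at hv
        obtain ⟨j, rfl⟩ := hv
        rw [deg_inner' t ht, deg_inner' t ht, hsum j, hrow none]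

/-- the map to matrices and outer graphs -/
noncomputable def Phi (G : SimpleGraph V) : Mat (Option (W t)) × SimpleGraph (W t) := (M t G, Out t G)

theorem Phi_inj : Function.Injective (Phi t) := by
  intro G H h
  have hM : M t G = M t H := (Prod.mk.inj h).1
  have hO : Out t G = Out t H := (Prod.mk.inj h).2
  have hin : inner t G = inner t H := by
    have h1 : T (inner t G) = T (inner t H) := by
      funext j
      exact congrFun (congrFun hM none) j
    rw [← T_T (inner t G), h1, T_T]
  have hin' : ∀ i j : Fin 3, G.Adj (t i) (t j) ↔ H.Adj (t i) (t j) := by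
    intro i j
    have hk := f11 i j
    rcases hk with rfl | ⟨k, rfl, rfl⟩ | ⟨k, rfl, rfl⟩
    · simp
    · rw [← inner_iff, ← inner_iff, hin]
    · rw [G.adj_comm, H.adj_comm, ← inner_iff, ← inner_iff, hin]
  have hc : ∀ (w : W t) j, G.Adj w.1 (t j) ↔ H.Adj w.1 (t j) := by
    intro w j
    rw [← M_some_iff, ← M_some_iff, hM]
  ext u v
  by_cases hu : ∀ j, u ≠ t j <;> by_cases hv : ∀ j, v ≠ t j
  · have := out_adj t G ⟨u, hu⟩ ⟨v, hv⟩
    rw [hO, out_adj] at this
    exact this.symm
  · push Not at hv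
    obtain ⟨j, rfl⟩ := hv
    exact hc ⟨u, hu⟩ j
  · push Not at hu
    obtain ⟨j, rfl⟩ := hu
    rw [G.adj_comm, H.adj_comm]
    exact hc ⟨v, hv⟩ j
  · push Not at hu hv
    obtain ⟨i, rfl⟩ := hu
    obtain ⟨j, rfl⟩ := hv
    exact hin' i j

/-- reconstruction of the graph -/
def rec0 (X : Mat (Option (W t))) (O : SimpleGraph (W t)) (u v : V) : Prop :=
  (∃ (hu : ∀ j, u ≠ t j) (hv : ∀ j, v ≠ t j), O.Adj ⟨u, hu⟩ ⟨v, hv⟩) ∨
  (∃ (hu : ∀ j, u ≠ t j) (j : Fin 3), v = t j ∧ X (some ⟨u, hu⟩) j = true) ∨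
  (∃ (hv : ∀ j, v ≠ t j) (j : Fin 3), u = t j ∧ X (some ⟨v, hv⟩) j = true) ∨
  (∃ k : Fin 3, ((u = t (k + 1) ∧ v = t (k + 2)) ∨ (u = t (k + 2) ∧ v = t (k + 1))) ∧
    T (X none) k = true)

/-- reconstructed graph -/
def recG (ht : Function.Injective t) (X : Mat (Option (W t))) (O : SimpleGraph (W t)) :
    SimpleGraph V where
  Adj := rec0 t X O
  symm := ⟨by
    rintro u v (⟨hu, hv, h⟩ | ⟨hu, j, h1, h2⟩ | ⟨hv, j, h1, h2⟩ | ⟨k, h1, h2⟩)
    · exact Or.inl ⟨hv, hu, h.symm⟩
    · exact Or.inr (Or.inr (Or.inl ⟨hu, j, h1, h2⟩))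
    · exact Or.inr (Or.inl ⟨hv, j, h1, h2⟩)
    · refine Or.inr (Or.inr (Or.inr ⟨k, ?_, h2⟩))
      rcases h1 with ⟨a, b⟩ | ⟨a, b⟩
      · exact Or.inr ⟨b, a⟩
      · exact Or.inl ⟨b, a⟩⟩
  loopless := ⟨by
    rintro u (⟨hu, hv, h⟩ | ⟨hu, j, h1, h2⟩ | ⟨hv, j, h1, h2⟩ | ⟨k, h1, h2⟩)
    · exact O.loopless.irrefl _ h
    · exact hu j h1
    · exact hv j h1
    · have hne := f8 k
      rcases h1 with ⟨a, b⟩ | ⟨a, b⟩
      · exact hne (ht (a.symm.trans b))
      · exact hne (ht (b.symm.trans a))⟩

theorem Phi_surj (ht : Function.Injective t) : Function.Surjective (Phi t) := by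
  rintro ⟨X, O⟩
  refine ⟨recG t ht X O, ?_⟩
  have hout : ∀ (w : W t) (j : Fin 3), w.1 ≠ t j := fun w j => w.2 j
  have hM : M t (recG t ht X O) = X := by
    funext r j
    cases r with
    | some w =>
      rw [bool_eq_iff, M_some_iff]
      constructor
      · rintro (⟨hu, hv, h⟩ | ⟨hu, j', h1, h2⟩ | ⟨hv, j', h1, h2⟩ | ⟨k, h1, h2⟩)
        · exact absurd rfl (hv j)
        · have := ht h1
          subst this
          exact h2
        · exact absurd rfl (hv j)
        · rcases h1 with ⟨a, b⟩ | ⟨a, b⟩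
          · exact absurd a (hout w _)
          · exact absurd a (hout w _)
      · intro h
        exact Or.inr (Or.inl ⟨w.2, j, rfl, h⟩)
    | none =>
      show T (inner t (recG t ht X O)) j = X none j
      have hin : inner t (recG t ht X O) = T (X none) := by
        funext k
        rw [bool_eq_iff, inner_iff]
        constructor
        · rintro (⟨hu, hv, h⟩ | ⟨hu, j', h1, h2⟩ | ⟨hv, j', h1, h2⟩ | ⟨k', h1, h2⟩)
          · exact absurd rfl (hv _)
          · exact absurd rfl (hu _)
          · exact absurd rfl (hv _)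
          · rcases h1 with ⟨a, b⟩ | ⟨a, b⟩
            · have := f9 k k' (ht a)
              subst this
              exact h2
            · exact (f10 k k' (ht a) (ht b)).elim
        · intro h
          exact Or.inr (Or.inr (Or.inr ⟨k, Or.inl ⟨rfl, rfl⟩, h⟩))
      rw [hin, T_T]
  have hO : Out t (recG t ht X O) = O := by
    ext w w'
    rw [out_adj]
    constructor
    · rintro (⟨hu, hv, h⟩ | ⟨hu, j', h1, h2⟩ | ⟨hv, j', h1, h2⟩ | ⟨k', h1, h2⟩)
      · exact h
      · exact absurd h1 (hout w' _)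
      · exact absurd h1 (hout w _)
      · rcases h1 with ⟨a, b⟩ | ⟨a, b⟩
        · exact absurd a (hout w _)
        · exact absurd a (hout w _)
    · intro h
      exact Or.inl ⟨w.2, w'.2, h⟩
  unfold Phi
  rw [hM, hO]

/-- the bijection -/
noncomputable def PhiE (ht : Function.Injective t) :
    SimpleGraph V ≃ Mat (Option (W t)) × SimpleGraph (W t) :=
  Equiv.ofBijective (Phi t) ⟨Phi_inj t, Phi_surj t ht⟩

/-- sum of the three complementary projections -/
noncomputable def Lt (f : SimpleGraph V → ℝ) : SimpleGraph V → ℝ :=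
  fun G => ∑ k : Fin 3, D (t (k + 1)) (t (k + 2)) f G

theorem Lt_sq (ht : Function.Injective t) (f : SimpleGraph V → ℝ) :
    ip f (Lt t f) ≤ ip (Lt t f) (Lt t f) :=
  transfer (PhiE t ht) (fun k => pairRel (t (k + 1)) (t (k + 2)))
    (fun k G H => rel_iff t ht k G H) f

end vert

end Tr

variable {V : Type*} [Fintype V]

theorem Tr_pairRel_comm (a b : V) : pairRel a b = pairRel b a := by
  ext G H
  constructor
  · rintro ⟨h1, h2⟩
    refine ⟨fun u v huv => h1 u v ?_, h2⟩
    tauto
  · rintro ⟨h1, h2⟩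
    refine ⟨fun u v huv => h1 u v ?_, h2⟩
    tauto

theorem Tr_D_comm (a b : V) (f : SimpleGraph V → ℝ) : D a b f = D b a f := by
  funext G
  unfold D E
  rw [Tr_pairRel_comm]

theorem Tr_ip_D (a b : V) (f : SimpleGraph V → ℝ) : ip f (D a b f) = ip (D a b f) (D a b f) := by
  have h1 : D a b f = f - avg (pairRel a b) f := rfl
  rw [h1]
  simp only [ip_sub_left, ip_sub_right]
  have h2 := ip_avg_self (pairRel a b) f
  have h3 := ip_comm (avg (pairRel a b) f) f
  linarith

theorem triple_nonneg (a b c : V) (hab : a ≠ b) (hbc : b ≠ c) (hac : a ≠ c)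
    (f : SimpleGraph V → ℝ) :
    0 ≤ ip (D a b f) (D b c f) + ip (D b c f) (D a c f) + ip (D a b f) (D a c f) := by
  have ht : Function.Injective ![a, b, c] := by
    intro i j h
    fin_cases i <;> fin_cases j <;> simp_all
  have h1 := Tr.Lt_sq ![a, b, c] ht f
  have h2 : Tr.Lt ![a, b, c] f = D b c f + D a c f + D a b f := by
    funext G
    unfold Tr.Lt
    rw [Fin.sum_univ_three]
    show D b c f G + D c a f G + D a b f G = _
    rw [Tr_D_comm c a]
    rfl
  rw [h2] at h1
  simp only [ip_add_left, ip_add_right] at h1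
  have e1 := Tr_ip_D a b f
  have e2 := Tr_ip_D b c f
  have e3 := Tr_ip_D a c f
  have c1 := ip_comm (D a b f) (D b c f)
  have c2 := ip_comm (D b c f) (D a c f)
  have c3 := ip_comm (D a b f) (D a c f)
  linarith

end Vale.Agent.P335
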